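import Vale.Agent.P200G.Step

/-!
# Base change to an extension field
-/

namespace Vale.Agent.P200G

open MvPolynomial Module Vale.Agent.P200

section Coord

variable {K L ι : Type*} [Field K] [Field L] [Algebra K L]

/-- The base change of polynomials. -/
noncomputable abbrev bc (K L : Type*) [Field K] [Field L] [Algebra K L] : Pol K →+* Pol L :=
  MvPolynomial.map (algebraMap K L)

/-- The coefficientwise coordinate with respect to a basis of the extension. -/
noncomputable def piB (B : Basis ι K L) (α : ι) (q : Pol L) : Pol K :=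
  ∑ e ∈ q.support, monomial e (B.coord α (coeff e q))

theorem coeff_piB (B : Basis ι K L) (α : ι) (q : Pol L) (e : Fin 3 →₀ ℕ) :
    coeff e (piB B α q) = B.coord α (coeff e q) := by
  classical
  unfold piB
  rw [coeff_sum]
  simp only [coeff_monomial]
  rw [Finset.sum_ite_eq']
  split_ifs with h
  · rfl
  · rw [notMem_support_iff.mp h, map_zero]

theorem piB_add (B : Basis ι K L) (α : ι) (q r : Pol L) :
    piB B α (q + r) = piB B α q + piB B α r := by
  ext e
  rw [coeff_piB, coeff_add, coeff_add, coeff_piB, coeff_piB, map_add]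

theorem piB_zero (B : Basis ι K L) (α : ι) : piB B α (0 : Pol L) = 0 := by
  ext e
  rw [coeff_piB, coeff_zero, coeff_zero, map_zero]

theorem piB_mul (B : Basis ι K L) (α : ι) (a : Pol K) (q : Pol L) :
    piB B α (bc K L a * q) = a * piB B α q := by
  classical
  ext e
  rw [coeff_piB, coeff_mul, coeff_mul, map_sum]
  refine Finset.sum_congr rfl fun x _ => ?_
  rw [coeff_map, coeff_piB, ← Algebra.smul_def, map_smul, smul_eq_mul]

theorem piB_C (B : Basis ι K L) (α : ι) (μ : L) :
    piB B α (C μ : Pol L) = C (B.coord α μ) := by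
  classical
  ext e
  rw [coeff_piB, coeff_C, coeff_C]
  split_ifs
  · rfl
  · rw [map_zero]

theorem eq_zero_of_piB (B : Basis ι K L) {q : Pol L} (h : ∀ α, piB B α q = 0) : q = 0 := by
  ext e
  rw [coeff_zero]
  apply B.ext_elem
  intro α
  have h1 := congrArg (coeff e) (h α)
  rw [coeff_piB, coeff_zero, Basis.coord_apply] at h1
  rw [h1, map_zero, Finsupp.zero_apply]

/-- Every polynomial over the extension is recovered from its coordinates. -/
theorem recon (B : Basis ι K L) (q : Pol L) :
    ∃ A : Finset ι, q = ∑ α ∈ A, C (B α) * bc K L (piB B α q) := by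
  classical
  refine ⟨q.support.biUnion fun e => (B.repr (coeff e q)).support, ?_⟩
  ext e
  rw [coeff_sum]
  simp only [coeff_C_mul, coeff_map, coeff_piB]
  have h1 : coeff e q = ∑ α ∈ (B.repr (coeff e q)).support, B.repr (coeff e q) α • B α := by
    conv_lhs => rw [← B.linearCombination_repr (coeff e q)]
    rfl
  have hsub : (B.repr (coeff e q)).support ⊆ q.support.biUnion fun e => (B.repr (coeff e q)).support := by
    intro α hα
    refine Finset.mem_biUnion.mpr ⟨e, ?_, hα⟩
    rw [MvPolynomial.mem_support_iff]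
    intro h0
    rw [h0] at hα
    simp at hα
  conv_lhs => rw [h1]
  rw [Finset.sum_subset hsub]
  · refine Finset.sum_congr rfl fun α _ => ?_
    rw [Algebra.smul_def, Basis.coord_apply, mul_comm]
  · intro α _ hα
    rw [Finsupp.notMem_support_iff.mp hα, zero_smul]

theorem mem_map_iff (B : Basis ι K L) {𝔠 : Ideal (Pol K)} {q : Pol L} :
    q ∈ Ideal.map (bc K L) 𝔠 ↔ ∀ α, piB B α q ∈ 𝔠 := by
  constructor
  · intro hq
    have key : ∀ x ∈ Ideal.map (bc K L) 𝔠, ∀ (a : Pol L) (α : ι), piB B α (a * x) ∈ 𝔠 := by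
      intro x hx
      unfold Ideal.map at hx
      induction hx using Submodule.span_induction with
      | mem x hx =>
        obtain ⟨c, hc, rfl⟩ := hx
        intro a α
        rw [mul_comm, piB_mul]
        exact Ideal.mul_mem_right _ _ hc
      | zero =>
        intro a α
        rw [mul_zero, piB_zero]
        exact Ideal.zero_mem _
      | add x y _ _ hx hy =>
        intro a α
        rw [mul_add, piB_add]
        exact Ideal.add_mem _ (hx a α) (hy a α)
      | smul r x _ hx =>
        intro a α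
        rw [smul_eq_mul, ← mul_assoc]
        exact hx _ α
    intro α
    have := key q hq 1 α
    rwa [one_mul] at this
  · intro h
    obtain ⟨A, hA⟩ := recon B q
    rw [hA]
    refine Ideal.sum_mem _ fun α _ => Ideal.mul_mem_left _ _ (Ideal.mem_map_of_mem _ (h α))

theorem reg_transfer {𝔠 : Ideal (Pol K)} {r : Pol K} (h : RegMod r 𝔠) :
    RegMod (bc K L r) (Ideal.map (bc K L) 𝔠) := by
  let B := Basis.ofVectorSpace K L
  intro a ha
  rw [mem_map_iff B] at ha ⊢
  intro α
  apply h
  have := ha α
  rwa [mul_comm, piB_mul, mul_comm] at this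

/-- The base change of a subspace. -/
noncomputable def bcs (L : Type*) [Field L] [Algebra K L] (W : Submodule K (Pol K)) :
    Submodule L (Pol L) := Submodule.span L (bc K L '' W)

theorem bcs_mono {W W' : Submodule K (Pol K)} (h : W ≤ W') : bcs L W ≤ bcs L W' :=
  Submodule.span_mono (Set.image_mono h)

theorem bc_mem_bcs {W : Submodule K (Pol K)} {w : Pol K} (hw : w ∈ W) : bc K L w ∈ bcs L W :=
  Submodule.subset_span ⟨w, hw, rfl⟩

theorem bcs_le_Sd {W : Submodule K (Pol K)} {n : ℕ} (h : W ≤ Sd K n) : bcs L W ≤ Sd L n := by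
  refine Submodule.span_le.mpr ?_
  rintro _ ⟨w, hw, rfl⟩
  exact (show w.IsHomogeneous n from h hw).map _

theorem finrank_bcs {W : Submodule K (Pol K)} [FiniteDimensional K W] :
    finrank L (bcs L W) = finrank K W := by
  classical
  let b := Module.finBasis K W
  let v : Fin (finrank K W) → Pol L := fun i => bc K L (b i : Pol K)
  have hspan : Submodule.span L (Set.range v) = bcs L W := by
    apply le_antisymm
    · refine Submodule.span_le.mpr ?_
      rintro _ ⟨i, rfl⟩
      exact bc_mem_bcs (b i).2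
    · refine Submodule.span_le.mpr ?_
      rintro _ ⟨w, hw, rfl⟩
      have h1 : (⟨w, hw⟩ : W) = ∑ i, b.repr ⟨w, hw⟩ i • b i := (b.sum_repr _).symm
      have h2 : w = ∑ i, b.repr ⟨w, hw⟩ i • (b i : Pol K) := by
        have h3 : ((⟨w, hw⟩ : W) : Pol K) = ((∑ i, b.repr ⟨w, hw⟩ i • b i : W) : Pol K) :=
          congrArg Subtype.val h1
        rw [Submodule.coe_sum] at h3
        exact h3
      rw [h2, map_sum]
      refine Submodule.sum_mem _ fun i _ => ?_
      rw [smul_eq_C_mul, map_mul, map_C]
      rw [← smul_eq_C_mul]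
      exact Submodule.smul_mem _ _ (Submodule.subset_span ⟨i, rfl⟩)
  have hli : LinearIndependent L v := by
    rw [Fintype.linearIndependent_iff]
    intro μ hμ i
    let B := Basis.ofVectorSpace K L
    apply B.ext_elem
    intro α
    rw [map_zero, Finsupp.zero_apply]
    have h1 : piB B α (∑ j, μ j • v j) = ∑ j, B.coord α (μ j) • (b j : Pol K) := by
      have h2 : ∀ s : Finset (Fin (finrank K W)), piB B α (∑ j ∈ s, μ j • v j)
          = ∑ j ∈ s, B.coord α (μ j) • (b j : Pol K) := by
        intro s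
        induction s using Finset.induction_on with
        | empty => simp [piB_zero]
        | insert a s ha ih =>
          rw [Finset.sum_insert ha, Finset.sum_insert ha, piB_add, ih]
          congr 1
          rw [smul_eq_C_mul, mul_comm, piB_mul, piB_C, smul_eq_C_mul, mul_comm]
      exact h2 Finset.univ
    rw [hμ, piB_zero] at h1
    have h3 : ∑ j, B.coord α (μ j) • b j = 0 := by
      apply Subtype.ext
      simpa using h1.symm
    have h4 := Fintype.linearIndependent_iff.mp b.linearIndependent _ h3 i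
    rwa [Basis.coord_apply] at h4
  rw [← hspan, finrank_span_eq_card hli]
  simp

theorem Sd_one_le : Sd L 1 ≤ bcs L (Sd K 1) := by
  refine (Submodule.eq_of_le_of_finrank_le (bcs_le_Sd le_rfl) ?_).ge
  rw [finrank_bcs, finrank_Sd, finrank_Sd]

theorem up_bcs_le {W : Submodule K (Pol K)} : up (bcs L W) ≤ bcs L (up W) := by
  have h1 : up (bcs L W) ≤ bcs L (Sd K 1) * bcs L W := mul_le_mul' Sd_one_le le_rfl
  refine h1.trans ?_
  unfold bcs
  rw [Submodule.span_mul_span]
  refine Submodule.span_mono ?_
  rintro _ ⟨_, ⟨a, ha, rfl⟩, _, ⟨v, hv, rfl⟩, rfl⟩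
  refine ⟨a * v, mul_mem_up ha hv, ?_⟩
  simp

end Coord

namespace IsReg3

variable {K L : Type*} [Field K] [Field L] [Algebra K L] {d : Fin 3 → ℕ} {p : Fin 3 → Pol K}

theorem base_change (hp : IsReg3 d p) : IsReg3 d (fun i => bc K L (p i)) where
  hom := fun i => (hp.hom i).map _
  pos := hp.pos
  reg₀ := by
    intro a ha
    have h0 : bc K L (p 0) ≠ 0 := by
      intro h
      apply hp.p0_ne
      apply MvPolynomial.map_injective _ (algebraMap K L).injective
      rw [map_zero]
      exact h
    exact (mul_eq_zero.mp ha).resolve_right h0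
  reg₁ := by
    have h := reg_transfer (L := L) hp.reg₁
    rw [Ideal.map_span, Set.image_singleton] at h
    exact h
  reg₂ := by
    have h := reg_transfer (L := L) hp.reg₂
    rw [Ideal.map_span, Set.image_pair] at h
    exact h

theorem Fid_bc (p : Fin 3 → Pol K) : Fid (fun i => bc K L (p i)) = Ideal.map (bc K L) (Fid p) := by
  unfold Fid
  rw [Ideal.map_span, ← Set.range_comp]
  rfl

theorem finrank_Id_bc (hp : IsReg3 d p) (n : ℕ) :
    finrank L (Id (Fid fun i => bc K L (p i)) n) = finrank K (Id (Fid p) n) := by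
  have h1 := hp.finrank_Id (K := K) n
  have h2 := (hp.base_change (L := L)).finrank_Id n
  omega

theorem Id_bc (hp : IsReg3 d p) (n : ℕ) :
    Id (Fid fun i => bc K L (p i)) n = bcs L (Id (Fid p) n) := by
  symm
  refine Submodule.eq_of_le_of_finrank_le ?_ ?_
  · refine Submodule.span_le.mpr ?_
    rintro _ ⟨q, hq, rfl⟩
    have hq' := mem_Id.mp hq
    refine mem_Id.mpr ⟨?_, hq'.2.map _⟩
    rw [Fid_bc]
    exact Ideal.mem_map_of_mem _ hq'.1
  · rw [finrank_Id_bc hp, finrank_bcs]

/-- The growth inequality in low degree, over every field. -/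
theorem step_low_all {K : Type*} [Field K] {d : Fin 3 → ℕ} {p : Fin 3 → Pol K} {b : ℕ}
    (hp : IsReg3 d p) (h0 : d 0 = 3) (h1 : d 1 = b) (h2 : d 2 = b)
    (hb : 3 ≤ b) {j : ℕ} (hj : j + 1 ≤ b) {Y : Submodule K (Pol K)}
    (hY1 : Id (Fid p) j ≤ Y) (hY2 : Y ≤ Sd K j) :
    finrank K (Id (Fid p) (j + 1)) + phi b j (finrank K Y - finrank K (Id (Fid p) j))
      ≤ finrank K ↥(up Y ⊔ Id (Fid p) (j + 1)) := by
  let L := AlgebraicClosure K
  haveI := finDim hY2
  have hq := hp.base_change (L := L)
  have hTle : up Y ⊔ Id (Fid p) (j + 1) ≤ Sd K (j + 1) := sup_le (up_le hY2) (Id_le _ _)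
  haveI := finDim hTle
  have hV1 : Id (Fid fun i => bc K L (p i)) j ≤ bcs L Y := by
    rw [Id_bc hp]
    exact bcs_mono hY1
  have hV2 : bcs L Y ≤ Sd L j := bcs_le_Sd hY2
  have main := hq.step_low h0 h1 h2 hb hj hV1 hV2
  rw [finrank_Id_bc hp, finrank_Id_bc hp, finrank_bcs] at main
  have hle : up (bcs L Y) ⊔ Id (Fid fun i => bc K L (p i)) (j + 1)
      ≤ bcs L (up Y ⊔ Id (Fid p) (j + 1)) := by
    refine sup_le (up_bcs_le.trans (bcs_mono le_sup_left)) ?_
    rw [Id_bc hp]
    exact bcs_mono le_sup_right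
  haveI : FiniteDimensional L (bcs L (up Y ⊔ Id (Fid p) (j + 1))) :=
    Submodule.finiteDimensional_of_le (bcs_le_Sd hTle)
  have h3 : finrank L ↥(up (bcs L Y) ⊔ Id (Fid fun i => bc K L (p i)) (j + 1))
      ≤ finrank L (bcs L (up Y ⊔ Id (Fid p) (j + 1))) :=
    Submodule.finrank_mono hle
  rw [finrank_bcs] at h3
  omega

end IsReg3

end Vale.Agent.P200G
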