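import Vale.Agent.P200G.Depth

/-!
# Growth modulo one cubic, and growth modulo a regular pair in low degree
-/

namespace Vale.Agent.P200G

open MvPolynomial Module Vale.Agent.P200

variable {K : Type*} [Field K]

theorem map_mulBy_le_up {l : Pol K} (hl : l.IsHomogeneous 1) {V : Submodule K (Pol K)} :
    V.map (mulBy l) ≤ up V := by
  intro x hx
  obtain ⟨w, hw, rfl⟩ := mem_map_mulBy.mp hx
  exact mul_mem_up hl hw

/-- A regular sequence from its three members. -/
theorem isReg3_mk {p₀ p₁ p₂ : Pol K} {d₀ d₁ d₂ : ℕ} (h₀ : p₀.IsHomogeneous d₀)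
    (h₁ : p₁.IsHomogeneous d₁) (h₂ : p₂.IsHomogeneous d₂) (hd₀ : 0 < d₀) (hd₁ : 0 < d₁)
    (hd₂ : 0 < d₂) (h0 : p₀ ≠ 0) (r₁ : RegMod p₁ (Ideal.span {p₀}))
    (r₂ : RegMod p₂ (Ideal.span {p₀, p₁})) : IsReg3 ![d₀, d₁, d₂] ![p₀, p₁, p₂] where
  hom := by
    intro i
    fin_cases i
    · exact h₀
    · exact h₁
    · exact h₂
  pos := by
    intro i
    fin_cases i
    · exact hd₀
    · exact hd₁
    · exact hd₂
  reg₀ := fun a ha => (mul_eq_zero.mp ha).resolve_right h0
  reg₁ := r₁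
  reg₂ := r₂

theorem Fid_vec (p₀ p₁ p₂ : Pol K) :
    Fid ![p₀, p₁, p₂] = Ideal.span {p₀, p₁} ⊔ Ideal.span {p₂} := by
  apply le_antisymm
  · rw [Fid, Ideal.span_le]
    rintro _ ⟨i, rfl⟩
    fin_cases i
    · exact Ideal.mem_sup_left (Ideal.subset_span (by simp))
    · exact Ideal.mem_sup_left (Ideal.subset_span (by simp))
    · exact Ideal.mem_sup_right (Ideal.subset_span (by simp))
  · refine sup_le ?_ ?_
    · rw [Ideal.span_le]
      rintro x (rfl | rfl)
      · exact p_mem_Fid (p := ![x, p₁, p₂]) 0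
      · exact p_mem_Fid (p := ![p₀, x, p₂]) 1
    · rw [Ideal.span_le]
      rintro x rfl
      exact p_mem_Fid (p := ![p₀, p₁, x]) 2

theorem span_sup_singleton (f l : Pol K) :
    Ideal.span {f} ⊔ Ideal.span {l} = Ideal.span {f, l} := by
  rw [Ideal.span_insert]

theorem one_not_mem_singleton {f : Pol K} {e : ℕ} (hf : f.IsHomogeneous e) (he : 0 < e) :
    (1 : Pol K) ∉ Ideal.span {f} := by
  have h := one_not_mem_pair hf hf he he
  have h2 : ({f, f} : Set (Pol K)) = {f} := by simp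
  rwa [h2] at h

/-- Two linear forms, a regular sequence together with the cubic. -/
theorem exists_lm [Infinite K] {f : Pol K} {e : ℕ} (hf : f.IsHomogeneous e) (he : 0 < e)
    (hf0 : f ≠ 0) :
    ∃ l m : Pol K, Lin l ∧ RegMod l (Ideal.span {f}) ∧ Lin m ∧
      RegMod m (Ideal.span {f} ⊔ Ideal.span {l}) := by
  obtain ⟨l, hl, hreg⟩ := exists_linear (depth_single hf0) (one_not_mem_singleton hf he)
  have hd := depth_pair hf0 hreg
  obtain ⟨m, hm, hregm⟩ := exists_linear hd (one_not_mem_pair hf hl.hom he (by norm_num))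
  refine ⟨l, m, hl, hreg, hm, ?_⟩
  rw [span_sup_singleton]
  exact hregm

theorem Id_singleton_low {f : Pol K} {e : ℕ} (hf : f.IsHomogeneous e) {n : ℕ} (hn : n < e) :
    Id (Ideal.span {f}) n = ⊥ := by
  rw [eq_bot_iff]
  intro q hq
  rw [mem_Id] at hq
  obtain ⟨a, rfl⟩ := Ideal.mem_span_singleton'.mp hq.1
  rw [Submodule.mem_bot, ← homogeneousComponent_eq_self hq.2]
  exact hc_mul_lt hf _ hn

/-- Growth modulo one form of degree three: the excess is at least one for nonzero spaces,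
at least two when the dimension is at least `t`, and at least three when it is at least `2t`. -/
theorem boundC [Infinite K] {f : Pol K} (hf : f.IsHomogeneous 3) (hf0 : f ≠ 0) :
    ∀ t, 1 ≤ t → ∀ V : Submodule K (Pol K), Id (Ideal.span {f}) t ≤ V → V ≤ Sd K t →
      ∀ u uT : ℕ, finrank K V = u + finrank K (Id (Ideal.span {f}) t) →
        finrank K ↥(up V ⊔ Id (Ideal.span {f}) (t + 1))
          = uT + finrank K (Id (Ideal.span {f}) (t + 1)) →
      (1 ≤ u → u + 1 ≤ uT) ∧ (t ≤ u → 1 ≤ u → u + 2 ≤ uT) ∧ (2 * t ≤ u → u + 3 ≤ uT) := by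
  obtain ⟨l, m, hl, hreg, hm, hregm⟩ := exists_lm hf (by norm_num) hf0
  have h𝔠 : HomIdeal (Ideal.span {f}) := homIdeal_singleton hf
  intro t ht
  induction t, ht using Nat.le_induction with
  | base =>
    intro V _ h2 u uT hu huT
    have h0 : Id (Ideal.span {f}) 1 = ⊥ := Id_singleton_low hf (by norm_num)
    have h0' : Id (Ideal.span {f}) (1 + 1) = ⊥ := Id_singleton_low hf (by norm_num)
    rw [h0, finrank_bot, add_zero] at hu
    rw [h0', finrank_bot, add_zero, sup_bot_eq] at huT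
    have hle := finrank_le_of_le h2
    rw [finrank_Sd] at hle
    norm_num [Nat.choose] at hle
    refine ⟨fun h => ?_, fun _ h => ?_, fun h => ?_⟩
    · have := up_ge_three h2 (by omega)
      by_cases h3 : u = 1
      · omega
      · have := up_ge_five h2 (by omega)
        by_cases h4 : u = 2
        · omega
        · have := up_ge_six h2 (by omega)
          omega
    · have := up_ge_three h2 (by omega)
      by_cases h3 : u = 1
      · omega
      · have := up_ge_five h2 (by omega)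
        by_cases h4 : u = 2
        · omega
        · have := up_ge_six h2 (by omega)
          omega
    · have := up_ge_five h2 (by omega)
      by_cases h4 : u = 2
      · omega
      · have := up_ge_six h2 (by omega)
        omega
  | succ t ht ih =>
    intro V h1 h2 u uT hu huT
    obtain ⟨ub, e1, e2, e3⟩ := step_bound h𝔠 hl hreg hm hregm h1 h2
    have hC1 : Id (Ideal.span {f}) t ≤ colon l V := Id_le_colon hl h1
    have hC2 : colon l V ≤ Sd K t := colon_le hl h2
    haveI := finDim hC2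
    have h5 := finrank_le_of_le hC1
    obtain ⟨uC, huC⟩ : ∃ uC, finrank K (colon l V) = uC + finrank K (Id (Ideal.span {f}) t) :=
      ⟨finrank K (colon l V) - finrank K (Id (Ideal.span {f}) t), by omega⟩
    have hU : up (colon l V) ⊔ Id (Ideal.span {f}) (t + 1) ≤ Sd K (t + 1) :=
      sup_le (up_le hC2) (Id_le _ _)
    haveI := finDim hU
    have h6 : finrank K (Id (Ideal.span {f}) (t + 1))
        ≤ finrank K ↥(up (colon l V) ⊔ Id (Ideal.span {f}) (t + 1)) :=
      finrank_le_of_le le_sup_right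
    obtain ⟨vC, hvC⟩ : ∃ vC, finrank K ↥(up (colon l V) ⊔ Id (Ideal.span {f}) (t + 1))
        = vC + finrank K (Id (Ideal.span {f}) (t + 1)) :=
      ⟨_, (Nat.sub_add_cancel h6).symm⟩
    obtain ⟨i1, i2, i3⟩ := ih (colon l V) hC1 hC2 uC vC huC hvC
    have huT' : finrank K ↥(up V ⊔ Id (Ideal.span {f}) (t + 2))
        = uT + finrank K (Id (Ideal.span {f}) (t + 2)) := huT
    refine ⟨fun h => ?_, fun _ h => ?_, fun h => ?_⟩
    · by_cases hub : 1 ≤ ub
      · omega
      · have := i1 (by omega)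
        omega
    · by_contra hcon
      have h7 : 1 ≤ uC := by omega
      have h8 : t ≤ uC := by omega
      have := i2 h8 h7
      omega
    · by_contra hcon
      have h8 : 2 * t ≤ uC := by omega
      have := i3 h8
      omega

/-- The equality case of the growth modulo a regular pair lands in the ideal with a linear form. -/
theorem E0_aux {𝔞 : Ideal (Pol K)} {p₀ p₁ l : Pol K} {α β : ℕ} (h𝔞e : 𝔞 = Ideal.span {p₀, p₁})
    (hl : Lin l) (hreg : RegMod l 𝔞)
    (hT3 : IsReg3 ![α, β, 1] ![p₀, p₁, l]) {j : ℕ} (hj : j + 3 ≤ α + β)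
    {V : Submodule K (Pol K)} (h1 : Id 𝔞 j ≤ V) (h2 : V ≤ Sd K j)
    (hcon : finrank K ↥(up V ⊔ Id 𝔞 (j + 1)) + finrank K (Id 𝔞 j)
      < finrank K V + 1 + finrank K (Id 𝔞 (j + 1))) :
    V ≤ Id (𝔞 ⊔ Ideal.span {l}) j := by
  have e := regular_dim hl.hom hl.ne hreg h1 h2
  have hTle : up V ⊔ Id 𝔞 (j + 1) ≤ Sd K (j + 1) := sup_le (up_le h2) (Id_le _ _)
  haveI := finDim hTle
  have hAT : V.map (mulBy l) ⊔ Id 𝔞 (j + 1) ≤ up V ⊔ Id 𝔞 (j + 1) :=
    sup_le_sup_right (map_mulBy_le_up hl.hom) _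
  have hAT' : V.map (mulBy l) ⊔ Id 𝔞 (j + 1) = up V ⊔ Id 𝔞 (j + 1) :=
    Submodule.eq_of_le_of_finrank_le hAT (by omega)
  intro v hv
  rw [mem_Id]
  have hv' : v.IsHomogeneous j := h2 hv
  refine ⟨?_, hv'⟩
  have hF : Fid ![p₀, p₁, l] = 𝔞 ⊔ Ideal.span {l} := by rw [Fid_vec, h𝔞e]
  rw [← hF]
  refine hT3.socle (k := j) (by simp; omega) hv' fun i => ?_
  rw [hF]
  have h3 : X i * v ∈ V.map (mulBy l) ⊔ Id 𝔞 (j + 1) := by
    rw [hAT']
    exact Submodule.mem_sup_left (mul_mem_up (isHomogeneous_X K i) hv)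
  obtain ⟨a, ha, b, hb, hab⟩ := Submodule.mem_sup.mp h3
  rw [← hab]
  refine Ideal.add_mem _ ?_ (Ideal.mem_sup_left (mem_Id.mp hb).1)
  obtain ⟨w, -, rfl⟩ := mem_map_mulBy.mp ha
  exact Ideal.mem_sup_right (Ideal.mul_mem_right _ _ (Ideal.mem_span_singleton_self l))

/-- Growth modulo a regular pair in low degree: the excess is at least one for nonzero spaces. -/
theorem E0 [Infinite K] {p₀ p₁ : Pol K} {α β : ℕ} (h₀ : p₀.IsHomogeneous α)
    (h₁ : p₁.IsHomogeneous β) (hα : 0 < α) (hβ : 0 < β) (h0 : p₀ ≠ 0)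
    (hr : RegMod p₁ (Ideal.span {p₀})) :
    ∀ j, j + 3 ≤ α + β → ∀ V : Submodule K (Pol K), Id (Ideal.span {p₀, p₁}) j ≤ V → V ≤ Sd K j →
      Id (Ideal.span {p₀, p₁}) j ≠ V →
      finrank K V + 1 + finrank K (Id (Ideal.span {p₀, p₁}) (j + 1))
        ≤ finrank K ↥(up V ⊔ Id (Ideal.span {p₀, p₁}) (j + 1))
          + finrank K (Id (Ideal.span {p₀, p₁}) j) := by
  obtain ⟨l, hl, hreg⟩ := exists_linear (depth_pair h0 hr) (one_not_mem_pair h₀ h₁ hα hβ)
  have h𝔞 : HomIdeal (Ideal.span {p₀, p₁}) := homIdeal_pair h₀ h₁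
  have hT3 : IsReg3 ![α, β, 1] ![p₀, p₁, l] :=
    isReg3_mk h₀ h₁ hl.hom hα hβ (by norm_num) h0 hr hreg
  intro j
  induction j with
  | zero =>
    intro hj V h1 h2 hne
    by_contra hcon
    apply hne
    refine le_antisymm h1 ?_
    have h3 := E0_aux rfl hl hreg hT3 hj h1 h2 (by omega)
    exact h3.trans (Id_sup_zero h𝔞 hl.hom)
  | succ n ih =>
    intro hj V h1 h2 hne
    by_contra hcon
    have h3 := E0_aux rfl hl hreg hT3 hj h1 h2 (by omega)
    apply hcon
    have hsup : V ⊔ Id (Ideal.span {p₀, p₁} ⊔ Ideal.span {l}) (n + 1)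
        = Id (Ideal.span {p₀, p₁} ⊔ Ideal.span {l}) (n + 1) := sup_eq_right.mpr h3
    have e1 := colon_split h𝔞 hl hreg h1 h2
    rw [hsup] at e1
    have hC1 : Id (Ideal.span {p₀, p₁}) n ≤ colon l V := Id_le_colon hl h1
    have hC2 : colon l V ≤ Sd K n := colon_le hl h2
    haveI := finDim hC2
    haveI := finDim h2
    have hCne : Id (Ideal.span {p₀, p₁}) n ≠ colon l V := by
      intro heq
      apply hne
      refine Submodule.eq_of_le_of_finrank_le h1 ?_
      rw [← heq] at e1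
      omega
    have i1 := ih (by omega) (colon l V) hC1 hC2 hCne
    have hTle : up V ⊔ Id (Ideal.span {p₀, p₁}) (n + 2) ≤ Sd K (n + 2) :=
      sup_le (up_le h2) (Id_le _ _)
    haveI := finDim hTle
    have e2 : finrank K ↥(up V ⊔ Id (Ideal.span {p₀, p₁}) (n + 2))
          + finrank K (Id (Ideal.span {p₀, p₁}) (n + 1))
          + finrank K (Id (Ideal.span {p₀, p₁} ⊔ Ideal.span {l}) (n + 2))
        = finrank K ↥((up V ⊔ Id (Ideal.span {p₀, p₁}) (n + 2))
            ⊔ Id (Ideal.span {p₀, p₁} ⊔ Ideal.span {l}) (n + 2))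
          + finrank K (colon l (up V ⊔ Id (Ideal.span {p₀, p₁}) (n + 2)))
          + finrank K (Id (Ideal.span {p₀, p₁}) (n + 2)) :=
      colon_split h𝔞 hl hreg (n := n + 1) le_sup_right hTle
    have hD2 : up (colon l V) ⊔ Id (Ideal.span {p₀, p₁}) (n + 1)
        ≤ colon l (up V ⊔ Id (Ideal.span {p₀, p₁}) (n + 2)) := by
      refine sup_le ?_ (Id_le_colon hl (n := n + 1) le_sup_right)
      refine Submodule.mul_le.mpr fun a ha w hw => ?_
      rw [mem_colon]
      refine Submodule.mem_sup_left ?_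
      rw [mul_left_comm]
      exact mul_mem_up ha (mem_colon.mp hw)
    have hDle : colon l (up V ⊔ Id (Ideal.span {p₀, p₁}) (n + 2)) ≤ Sd K (n + 1) :=
      colon_le hl hTle
    haveI := finDim hDle
    have e6 := finrank_le_of_le hD2
    have hle : Id (Ideal.span {p₀, p₁} ⊔ Ideal.span {l}) (n + 2) ≤
        (up V ⊔ Id (Ideal.span {p₀, p₁}) (n + 2))
          ⊔ Id (Ideal.span {p₀, p₁} ⊔ Ideal.span {l}) (n + 2) := le_sup_right
    haveI : FiniteDimensional K ↥((up V ⊔ Id (Ideal.span {p₀, p₁}) (n + 2))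
          ⊔ Id (Ideal.span {p₀, p₁} ⊔ Ideal.span {l}) (n + 2)) :=
      Submodule.finiteDimensional_of_le (sup_le hTle (Id_le _ _))
    have e7 := finrank_le_of_le hle
    show finrank K V + 1 + finrank K (Id (Ideal.span {p₀, p₁}) (n + 2))
        ≤ finrank K ↥(up V ⊔ Id (Ideal.span {p₀, p₁}) (n + 2))
          + finrank K (Id (Ideal.span {p₀, p₁}) (n + 1))
    omega

end Vale.Agent.P200G
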