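import Vale.Agent.P200G.BoundC

/-!
# The critical degree: adding the forms of degree `b`
-/

namespace Vale.Agent.P200G

open MvPolynomial Module Vale.Agent.P200

variable {K : Type*} [Field K]

/-- Regularity modulo the first form passes to the last form of a sequence. -/
theorem reg_swap {r₀ r₁ r₂ : Pol K} {e₀ e₁ e₂ : ℕ} (h₀ : r₀.IsHomogeneous e₀)
    (h₁ : r₁.IsHomogeneous e₁) (h₂ : r₂.IsHomogeneous e₂) (he₁ : 0 < e₁)
    (hr₁ : RegMod r₁ (Ideal.span {r₀})) (hr₂ : RegMod r₂ (Ideal.span {r₀, r₁})) :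
    RegMod r₂ (Ideal.span {r₀}) := by
  have h𝔠 := homIdeal_singleton h₀
  have key : ∀ n, ∀ a : Pol K, a.IsHomogeneous n → a * r₂ ∈ Ideal.span {r₀} →
      a ∈ Ideal.span {r₀} := by
    intro n
    induction n using Nat.strong_induction_on with
    | _ n ih =>
      intro a ha hmem
      have h1 : a * r₂ ∈ Ideal.span {r₀, r₁} :=
        (Ideal.span_mono (by simp)) hmem
      obtain ⟨x, y, hxy⟩ := Ideal.mem_span_pair.mp (hr₂ a h1)
      have hz : homogeneousComponent n (x * r₀) ∈ Ideal.span {r₀} :=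
        h𝔠 _ (Ideal.mul_mem_left _ _ (Ideal.mem_span_singleton_self r₀)) n
      have h3 : homogeneousComponent n (x * r₀) + homogeneousComponent n (y * r₁) = a := by
        rw [← map_add, hxy]
        exact homogeneousComponent_eq_self ha
      by_cases hn : n < e₁
      · rw [hc_mul_lt h₁ _ hn, add_zero] at h3
        rw [← h3]
        exact hz
      · obtain ⟨m, rfl⟩ : ∃ m, n = m + e₁ := ⟨n - e₁, by omega⟩
        rw [hc_mul h₁] at h3
        have hy := homogeneousComponent_isHomogeneous m y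
        have h4 : homogeneousComponent m y * r₂ ∈ Ideal.span {r₀} := by
          apply hr₁
          have h5 : homogeneousComponent m y * r₂ * r₁
              = a * r₂ - homogeneousComponent (m + e₁) (x * r₀) * r₂ := by
            linear_combination r₂ * h3
          rw [h5]
          exact Ideal.sub_mem _ hmem (Ideal.mul_mem_right _ _ hz)
        have h5 := ih m (by omega) _ hy h4
        rw [← h3]
        exact Ideal.add_mem _ hz (Ideal.mul_mem_right _ _ h5)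
  intro a ha
  rw [← sum_homogeneousComponent a]
  refine Ideal.sum_mem _ fun k _ => key k _ (homogeneousComponent_isHomogeneous k a) ?_
  have h1 := hc_mul h₂ a k
  rw [← h1]
  exact h𝔠 _ ha _

/-- A subspace either grows by two or contains a nontrivial combination. -/
theorem two_or_combo {T₀ T : Submodule K (Pol K)} [FiniteDimensional K T] {g₂ g₃ : Pol K}
    (h : T₀ ≤ T) (h₂ : g₂ ∈ T) (h₃ : g₃ ∈ T) :
    finrank K T₀ + 2 ≤ finrank K T ∨
      ∃ α β : K, (α ≠ 0 ∨ β ≠ 0) ∧ C α * g₂ + C β * g₃ ∈ T₀ := by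
  by_cases h2 : g₂ ∈ T₀
  · exact Or.inr ⟨1, 0, Or.inl one_ne_zero, by simpa using h2⟩
  by_cases h3 : g₃ ∈ T₀ ⊔ Submodule.span K {g₂}
  · obtain ⟨x, hx, y, hy, hxy⟩ := Submodule.mem_sup.mp h3
    obtain ⟨r, rfl⟩ := Submodule.mem_span_singleton.mp hy
    refine Or.inr ⟨-r, 1, Or.inr one_ne_zero, ?_⟩
    have : C (-r) * g₂ + C 1 * g₃ = x := by
      rw [← hxy, smul_eq_C_mul, map_neg, map_one]
      ring
    rw [this]
    exact hx
  · left
    haveI : FiniteDimensional K T₀ := Submodule.finiteDimensional_of_le h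
    have hle1 : T₀ ⊔ Submodule.span K {g₂} ≤ T :=
      sup_le h ((Submodule.span_singleton_le_iff_mem _ _).mpr h₂)
    have hle2 : (T₀ ⊔ Submodule.span K {g₂}) ⊔ Submodule.span K {g₃} ≤ T :=
      sup_le hle1 ((Submodule.span_singleton_le_iff_mem _ _).mpr h₃)
    haveI : FiniteDimensional K ↥(T₀ ⊔ Submodule.span K {g₂}) :=
      Submodule.finiteDimensional_of_le hle1
    haveI : FiniteDimensional K ↥((T₀ ⊔ Submodule.span K {g₂}) ⊔ Submodule.span K {g₃}) :=
      Submodule.finiteDimensional_of_le hle2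
    have h4 : T₀ < T₀ ⊔ Submodule.span K {g₂} := by
      refine lt_of_le_of_ne le_sup_left fun h5 => h2 ?_
      rw [h5]
      exact Submodule.mem_sup_right (Submodule.mem_span_singleton_self _)
    have h5 : T₀ ⊔ Submodule.span K {g₂} < (T₀ ⊔ Submodule.span K {g₂}) ⊔ Submodule.span K {g₃} := by
      refine lt_of_le_of_ne le_sup_left fun h6 => h3 ?_
      rw [h6]
      exact Submodule.mem_sup_right (Submodule.mem_span_singleton_self _)
    have h6 := Submodule.finrank_lt_finrank_of_lt h4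
    have h7 := Submodule.finrank_lt_finrank_of_lt h5
    have h8 := finrank_le_of_le hle2
    omega

theorem one_of_not_mem {T₀ T : Submodule K (Pol K)} [FiniteDimensional K T] {g : Pol K}
    (h : T₀ ≤ T) (hg : g ∈ T) (hg0 : g ∉ T₀) : finrank K T₀ + 1 ≤ finrank K T := by
  have h1 : T₀ < T := lt_of_le_of_ne h fun h2 => hg0 (h2 ▸ hg)
  exact Submodule.finrank_lt_finrank_of_lt h1

/-- The degree part of an ideal with one more homogeneous generator. -/
theorem Id_sup_eq {𝔠 : Ideal (Pol K)} (h𝔠 : HomIdeal 𝔠) {g : Pol K} {δ : ℕ}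
    (hg : g.IsHomogeneous δ) (k : ℕ) :
    Id (𝔠 ⊔ Ideal.span {g}) (k + δ) = (Sd K k).map (mulBy g) ⊔ Id 𝔠 (k + δ) := by
  apply le_antisymm
  · intro q hq
    rw [mem_Id] at hq
    obtain ⟨c, hc, b, hb, rfl⟩ := Submodule.mem_sup.mp hq.1
    obtain ⟨a, rfl⟩ := Ideal.mem_span_singleton'.mp hb
    have h1 := homogeneousComponent_eq_self hq.2
    rw [map_add, hc_mul hg] at h1
    rw [← h1, add_comm (homogeneousComponent (k + δ) c)]
    refine Submodule.add_mem_sup ?_ ?_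
    · exact mem_map_mulBy.mpr ⟨_, homogeneousComponent_isHomogeneous k a, by ring⟩
    · rw [mem_Id]
      exact ⟨h𝔠 c hc _, homogeneousComponent_isHomogeneous _ _⟩
  · refine sup_le ?_ (Id_mono le_sup_left _)
    intro x hx
    obtain ⟨w, hw, rfl⟩ := mem_map_mulBy.mp hx
    rw [mem_Id]
    refine ⟨Ideal.mem_sup_right (Ideal.mul_mem_right _ _ (Ideal.mem_span_singleton_self g)), ?_⟩
    have h1 := hg.mul (show w.IsHomogeneous k from hw)
    rwa [add_comm] at h1

/-- The dimension of the degree part of the ideal with a regular form added. -/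
theorem finrank_Id_sup {𝔠 : Ideal (Pol K)} (h𝔠 : HomIdeal 𝔠) {g : Pol K} {δ : ℕ}
    (hg : g.IsHomogeneous δ) (hg0 : g ≠ 0) (hreg : RegMod g 𝔠) {k : ℕ} (hk : Id 𝔠 k = ⊥) :
    finrank K (Id (𝔠 ⊔ Ideal.span {g}) (k + δ)) = finrank K (Sd K k) + finrank K (Id 𝔠 (k + δ)) := by
  have h := regular_dim (𝔠 := 𝔠) (V := Sd K k) (t := k) hg hg0 hreg (Id_le _ _) le_rfl
  rw [← Id_sup_eq h𝔠 hg, hk, finrank_bot, add_zero] at h
  exact h

/-- A regular form in the space makes the excess at least three, as soon as the dimension is at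
least two. -/
theorem lemma_P [Infinite K] {f w₀ : Pol K} {t : ℕ} (hf : f.IsHomogeneous 3) (hf0 : f ≠ 0)
    (ht : 1 ≤ t) (hw : w₀.IsHomogeneous t) (hreg : RegMod w₀ (Ideal.span {f}))
    {V : Submodule K (Pol K)} (h1 : Id (Ideal.span {f}) t ≤ V) (h2 : V ≤ Sd K t) (hwV : w₀ ∈ V)
    {u : ℕ} (hu : finrank K V = u + finrank K (Id (Ideal.span {f}) t)) (hu2 : 2 ≤ u) :
    u + 3 + finrank K (Id (Ideal.span {f}) (t + 1))
      ≤ finrank K ↥(up V ⊔ Id (Ideal.span {f}) (t + 1)) := by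
  have h𝔠 := homIdeal_singleton hf
  have hw0 : w₀ ≠ 0 := by
    rintro rfl
    exact one_not_mem_singleton hf (by norm_num) (hreg 1 (by simp))
  have d0 : finrank K (Id (Ideal.span {f} ⊔ Ideal.span {w₀}) t)
      = 1 + finrank K (Id (Ideal.span {f}) t) := by
    have := finrank_Id_sup h𝔠 hw hw0 hreg (k := 0) (Id_singleton_low hf (by norm_num))
    rw [zero_add, finrank_Sd] at this
    simpa [Nat.choose] using this
  have d1 : finrank K (Id (Ideal.span {f} ⊔ Ideal.span {w₀}) (t + 1))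
      = 3 + finrank K (Id (Ideal.span {f}) (t + 1)) := by
    have := finrank_Id_sup h𝔠 hw hw0 hreg (k := 1) (Id_singleton_low hf (by norm_num))
    rw [add_comm 1 t, finrank_Sd] at this
    simpa [Nat.choose] using this
  have e0 := Id_sup_eq h𝔠 hw 0
  rw [zero_add] at e0
  have e1 := Id_sup_eq h𝔠 hw 1
  rw [add_comm 1 t] at e1
  rw [span_sup_singleton] at d0 d1 e0 e1
  have hA1 : Id (Ideal.span {f, w₀}) t ≤ V := by
    rw [e0]
    refine sup_le ?_ h1
    intro x hx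
    obtain ⟨c, hc, rfl⟩ := mem_map_mulBy.mp hx
    obtain ⟨r, rfl⟩ := const_of_hom0 hc
    rw [mul_comm, ← smul_eq_C_mul]
    exact V.smul_mem _ hwV
  have hne : Id (Ideal.span {f, w₀}) t ≠ V := by
    intro h
    rw [h] at d0
    omega
  have hE := E0 hf hw (by norm_num) (by omega) hf0 hreg t (by omega) V hA1 h2 hne
  have hsup : up V ⊔ Id (Ideal.span {f, w₀}) (t + 1) = up V ⊔ Id (Ideal.span {f}) (t + 1) := by
    apply le_antisymm
    · refine sup_le le_sup_left ?_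
      rw [e1]
      refine sup_le ?_ le_sup_right
      intro x hx
      obtain ⟨l, hl, rfl⟩ := mem_map_mulBy.mp hx
      refine Submodule.mem_sup_left ?_
      rw [mul_comm]
      exact mul_mem_up hl hwV
    · exact sup_le_sup_left (Id_mono (Ideal.span_mono (by simp)) _) _
  rw [hsup, d0, d1, hu] at hE
  omega


/-- A form in the growth of a space which is regular forces a regular form in the space. -/
theorem exists_reg_of_mem [Infinite K] {𝔠 : Ideal (Pol K)} {V : Submodule K (Pol K)} {n : ℕ}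
    {g : Pol K} (hg : g ∈ up V ⊔ Id 𝔠 n) (hreg : RegMod g 𝔠) : ∃ w ∈ V, RegMod w 𝔠 := by
  refine exists_regmod V fun c hc => ?_
  by_contra hcon
  push_neg at hcon
  apply hc
  apply hreg
  have h1 : up V ⊔ Id 𝔠 n ≤ colon c (𝔠.restrictScalars K) := by
    refine sup_le ?_ ?_
    · refine Submodule.mul_le.mpr fun l _ v hv => ?_
      rw [mem_colon]
      have h2 : v * c ∈ 𝔠 := hcon v hv
      have : c * (l * v) = l * (v * c) := by ring
      rw [this]
      exact Ideal.mul_mem_left _ _ h2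
    · intro q hq
      rw [mem_colon]
      exact Ideal.mul_mem_left _ _ (mem_Id.mp hq).1
  have h3 : c * g ∈ 𝔠 := h1 hg
  rwa [mul_comm] at h3 ⊢

theorem finrank_singleton {f : Pol K} {e : ℕ} (hf : f.IsHomogeneous e) (hf0 : f ≠ 0) (n : ℕ) :
    finrank K (Id (Ideal.span {f}) n) = cc ((n : ℤ) - e) := by
  by_cases hn : n < e
  · rw [Id_singleton_low hf hn, finrank_bot, cc_neg (by omega)]
  · obtain ⟨k, rfl⟩ : ∃ k, n = k + e := ⟨n - e, by omega⟩
    have h1 : RegMod f (⊥ : Ideal (Pol K)) := fun a ha =>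
      (mul_eq_zero.mp ha).resolve_right hf0
    have hbot : ∀ m, Id (⊥ : Ideal (Pol K)) m = ⊥ := by
      intro m
      rw [eq_bot_iff]
      intro q hq
      exact (mem_Id.mp hq).1
    have h2 := finrank_Id_sup (𝔠 := ⊥) (fun q hq m => by
      rw [(Ideal.mem_bot).mp hq]
      simp) hf hf0 h1 (k := k) (hbot k)
    rw [bot_sup_eq, hbot, finrank_bot, add_zero, finrank_Sd] at h2
    rw [h2]
    unfold cc
    congr 1
    omega

namespace IsReg3

variable {d : Fin 3 → ℕ} {p : Fin 3 → Pol K}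

theorem finrank_Id_eval (hp : IsReg3 d p) {n : ℕ} {a₀ a₁ a₂ b₀ b₁ b₂ c : ℤ}
    (h₀ : a₀ = (n : ℤ) - (d 0 + d 1 + d 2) + d 0) (h₁ : a₁ = (n : ℤ) - (d 0 + d 1 + d 2) + d 1)
    (h₂ : a₂ = (n : ℤ) - (d 0 + d 1 + d 2) + d 2) (h₃ : b₀ = (n : ℤ) - d 0) (h₄ : b₁ = (n : ℤ) - d 1)
    (h₅ : b₂ = (n : ℤ) - d 2) (h₆ : c = (n : ℤ) - (d 0 + d 1 + d 2)) :
    finrank K (Id (Fid p) n) + (cc a₀ + cc a₁ + cc a₂) = cc b₀ + cc b₁ + cc b₂ + cc c := by
  subst h₀ h₁ h₂ h₃ h₄ h₅ h₆
  exact hp.finrank_Id n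

/-- The dimensions below and at the degree of the last two forms, for degrees `(3, β, β)`. -/
theorem F_below (hp : IsReg3 d p) {β : ℕ} (h0 : d 0 = 3) (h1 : d 1 = β) (h2 : d 2 = β) {n : ℕ}
    (hn : n < β) : finrank K (Id (Fid p) n) = cc ((n : ℤ) - 3) := by
  have := hp.finrank_Id_eval (K := K) (n := n) (a₀ := (n : ℤ) - 2 * β) (a₁ := (n : ℤ) - 3 - β)
    (a₂ := (n : ℤ) - 3 - β) (b₀ := (n : ℤ) - 3) (b₁ := (n : ℤ) - β) (b₂ := (n : ℤ) - β)
    (c := (n : ℤ) - 3 - 2 * β) (by omega) (by omega) (by omega) (by omega) (by omega) (by omega)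
    (by omega)
  rw [cc_neg (m := (n : ℤ) - 2 * β) (by omega), cc_neg (m := (n : ℤ) - 3 - β) (by omega),
    cc_neg (m := (n : ℤ) - β) (by omega), cc_neg (m := (n : ℤ) - 3 - 2 * β) (by omega)] at this
  omega

theorem F_at (hp : IsReg3 d p) {β : ℕ} (h0 : d 0 = 3) (h1 : d 1 = β) (h2 : d 2 = β)
    (hβ : 1 ≤ β) : finrank K (Id (Fid p) β) = cc ((β : ℤ) - 3) + 2 := by
  have := hp.finrank_Id_eval (K := K) (n := β) (a₀ := -(β : ℤ)) (a₁ := -3)
    (a₂ := -3) (b₀ := (β : ℤ) - 3) (b₁ := 0) (b₂ := 0)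
    (c := - 3 - (β : ℤ)) (by omega) (by omega) (by omega) (by omega) (by omega) (by omega)
    (by omega)
  rw [cc_neg (m := -(β : ℤ)) (by omega), cc_neg (m := -3) (by omega),
    cc_neg (m := - 3 - (β : ℤ)) (by omega)] at this
  have hc0 : cc 0 = 1 := by decide
  rw [hc0] at this
  omega

theorem F_above (hp : IsReg3 d p) {β : ℕ} (h0 : d 0 = 3) (h1 : d 1 = β) (h2 : d 2 = β)
    (hβ : 2 ≤ β) : finrank K (Id (Fid p) (β + 1)) = cc ((β : ℤ) - 2) + 6 := by
  have := hp.finrank_Id_eval (K := K) (n := β + 1) (a₀ := 1 - (β : ℤ)) (a₁ := -2)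
    (a₂ := -2) (b₀ := (β : ℤ) - 2) (b₁ := 1) (b₂ := 1)
    (c := - 2 - (β : ℤ)) (by omega) (by omega) (by omega) (by omega) (by omega) (by omega)
    (by omega)
  rw [cc_neg (m := 1 - (β : ℤ)) (by omega), cc_neg (m := -2) (by omega),
    cc_neg (m := - 2 - (β : ℤ)) (by omega)] at this
  have hc0 : cc 1 = 3 := by decide
  rw [hc0] at this
  omega

/-- The first form generates a smaller ideal. -/
theorem span_le_Fid (_hp : IsReg3 d p) : Ideal.span {p 0} ≤ Fid p := by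
  rw [Ideal.span_le]
  rintro x rfl
  exact p_mem_Fid 0

theorem Id_eq_below (hp : IsReg3 d p) {β : ℕ} (h0 : d 0 = 3) (h1 : d 1 = β) (h2 : d 2 = β) {n : ℕ}
    (hn : n < β) : Id (Ideal.span {p 0}) n = Id (Fid p) n := by
  have hf : (p 0).IsHomogeneous 3 := by have := hp.hom 0; rwa [h0] at this
  refine Submodule.eq_of_le_of_finrank_le (Id_mono hp.span_le_Fid n) ?_
  rw [hp.F_below h0 h1 h2 hn, finrank_singleton hf hp.p0_ne]
  simp

/-- Nontrivial combinations of the last two forms are regular modulo the first. -/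
theorem combo_regular (hp : IsReg3 d p) {β : ℕ} (h1 : d 1 = β) (h2 : d 2 = β)
    {α₁ α₂ : K} (hα : α₁ ≠ 0 ∨ α₂ ≠ 0) :
    RegMod (C α₁ * p 1 + C α₂ * p 2) (Ideal.span {p 0}) := by
  have hb : (p 1).IsHomogeneous β := h1 ▸ hp.hom 1
  have hc : (p 2).IsHomogeneous β := h2 ▸ hp.hom 2
  by_cases hα₂ : α₂ = 0
  · have hα₁ : α₁ ≠ 0 := by tauto
    intro a ha
    rw [hα₂] at ha
    apply hp.reg₁
    have h3 : a * p 1 = C α₁⁻¹ * (a * (C α₁ * p 1 + C 0 * p 2)) := by
      rw [C_0, zero_mul, add_zero]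
      have h4 : (C α₁⁻¹ * C α₁ : Pol K) = 1 := by
        rw [← C_mul, inv_mul_cancel₀ hα₁, C_1]
      linear_combination (-(a * p 1)) * h4
    rw [h3]
    exact Ideal.mul_mem_left _ _ ha
  · have hcomb : (C α₁ * p 1 + C α₂ * p 2).IsHomogeneous β := by
      have h3 := ((isHomogeneous_C (Fin 3) α₁).mul hb).add ((isHomogeneous_C (Fin 3) α₂).mul hc)
      rwa [zero_add] at h3
    refine reg_swap (hp.hom 0) hb hcomb ?_ hp.reg₁ ?_
    · exact h1 ▸ hp.pos 1
    · intro a ha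
      apply hp.reg₂
      have h3 : a * p 2 = C α₂⁻¹ * (a * (C α₁ * p 1 + C α₂ * p 2))
          - (C α₂⁻¹ * C α₁ * a) * p 1 := by
        have h4 : (C α₂⁻¹ * C α₂ : Pol K) = 1 := by
          rw [← C_mul, inv_mul_cancel₀ hα₂, C_1]
        linear_combination (-(a * p 2)) * h4
      rw [h3]
      refine Ideal.sub_mem _ (Ideal.mul_mem_left _ _ ha) (Ideal.mul_mem_left _ _ ?_)
      exact Ideal.subset_span (by simp)

/-- The last two forms are not both of the shape linear form times `w₀` modulo the first form. -/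
theorem not_both (hp : IsReg3 d p) {t : ℕ} (h0 : d 0 = 3) (h1 : d 1 = t + 1) (ht : 1 ≤ t)
    {w₀ : Pol K} (h₁ : p 1 ∈ (Sd K 1).map (mulBy w₀) ⊔ (Ideal.span {p 0}).restrictScalars K)
    (h₂ : p 2 ∈ (Sd K 1).map (mulBy w₀) ⊔ (Ideal.span {p 0}).restrictScalars K) : False := by
  obtain ⟨x₁, hx₁, c₁, hc₁, e₁⟩ := Submodule.mem_sup.mp h₁
  obtain ⟨x₂, hx₂, c₂, hc₂, e₂⟩ := Submodule.mem_sup.mp h₂
  obtain ⟨l₁, hl₁, rfl⟩ := mem_map_mulBy.mp hx₁
  obtain ⟨l₂, hl₂, rfl⟩ := mem_map_mulBy.mp hx₂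
  have hc₁' : c₁ ∈ Ideal.span {p 0} := hc₁
  have hc₂' : c₂ ∈ Ideal.span {p 0} := hc₂
  have h3 : l₁ * p 2 ∈ Ideal.span {p 0, p 1} := by
    have h4 : l₁ * p 2 = l₂ * p 1 + (l₁ * c₂ - l₂ * c₁) := by
      rw [← e₁, ← e₂]
      ring
    rw [h4]
    refine Ideal.add_mem _ (Ideal.mul_mem_left _ _ (Ideal.subset_span (by simp))) ?_
    refine Ideal.span_mono (s := {p 0}) (by simp) ?_
    exact Ideal.sub_mem _ (Ideal.mul_mem_left _ _ hc₂') (Ideal.mul_mem_left _ _ hc₁')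
  have h5 := hp.reg₂ _ h3
  have hl₁' : l₁.IsHomogeneous 1 := hl₁
  have h6 : l₁ = 0 := by
    obtain ⟨u, v, huv⟩ := Ideal.mem_span_pair.mp h5
    have h7 := homogeneousComponent_eq_self hl₁'
    rw [← h7, ← huv, map_add, hc_mul_lt (hp.hom 0) _ (by rw [h0]; norm_num),
      hc_mul_lt (hp.hom 1) _ (by rw [h1]; omega), add_zero]
  rw [h6, mul_zero, zero_add] at e₁
  apply one_not_mem_singleton (hp.hom 0) (hp.pos 0)
  apply hp.reg₁
  rw [one_mul, ← e₁]
  exact hc₁'

/-- The growth at the critical degree when the dimension is nonzero. -/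
theorem claim_A [Infinite K] (hp : IsReg3 d p) {t : ℕ} (h0 : d 0 = 3) (h1 : d 1 = t + 1)
    (h2 : d 2 = t + 1) (ht : 1 ≤ t) {V : Submodule K (Pol K)}
    (hV1 : Id (Ideal.span {p 0}) t ≤ V) (hV2 : V ≤ Sd K t) {u : ℕ}
    (hu : finrank K V = u + finrank K (Id (Ideal.span {p 0}) t)) (hu1 : 1 ≤ u) :
    finrank K (Id (Ideal.span {p 0}) (t + 1)) + u + 3 ≤ finrank K ↥(up V ⊔ Id (Fid p) (t + 1)) := by
  have hf : (p 0).IsHomogeneous 3 := by have := hp.hom 0; rwa [h0] at this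
  haveI := finDim hV2
  have hle : up V ⊔ Id (Ideal.span {p 0}) (t + 1) ≤ up V ⊔ Id (Fid p) (t + 1) :=
    sup_le_sup_left (Id_mono hp.span_le_Fid _) _
  have hTle : up V ⊔ Id (Fid p) (t + 1) ≤ Sd K (t + 1) := sup_le (up_le hV2) (Id_le _ _)
  haveI := finDim hTle
  have hT₀le : up V ⊔ Id (Ideal.span {p 0}) (t + 1) ≤ Sd K (t + 1) := hle.trans hTle
  haveI := finDim hT₀le
  have h3 : finrank K (Id (Ideal.span {p 0}) (t + 1))
      ≤ finrank K ↥(up V ⊔ Id (Ideal.span {p 0}) (t + 1)) := finrank_le_of_le le_sup_right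
  obtain ⟨uT, huT⟩ : ∃ uT, finrank K ↥(up V ⊔ Id (Ideal.span {p 0}) (t + 1))
      = uT + finrank K (Id (Ideal.span {p 0}) (t + 1)) := ⟨_, (Nat.sub_add_cancel h3).symm⟩
  obtain ⟨b1, -, -⟩ := boundC hf hp.p0_ne t ht V hV1 hV2 u uT hu huT
  have hb1 := b1 hu1
  have mem1 : p 1 ∈ up V ⊔ Id (Fid p) (t + 1) := Submodule.mem_sup_right (mem_Id.mpr
    ⟨p_mem_Fid 1, h1 ▸ hp.hom 1⟩)
  have mem2 : p 2 ∈ up V ⊔ Id (Fid p) (t + 1) := Submodule.mem_sup_right (mem_Id.mpr
    ⟨p_mem_Fid 2, h2 ▸ hp.hom 2⟩)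
  rcases two_or_combo hle mem1 mem2 with h4 | ⟨α₁, α₂, hα, hmem⟩
  · omega
  obtain ⟨w₀, hw₀, hreg⟩ := exists_reg_of_mem hmem (hp.combo_regular h1 h2 hα)
  by_cases hu2 : 2 ≤ u
  · have h5 := lemma_P hf hp.p0_ne ht (hV2 hw₀) hreg hV1 hV2 hw₀ hu hu2
    have h6 := finrank_le_of_le hle
    omega
  -- the case of dimension one
  have hu1' : u = 1 := by omega
  have hw0 : w₀ ≠ 0 := by
    rintro rfl
    exact one_not_mem_singleton hf (by norm_num) (hreg 1 (by simp))
  have h𝔠 := homIdeal_singleton hf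
  have hV3 : V ≤ (Sd K 0).map (mulBy w₀) ⊔ Id (Ideal.span {p 0}) t := by
    have e := finrank_Id_sup h𝔠 (hV2 hw₀) hw0 hreg (k := 0) (Id_singleton_low hf (by norm_num))
    rw [Id_sup_eq h𝔠 (hV2 hw₀), zero_add, finrank_Sd] at e
    have hle3 : (Sd K 0).map (mulBy w₀) ⊔ Id (Ideal.span {p 0}) t ≤ V := by
      refine sup_le ?_ hV1
      intro x hx
      obtain ⟨c, hc, rfl⟩ := mem_map_mulBy.mp hx
      obtain ⟨r, rfl⟩ := const_of_hom0 hc
      rw [mul_comm, ← smul_eq_C_mul]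
      exact V.smul_mem _ hw₀
    refine (Submodule.eq_of_le_of_finrank_le hle3 ?_).ge
    rw [e, hu]
    simp [Nat.choose]
    omega
  have hQ : up V ⊔ Id (Ideal.span {p 0}) (t + 1) ≤
      (Sd K 1).map (mulBy w₀) ⊔ (Ideal.span {p 0}).restrictScalars K := by
    refine sup_le ?_ ?_
    · refine Submodule.mul_le.mpr fun l hl v hv => ?_
      obtain ⟨x, hx, y, hy, rfl⟩ := Submodule.mem_sup.mp (hV3 hv)
      obtain ⟨c, hc, rfl⟩ := mem_map_mulBy.mp hx
      obtain ⟨r, rfl⟩ := const_of_hom0 hc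
      rw [mul_add]
      refine Submodule.add_mem_sup ?_ ?_
      · refine mem_map_mulBy.mpr ⟨l * C r, ?_, by ring⟩
        have := (show l.IsHomogeneous 1 from hl).mul (isHomogeneous_C (Fin 3) r)
        simpa using this
      · exact Ideal.mul_mem_left _ _ (mem_Id.mp hy).1
    · intro q hq
      exact Submodule.mem_sup_right (mem_Id.mp hq).1
  have hdim : 3 + finrank K (Id (Ideal.span {p 0}) (t + 1))
      ≤ finrank K ↥(up V ⊔ Id (Ideal.span {p 0}) (t + 1)) := by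
    have e := finrank_Id_sup h𝔠 (hV2 hw₀) hw0 hreg (k := 1) (Id_singleton_low hf (by norm_num))
    rw [Id_sup_eq h𝔠 (hV2 hw₀), add_comm 1 t, finrank_Sd] at e
    have hle3 : (Sd K 1).map (mulBy w₀) ⊔ Id (Ideal.span {p 0}) (t + 1) ≤
        up V ⊔ Id (Ideal.span {p 0}) (t + 1) :=
      sup_le_sup_right (by
        intro x hx
        obtain ⟨l, hl, rfl⟩ := mem_map_mulBy.mp hx
        rw [mul_comm]
        exact mul_mem_up hl hw₀) _
    have := finrank_le_of_le hle3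
    rw [e] at this
    simpa [Nat.choose] using this
  by_cases hm1 : p 1 ∈ up V ⊔ Id (Ideal.span {p 0}) (t + 1)
  · by_cases hm2 : p 2 ∈ up V ⊔ Id (Ideal.span {p 0}) (t + 1)
    · exact (hp.not_both h0 h1 ht (hQ hm1) (hQ hm2)).elim
    · have := one_of_not_mem hle mem2 hm2
      omega
  · have := one_of_not_mem hle mem1 hm1
    omega

end IsReg3

end Vale.Agent.P200G
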