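import Vale.Agent.P200G.ClaimA

/-!
# The critical degree: larger spaces, by duality for smaller degrees
-/

namespace Vale.Agent.P200G

open MvPolynomial Module Vale.Agent.P200

variable {K : Type*} [Field K]

/-- The dimension of the multiples of a form of degree three. -/
def c3 (n : ℕ) : ℕ := cc ((n : ℤ) - 3)

theorem c3_add {n : ℕ} (hn : 1 ≤ n) : (n + 2).choose 2 = c3 n + 3 * n := by
  have e1 := two_mul_cc (m := (n : ℤ)) (by omega)
  have e2 := two_mul_cc (m := (n : ℤ) - 3) (by omega)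
  have h7 : cc (n : ℤ) = (n + 2).choose 2 := by
    unfold cc
    congr 1
  rw [← h7]
  unfold c3
  zify
  have : 2 * (cc (n : ℤ) : ℤ) = 2 * ((cc ((n : ℤ) - 3) : ℤ) + 3 * n) := by
    linear_combination e1 - e2
  omega

theorem c3_zero : c3 0 = 0 := by decide
theorem c3_one : c3 1 = 0 := by decide

theorem finrank_c3 {f : Pol K} (hf : f.IsHomogeneous 3) (hf0 : f ≠ 0) (n : ℕ) :
    finrank K (Id (Ideal.span {f}) n) = c3 n := by
  have := finrank_singleton hf hf0 n
  simpa [c3] using this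

namespace IsReg3

variable {d : Fin 3 → ℕ} {p : Fin 3 → Pol K}

/-- The dimensions for the degrees `(3, β, β)` in terms of `c3`. -/
theorem F_below' (hp : IsReg3 d p) {β : ℕ} (h0 : d 0 = 3) (h1 : d 1 = β) (h2 : d 2 = β) {n : ℕ}
    (hn : n < β) : finrank K (Id (Fid p) n) = c3 n := hp.F_below h0 h1 h2 hn

theorem F_at' (hp : IsReg3 d p) {β : ℕ} (h0 : d 0 = 3) (h1 : d 1 = β) (h2 : d 2 = β)
    (hβ : 1 ≤ β) : finrank K (Id (Fid p) β) = c3 β + 2 := hp.F_at h0 h1 h2 hβ

theorem F_above' (hp : IsReg3 d p) {β : ℕ} (h0 : d 0 = 3) (h1 : d 1 = β) (h2 : d 2 = β)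
    (hβ : 2 ≤ β) : finrank K (Id (Fid p) (β + 1)) = c3 (β + 1) + 6 := by
  rw [hp.F_above h0 h1 h2 hβ]
  unfold c3
  congr 2
  push_cast
  ring

/-- Growth in the degree of the last two forms, by duality. -/
theorem M_step [Infinite K] (hq : IsReg3 d p) {t : ℕ} (h0 : d 0 = 3) (h1 : d 1 = t + 1)
    (h2 : d 2 = t + 1) (ht : 1 ≤ t) {X : Submodule K (Pol K)}
    (hX1 : Id (Fid p) (t + 1) ≤ X) (hX2 : X ≤ Sd K (t + 1)) (hne : X ≠ Sd K (t + 1)) :
    finrank K X + finrank K (Id (Fid p) (t + 2))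
      ≤ finrank K ↥(up X ⊔ Id (Fid p) (t + 2)) + finrank K (Id (Fid p) (t + 1)) := by
  have hf : (p 0).IsHomogeneous 3 := by have := hq.hom 0; rwa [h0] at this
  have hs : 2 * (t + 1) + 3 = d 0 + d 1 + d 2 := by omega
  obtain ⟨τ, hτ⟩ := hq.exists_tau (K := K) hs
  have hTle : up X ⊔ Id (Fid p) (t + 2) ≤ Sd K (t + 2) := sup_le (up_le hX2) (Id_le _ _)
  haveI := finDim hTle
  haveI := finDim hX2
  have e1 := hq.finrank_perp hs hτ (m := t + 2) (n := t) (by omega)
    (V := up X ⊔ Id (Fid p) (t + 2)) le_sup_right hTle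
  have e2 := hq.finrank_perp hs hτ (m := t + 1) (n := t + 1) (by omega) hX1 hX2
  set T' := up X ⊔ Id (Fid p) (t + 2) with hT'
  -- the orthogonal complements
  have hYle : perp τ t T' ≤ Sd K t := perp_le _ _ _
  have hZle : perp τ (t + 1) X ≤ Sd K (t + 1) := perp_le _ _ _
  haveI := finDim hYle
  haveI := finDim hZle
  have hY1 : Id (Ideal.span {p 0}) t ≤ perp τ t T' := by
    intro y hy
    rw [mem_perp]
    have hy' := mem_Id.mp hy
    refine ⟨hy'.2, fun c hc => ?_⟩
    have hc' : c.IsHomogeneous (t + 2) := hTle hc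
    refine (hτ _ ?_).mpr (Ideal.mul_mem_right _ _ (hq.span_le_Fid hy'.1))
    have := hy'.2.mul hc'
    rwa [show t + (t + 2) = 2 * (t + 1) by omega] at this
  have hZ1 : up (perp τ t T') ⊔ Id (Fid p) (t + 1) ≤ perp τ (t + 1) X := by
    refine sup_le ?_ ?_
    · refine Submodule.mul_le.mpr fun l hl y hy => ?_
      rw [mem_perp] at hy ⊢
      refine ⟨?_, fun c hc => ?_⟩
      · have := hy.1.mul (show l.IsHomogeneous 1 from hl)
        rwa [mul_comm] at this
      · have h3 := hy.2 (l * c) (Submodule.mem_sup_left (mul_mem_up hl hc))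
        rw [← h3]
        congr 1
        ring
    · intro g hg
      rw [mem_Id] at hg
      rw [mem_perp]
      refine ⟨hg.2, fun c hc => ?_⟩
      refine (hτ _ ?_).mpr (Ideal.mul_mem_right _ _ hg.1)
      have h3 := hg.2.mul (hX2 hc)
      rwa [show t + 1 + (t + 1) = 2 * (t + 1) by omega] at h3
  by_contra hcon
  have hY0 := finrank_le_of_le hY1
  obtain ⟨uY, huY⟩ : ∃ uY, finrank K (perp τ t T') = uY + finrank K (Id (Ideal.span {p 0}) t) :=
    ⟨_, (Nat.sub_add_cancel hY0).symm⟩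
  -- dimensions
  have d1 := finrank_c3 hf hq.p0_ne t
  have d2 := finrank_c3 hf hq.p0_ne (t + 1)
  have d3 := hq.F_at' (K := K) h0 h1 h2 (by omega)
  have d4 : finrank K (Id (Fid p) (t + 2)) = c3 (t + 2) + 6 := hq.F_above' (K := K) h0 h1 h2 (by omega)
  have d5 := c3_add ht
  have d6 := c3_add (n := t + 1) (by omega)
  have d7 : finrank K X < finrank K (Sd K (t + 1)) := by
    refine lt_of_le_of_ne (finrank_le_of_le hX2) fun h => hne ?_
    exact Submodule.eq_of_le_of_finrank_le hX2 h.ge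
  have d8 : finrank K (Id (Fid p) (t + 2)) ≤ finrank K T' := finrank_le_of_le le_sup_right
  have d9 := finrank_le_of_le hX1
  rw [finrank_Sd] at e1 e2 d7
  have hZle2 : finrank K ↥(up (perp τ t T') ⊔ Id (Fid p) (t + 1)) ≤ finrank K (perp τ (t + 1) X) :=
    finrank_le_of_le hZ1
  have hA := hq.claim_A h0 h1 h2 ht hY1 hYle huY (by omega)
  omega

/-- A large space in the degree below the last two forms grows by at least four. -/
theorem claim_B [Infinite K] (hp : IsReg3 d p) {t : ℕ} (h0 : d 0 = 3) (h1 : d 1 = t + 1)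
    (h2 : d 2 = t + 1) (ht : 2 ≤ t) {V : Submodule K (Pol K)}
    (hV1 : Id (Ideal.span {p 0}) t ≤ V) (hV2 : V ≤ Sd K t) {u : ℕ}
    (hu : finrank K V = u + finrank K (Id (Ideal.span {p 0}) t)) (hu1 : t ≤ u) (hu2 : u < 3 * t) :
    c3 (t + 1) + u + 4 ≤ finrank K ↥(up V ⊔ Id (Fid p) (t + 1)) := by
  have hf : (p 0).IsHomogeneous 3 := by have := hp.hom 0; rwa [h0] at this
  haveI := finDim hV2
  have h𝔠 := homIdeal_singleton hf
  have hle : up V ⊔ Id (Ideal.span {p 0}) (t + 1) ≤ up V ⊔ Id (Fid p) (t + 1) :=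
    sup_le_sup_left (Id_mono hp.span_le_Fid _) _
  have hTle : up V ⊔ Id (Fid p) (t + 1) ≤ Sd K (t + 1) := sup_le (up_le hV2) (Id_le _ _)
  haveI := finDim hTle
  have hT₀le : up V ⊔ Id (Ideal.span {p 0}) (t + 1) ≤ Sd K (t + 1) := hle.trans hTle
  haveI := finDim hT₀le
  have h3 : finrank K (Id (Ideal.span {p 0}) (t + 1))
      ≤ finrank K ↥(up V ⊔ Id (Ideal.span {p 0}) (t + 1)) := finrank_le_of_le le_sup_right
  obtain ⟨uT, huT⟩ : ∃ uT, finrank K ↥(up V ⊔ Id (Ideal.span {p 0}) (t + 1))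
      = uT + finrank K (Id (Ideal.span {p 0}) (t + 1)) := ⟨_, (Nat.sub_add_cancel h3).symm⟩
  obtain ⟨-, b2, -⟩ := boundC hf hp.p0_ne t (by omega) V hV1 hV2 u uT hu huT
  have hb2 := b2 hu1 (by omega)
  have d2 := finrank_c3 hf hp.p0_ne (t + 1)
  have mem1 : p 1 ∈ up V ⊔ Id (Fid p) (t + 1) := Submodule.mem_sup_right (mem_Id.mpr
    ⟨p_mem_Fid 1, h1 ▸ hp.hom 1⟩)
  have mem2 : p 2 ∈ up V ⊔ Id (Fid p) (t + 1) := Submodule.mem_sup_right (mem_Id.mpr
    ⟨p_mem_Fid 2, h2 ▸ hp.hom 2⟩)
  rcases two_or_combo hle mem1 mem2 with h4 | ⟨α₁, α₂, hα, hmem⟩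
  · omega
  obtain ⟨w₀, hw₀, hreg⟩ := exists_reg_of_mem hmem (hp.combo_regular h1 h2 hα)
  have hP := lemma_P hf hp.p0_ne (by omega) (hV2 hw₀) hreg hV1 hV2 hw₀ hu (by omega)
  by_cases hm1 : p 1 ∈ up V ⊔ Id (Ideal.span {p 0}) (t + 1)
  · by_cases hm2 : p 2 ∈ up V ⊔ Id (Ideal.span {p 0}) (t + 1)
    · -- both forms lie in the growth: a second regular form exists
      have hw0 : w₀ ≠ 0 := by
        rintro rfl
        exact one_not_mem_singleton hf (by norm_num) (hreg 1 (by simp))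
      have hdep : Depth (Ideal.span {p 0, w₀}) := depth_pair hp.p0_ne hreg
      obtain ⟨w₁, hw₁, hreg₁⟩ := exists_regmod (𝔠 := Ideal.span {p 0, w₀}) V (by
        intro c hc
        by_contra hcon
        push_neg at hcon
        apply hc
        have hQ : up V ⊔ Id (Ideal.span {p 0}) (t + 1) ≤
            colon c ((Ideal.span {p 0, w₀}).restrictScalars K) := by
          refine sup_le ?_ ?_
          · refine Submodule.mul_le.mpr fun l _ v hv => ?_
            rw [mem_colon]
            have h5 : v * c ∈ Ideal.span {p 0, w₀} := hcon v hv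
            have : c * (l * v) = l * (v * c) := by ring
            rw [this]
            exact Ideal.mul_mem_left _ _ h5
          · intro q hq
            rw [mem_colon]
            refine Ideal.mul_mem_left _ _ ?_
            exact Ideal.span_mono (by simp) (mem_Id.mp hq).1
        have hFc : ∀ q ∈ Fid p, c * q ∈ Ideal.span {p 0, w₀} := by
          intro q hq
          obtain ⟨e, he⟩ := (Ideal.mem_span_range_iff_exists_fun).mp hq
          rw [← he, Fin.sum_univ_three]
          have h0' : c * p 0 ∈ Ideal.span {p 0, w₀} :=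
            Ideal.mul_mem_left _ _ (Ideal.subset_span (by simp))
          have h1' : c * p 1 ∈ Ideal.span {p 0, w₀} := hQ hm1
          have h2' : c * p 2 ∈ Ideal.span {p 0, w₀} := hQ hm2
          have : c * (e 0 * p 0 + e 1 * p 1 + e 2 * p 2)
              = e 0 * (c * p 0) + e 1 * (c * p 1) + e 2 * (c * p 2) := by ring
          rw [this]
          exact Ideal.add_mem _ (Ideal.add_mem _ (Ideal.mul_mem_left _ _ h0')
            (Ideal.mul_mem_left _ _ h1')) (Ideal.mul_mem_left _ _ h2')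
        refine hdep.iter (2 * (t + 1) + 1) c fun q hq => ?_
        have hqF : q ∈ Fid p := hp.top_mem (s := 2 * (t + 1)) (by omega) le_rfl hq
        rw [mul_comm]
        exact hFc q hqF)
      have hw₀h : w₀.IsHomogeneous t := hV2 hw₀
      have hw₁h : w₁.IsHomogeneous t := hV2 hw₁
      have hq : IsReg3 ![3, t, t] ![p 0, w₀, w₁] :=
        isReg3_mk hf hw₀h hw₁h (by norm_num) (by omega) (by omega) hp.p0_ne hreg hreg₁
      obtain ⟨t', rfl⟩ : ∃ t', t = t' + 1 := ⟨t - 1, by omega⟩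
      have hw₁0 : w₁ ≠ 0 := by
        rintro rfl
        exact one_not_mem_pair hf hw₀h (by norm_num) (by omega) (hreg₁ 1 (by simp))
      have hF : Fid ![p 0, w₀, w₁] = (Ideal.span {p 0} ⊔ Ideal.span {w₀}) ⊔ Ideal.span {w₁} := by
        rw [Fid_vec, span_sup_singleton]
      have h𝔞 : HomIdeal (Ideal.span {p 0} ⊔ Ideal.span {w₀}) := by
        rw [span_sup_singleton]
        exact homIdeal_pair hf hw₀h
      have e0 := Id_sup_eq h𝔞 hw₁h 0
      have e0' := Id_sup_eq h𝔠 hw₀h 0
      have e1 := Id_sup_eq h𝔞 hw₁h 1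
      have e1' := Id_sup_eq h𝔠 hw₀h 1
      rw [zero_add] at e0 e0'
      rw [add_comm 1] at e1 e1'
      have hconst : ∀ {w : Pol K}, w ∈ V → (Sd K 0).map (mulBy w) ≤ V := by
        intro w hw x hx
        obtain ⟨c, hc, rfl⟩ := mem_map_mulBy.mp hx
        obtain ⟨r, rfl⟩ := const_of_hom0 hc
        rw [mul_comm, ← smul_eq_C_mul]
        exact V.smul_mem _ hw
      have hlin : ∀ {w : Pol K}, w ∈ V → (Sd K 1).map (mulBy w) ≤ up V := by
        intro w hw x hx
        obtain ⟨l, hl, rfl⟩ := mem_map_mulBy.mp hx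
        rw [mul_comm]
        exact mul_mem_up hl hw
      have hX1 : Id (Fid ![p 0, w₀, w₁]) (t' + 1) ≤ V := by
        rw [hF, e0, e0']
        exact sup_le (hconst hw₁) (sup_le (hconst hw₀) hV1)
      have hne : V ≠ Sd K (t' + 1) := by
        intro h
        have h5 := finrank_Sd (K := K) (t' + 1)
        rw [← h, hu, finrank_c3 hf hp.p0_ne] at h5
        have h6 := c3_add (n := t' + 1) (by omega)
        omega
      have hM := hq.M_step (t := t') rfl rfl rfl (by omega) hX1 hV2 hne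
      have hsup : up V ⊔ Id (Fid ![p 0, w₀, w₁]) (t' + 2) ≤
          up V ⊔ Id (Ideal.span {p 0}) (t' + 1 + 1) := by
        refine sup_le le_sup_left ?_
        have e3 : Id (Fid ![p 0, w₀, w₁]) (t' + 2) = (Sd K 1).map (mulBy w₁) ⊔
            ((Sd K 1).map (mulBy w₀) ⊔ Id (Ideal.span {p 0}) (t' + 1 + 1)) := by
          rw [hF]
          exact e1.trans (by rw [e1'])
        rw [e3]
        refine sup_le ?_ (sup_le ?_ le_sup_right)
        · exact (hlin hw₁).trans le_sup_left
        · exact (hlin hw₀).trans le_sup_left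
      have h5 := finrank_le_of_le hsup
      have d3 := hq.F_at' (K := K) (β := t' + 1) rfl rfl rfl (by omega)
      have d4 : finrank K (Id (Fid ![p 0, w₀, w₁]) (t' + 2)) = c3 (t' + 2) + 6 :=
        hq.F_above' (K := K) (β := t' + 1) rfl rfl rfl (by omega)
      have d5 := finrank_c3 hf hp.p0_ne (t' + 1)
      have h6 := finrank_le_of_le hle
      have d2' : c3 (t' + 1 + 1) = c3 (t' + 2) := rfl
      omega
    · have := one_of_not_mem hle mem2 hm2
      omega
  · have := one_of_not_mem hle mem1 hm1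
    omega

end IsReg3

end Vale.Agent.P200G
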