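import Vale.Agent.P200.Basic

/-!
# Regular sequences and the lex-plus-powers spaces for the degrees `(3, b, b)` in three variables

Monomials of `K[x₀,x₁,x₂]` are indexed by exponent vectors `e : Fin 3 →₀ ℕ`, and `x₀ > x₁ > x₂`.
-/

namespace Vale.Agent.P200G

open MvPolynomial Module Vale.Agent.P200

variable {K : Type*} [Field K]

/-- `p 0, p 1, p 2` is a regular sequence of forms of degrees `d 0, d 1, d 2`. -/
structure IsReg3 (d : Fin 3 → ℕ) (p : Fin 3 → Pol K) : Prop where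
  hom : ∀ i, (p i).IsHomogeneous (d i)
  pos : ∀ i, 0 < d i
  reg₀ : ∀ a : Pol K, a * p 0 = 0 → a = 0
  reg₁ : ∀ a : Pol K, a * p 1 ∈ Ideal.span {p 0} → a ∈ Ideal.span {p 0}
  reg₂ : ∀ a : Pol K, a * p 2 ∈ Ideal.span {p 0, p 1} → a ∈ Ideal.span {p 0, p 1}

/-- The monomial with exponent vector `e` lies in `P = (x₀³, x₁ᵇ, x₂ᵇ)`. -/
def InP (b : ℕ) (e : Fin 3 →₀ ℕ) : Prop := 3 ≤ e 0 ∨ b ≤ e 1 ∨ b ≤ e 2

/-- The monomial `e'` is lexicographically greater than the monomial `e`. -/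
def LexGt (e' e : Fin 3 →₀ ℕ) : Prop :=
  e 0 < e' 0 ∨ (e' 0 = e 0 ∧ e 1 < e' 1) ∨ (e' 0 = e 0 ∧ e' 1 = e 1 ∧ e 2 < e' 2)

/-- The number of monomials of the same degree as `e`, outside `P`, lexicographically greater
than `e`. -/
noncomputable def lexRank (b : ℕ) (e : Fin 3 →₀ ℕ) : ℕ :=
  Set.ncard {e' : Fin 3 →₀ ℕ | e'.degree = e.degree ∧ ¬ InP b e' ∧ LexGt e' e}

/-- The degree `d` part `I_d` of an ideal: its elements that are homogeneous of degree `d`. -/
noncomputable def degPart (I : Ideal (Pol K)) (d : ℕ) : Submodule K (Pol K) :=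
  (I.restrictScalars K) ⊓ Sd K d

/-- The number `q_d = dim I_d - dim P_d`. -/
noncomputable def qDim (b : ℕ) (I : Ideal (Pol K)) (d : ℕ) : ℕ :=
  finrank K (degPart I d) - Set.ncard {e : Fin 3 →₀ ℕ | e.degree = d ∧ InP b e}

/-- The space `J_d`: the span of the monomials of degree `d` in `P` and of the `q_d`
lexicographically greatest monomials of degree `d` outside `P`. -/
noncomputable def lexPlusPowers (b : ℕ) (I : Ideal (Pol K)) (d : ℕ) : Submodule K (Pol K) :=
  Submodule.span K {p | ∃ e : Fin 3 →₀ ℕ, e.degree = d ∧ (InP b e ∨ lexRank b e < qDim b I d) ∧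
    p = monomial e 1}

end Vale.Agent.P200G
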