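import Vale.Agent.P200G.RegDim

/-!
# Depth and the existence of nonzerodivisors
-/

namespace Vale.Agent.P200G

open MvPolynomial Module Vale.Agent.P200

variable {K : Type*} [Field K]

/-- No nonzero element of the quotient is killed by all the variables. -/
def Depth (𝔠 : Ideal (Pol K)) : Prop := ∀ c, (∀ i, X i * c ∈ 𝔠) → c ∈ 𝔠

theorem depth_single {f : Pol K} (hf : f ≠ 0) : Depth (Ideal.span {f}) := by
  intro c hc
  obtain ⟨A, hA⟩ := Ideal.mem_span_singleton'.mp (hc 0)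
  obtain ⟨B, hB⟩ := Ideal.mem_span_singleton'.mp (hc 1)
  have h1 : (X 1 * A - X 0 * B) * f = 0 := by
    linear_combination (X 1 : Pol K) * hA - (X 0 : Pol K) * hB
  have h2 : A * X 1 ∈ Ideal.span {(X 0 : Pol K)} := by
    rw [Ideal.mem_span_singleton']
    refine ⟨B, ?_⟩
    have := (mul_eq_zero.mp h1).resolve_right hf
    linear_combination -this
  obtain ⟨A', rfl⟩ := Ideal.mem_span_singleton'.mp (regX₁ _ h2)
  have h3 : (c - A' * f) * X 0 = 0 := by
    linear_combination -hA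
  have h4 := sub_eq_zero.mp (regX₀ _ h3)
  rw [h4]
  exact Ideal.mul_mem_left _ _ (Ideal.mem_span_singleton_self f)

theorem depth_pair {p₀ p₁ : Pol K} (h₀ : p₀ ≠ 0) (h₁ : RegMod p₁ (Ideal.span {p₀})) :
    Depth (Ideal.span {p₀, p₁}) := by
  intro c hc
  have hC : ∀ i, ∃ A B, A * p₀ + B * p₁ = X i * c := fun i => Ideal.mem_span_pair.mp (hc i)
  choose A B hAB using hC
  -- syzygies of the pair
  have hW : ∀ i j : Fin 3, ∃ W, X i * B j - X j * B i = W * p₀ ∧ X i * A j - X j * A i = - (W * p₁) := by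
    intro i j
    have h1 : (X i * A j - X j * A i) * p₀ + (X i * B j - X j * B i) * p₁ = 0 := by
      linear_combination (X i : Pol K) * hAB j - (X j : Pol K) * hAB i
    have h2 : (X i * B j - X j * B i) * p₁ ∈ Ideal.span {p₀} := by
      rw [Ideal.mem_span_singleton']
      exact ⟨-(X i * A j - X j * A i), by linear_combination -h1⟩
    obtain ⟨W, hW⟩ := Ideal.mem_span_singleton'.mp (h₁ _ h2)
    refine ⟨W, hW.symm, ?_⟩
    have h3 : ((X i * A j - X j * A i) + W * p₁) * p₀ = 0 := by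
      rw [← hW] at h1
      linear_combination h1
    have h4 := (mul_eq_zero.mp h3).resolve_right h₀
    linear_combination h4
  choose W hW1 hW2 using hW
  have hcyc : W 1 2 * X 0 + W 2 0 * X 1 + W 0 1 * X 2 = 0 := by
    have h1 : (W 1 2 * X 0 + W 2 0 * X 1 + W 0 1 * X 2) * p₀ = 0 := by
      linear_combination (-(X 0 : Pol K)) * hW1 1 2 - (X 1 : Pol K) * hW1 2 0
        - (X 2 : Pol K) * hW1 0 1
    exact (mul_eq_zero.mp h1).resolve_right h₀
  obtain ⟨v₀, v₁, v₂, hv0, hv1, hv2⟩ := koszul1 regX₀ regX₁ regX₂ hcyc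
  -- the corrected coefficients are multiples of the variables
  obtain ⟨b, hb0, -, -⟩ := koszul2 (r₀ := (X 0 : Pol K)) (r₁ := X 1) (r₂ := X 2)
    (w₀ := B 0 - v₀ * p₀) (w₁ := B 1 - v₁ * p₀) (w₂ := B 2 - v₂ * p₀) regX₀ regX₁
    (by linear_combination hW1 0 1 + p₀ * hv2)
    (by linear_combination hW1 2 0 + p₀ * hv1)
  obtain ⟨a, ha0, -, -⟩ := koszul2 (r₀ := (X 0 : Pol K)) (r₁ := X 1) (r₂ := X 2)
    (w₀ := A 0 + v₀ * p₁) (w₁ := A 1 + v₁ * p₁) (w₂ := A 2 + v₂ * p₁) regX₀ regX₁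
    (by linear_combination hW2 0 1 - p₁ * hv2)
    (by linear_combination hW2 2 0 - p₁ * hv1)
  have h5 : (c - (a * p₀ + b * p₁)) * X 0 = 0 := by
    linear_combination -hAB 0 + p₀ * ha0 + p₁ * hb0
  have h6 := sub_eq_zero.mp (regX₀ _ h5)
  rw [h6]
  exact Ideal.mem_span_pair.mpr ⟨a, b, rfl⟩

theorem Depth.iter {𝔠 : Ideal (Pol K)} (h : Depth 𝔠) (n : ℕ) :
    ∀ c, (∀ q : Pol K, q.IsHomogeneous n → q * c ∈ 𝔠) → c ∈ 𝔠 := by
  induction n with
  | zero =>
    intro c hc
    have := hc 1 (isHomogeneous_one _ _)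
    rwa [one_mul] at this
  | succ n ih =>
    intro c hc
    refine ih c fun q hq => h _ fun i => ?_
    have h1 := hc (X i * q) (by
      have := (isHomogeneous_X K i).mul hq
      rwa [add_comm] at this)
    rw [← mul_assoc]
    exact h1

/-- Over an infinite field, a subspace killing no nonzero element of the quotient contains a
nonzerodivisor. -/
theorem exists_regmod [Infinite K] {𝔠 : Ideal (Pol K)} (W : Submodule K (Pol K))
    (h : ∀ c, c ∉ 𝔠 → ∃ w ∈ W, w * c ∉ 𝔠) : ∃ w ∈ W, RegMod w 𝔠 := by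
  classical
  have hfin := associatedPrimes.finite (Pol K) (Pol K ⧸ 𝔠)
  let s : Finset (Subspace K W) := hfin.toFinset.image
    (fun P => (P.restrictScalars K).comap W.subtype)
  have hs : ⊤ ∉ s := by
    intro htop
    obtain ⟨P, hP, hP2⟩ := Finset.mem_image.mp htop
    have hP3 : IsAssociatedPrime P (Pol K ⧸ 𝔠) := (Set.Finite.mem_toFinset hfin).mp hP
    obtain ⟨hprime, x, hx⟩ := isAssociatedPrime_iff.mp hP3
    obtain ⟨c, rfl⟩ := Ideal.Quotient.mk_surjective x
    have hc : c ∉ 𝔠 := by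
      intro hc
      apply hprime.ne_top
      rw [hx]
      have h0 : Ideal.Quotient.mk 𝔠 c = 0 := Ideal.Quotient.eq_zero_iff_mem.mpr hc
      rw [h0]
      ext a
      simp [Submodule.mem_colon_singleton]
    obtain ⟨w, hw, hwc⟩ := h c hc
    have hw2 : (⟨w, hw⟩ : W) ∈ (P.restrictScalars K).comap W.subtype := by
      rw [hP2]
      exact Submodule.mem_top
    have hw3 : w ∈ P := hw2
    rw [hx, Submodule.mem_colon_singleton] at hw3
    apply hwc
    rw [← Ideal.Quotient.eq_zero_iff_mem]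
    have := (Submodule.mem_bot (Pol K)).mp hw3
    exact this
  have hne := Subspace.biUnion_ne_univ_of_top_notMem hs
  obtain ⟨w, hw⟩ : ∃ w : W, w ∉ ⋃ p ∈ s, (p : Set W) := by
    by_contra hcon
    push_neg at hcon
    exact hne (Set.eq_univ_of_forall hcon)
  refine ⟨w, w.2, fun a ha => ?_⟩
  by_contra hna
  have hx : Ideal.Quotient.mk 𝔠 a ≠ 0 := fun h0 => hna (Ideal.Quotient.eq_zero_iff_mem.mp h0)
  obtain ⟨P, hP, hle⟩ := exists_le_isAssociatedPrime_of_isNoetherianRing (Pol K) _ hx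
  have hwP : (w : Pol K) ∈ P := by
    apply hle
    rw [Submodule.mem_colon_singleton, Submodule.mem_bot]
    change Ideal.Quotient.mk 𝔠 ((w : Pol K) * a) = 0
    rw [Ideal.Quotient.eq_zero_iff_mem, mul_comm]
    exact ha
  apply hw
  simp only [Set.mem_iUnion]
  refine ⟨(P.restrictScalars K).comap W.subtype, ?_, hwP⟩
  exact Finset.mem_image.mpr ⟨P, (Set.Finite.mem_toFinset hfin).mpr hP, rfl⟩

/-- A linear form that is a nonzerodivisor modulo an ideal of positive depth. -/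
theorem exists_linear [Infinite K] {𝔠 : Ideal (Pol K)} (h : Depth 𝔠) (h1 : (1 : Pol K) ∉ 𝔠) :
    ∃ l : Pol K, Lin l ∧ RegMod l 𝔠 := by
  obtain ⟨l, hl, hreg⟩ := exists_regmod (𝔠 := 𝔠) (Sd K 1) (by
    intro c hc
    by_contra hcon
    push_neg at hcon
    exact hc (h c fun i => hcon _ (isHomogeneous_X K i)))
  refine ⟨l, ⟨hl, ?_⟩, hreg⟩
  rintro rfl
  exact h1 (hreg 1 (by simp))

end Vale.Agent.P200G
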