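import Vale.Agent.P200G.Main

/-!
# The graded pieces of `J` have the same dimension as those of `I`
-/

namespace Vale.Agent.P200G

open MvPolynomial Module Vale.Agent.P200

variable {K : Type*} [Field K]

/-- The exponent vectors spanning `J_d`. -/
def expSet (b : ℕ) (I : Ideal (Pol K)) (n : ℕ) : Set (Fin 3 →₀ ℕ) :=
  {e | e.degree = n ∧ (InP b e ∨ lexRank b e < qDim b I n)}

theorem expSet_finite (b : ℕ) (I : Ideal (Pol K)) (n : ℕ) : (expSet b I n).Finite :=
  (finite_degree n).subset fun _ he => he.1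

theorem lexPlusPowers_eq (b : ℕ) (I : Ideal (Pol K)) (n : ℕ) :
    lexPlusPowers b I n =
      Submodule.span K (Set.range fun e : expSet b I n => (monomial e.1 1 : Pol K)) := by
  unfold lexPlusPowers
  congr 1
  ext p
  constructor
  · rintro ⟨e, h1, h2, rfl⟩
    exact ⟨⟨e, h1, h2⟩, rfl⟩
  · rintro ⟨⟨e, h1, h2⟩, rfl⟩
    exact ⟨e, h1, h2, rfl⟩

theorem finrank_lexPlusPowers (b : ℕ) (I : Ideal (Pol K)) (n : ℕ) :
    finrank K (lexPlusPowers b I n) = (expSet b I n).ncard := by
  classical
  haveI : Fintype (expSet b I n) := (expSet_finite b I n).fintype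
  rw [lexPlusPowers_eq]
  have hli : LinearIndependent K fun e : expSet b I n => (monomial e.1 1 : Pol K) := by
    have h := (basisMonomials (Fin 3) K).linearIndependent.comp
      (Subtype.val : expSet b I n → (Fin 3 →₀ ℕ)) Subtype.val_injective
    have h2 : (⇑(basisMonomials (Fin 3) K) ∘ (Subtype.val : expSet b I n → (Fin 3 →₀ ℕ)))
        = fun e : expSet b I n => (monomial e.1 1 : Pol K) := by
      funext e
      simp
    rw [h2] at h
    exact h
  rw [finrank_span_eq_card hli, Set.ncard_eq_toFinset_card']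
  simp

theorem lexGt_trans {a b c : Fin 3 →₀ ℕ} (h1 : LexGt a b) (h2 : LexGt b c) : LexGt a c := by
  unfold LexGt at *
  omega

theorem lexGt_irrefl (a : Fin 3 →₀ ℕ) : ¬ LexGt a a := by
  unfold LexGt
  omega

theorem lexGt_total {a b : Fin 3 →₀ ℕ} (h : a.degree = b.degree) (hne : a ≠ b) :
    LexGt a b ∨ LexGt b a := by
  rw [degree_eq, degree_eq] at h
  unfold LexGt
  by_contra hc
  apply hne
  ext i
  fin_cases i
  · show a 0 = b 0
    omega
  · show a 1 = b 1
    omega
  · show a 2 = b 2
    omega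

/-- Among the monomials of degree `n` outside `P`, exactly `q` have rank below `q`. -/
theorem count_rank (b n q : ℕ) (hq : q ≤ nonP b n) :
    Set.ncard {e : Fin 3 →₀ ℕ | e.degree = n ∧ ¬ InP b e ∧ lexRank b e < q} = q := by
  classical
  have hfin : {e : Fin 3 →₀ ℕ | e.degree = n ∧ ¬ InP b e}.Finite :=
    (finite_degree n).subset fun _ he => he.1
  set M : Finset (Fin 3 →₀ ℕ) := hfin.toFinset with hM
  have hmem : ∀ e, e ∈ M ↔ e.degree = n ∧ ¬ InP b e := by
    intro e
    simp [hM]
  have hcard : M.card = nonP b n := by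
    rw [← ncard_nonP, hM, Set.ncard_eq_toFinset_card _ hfin]
  have hrank : ∀ e ∈ M, lexRank b e = (M.filter fun e' => LexGt e' e).card := by
    intro e he
    unfold lexRank
    rw [← Set.ncard_coe_finset]
    congr 1
    ext e'
    simp only [Set.mem_setOf_eq, Finset.coe_filter, hmem]
    rw [((hmem e).mp he).1]
    tauto
  have hlt : ∀ e ∈ M, ∀ e' ∈ M, LexGt e' e → lexRank b e' < lexRank b e := by
    intro e he e' he' h
    rw [hrank e he, hrank e' he']
    refine Finset.card_lt_card ?_
    rw [Finset.ssubset_iff_of_subset]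
    · exact ⟨e', Finset.mem_filter.mpr ⟨he', h⟩, fun h2 =>
        lexGt_irrefl e' (Finset.mem_filter.mp h2).2⟩
    · intro x hx
      rw [Finset.mem_filter] at hx ⊢
      exact ⟨hx.1, lexGt_trans hx.2 h⟩
  have hinj : Set.InjOn (lexRank b) (M : Set (Fin 3 →₀ ℕ)) := by
    intro e he e' he' h
    by_contra hne
    have he1 := (hmem e).mp he
    have he2 := (hmem e').mp he'
    rcases lexGt_total (he1.1.trans he2.1.symm) hne with h1 | h1
    · have := hlt e' he' e he h1
      omega
    · have := hlt e he e' he' h1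
      omega
  have hbd : ∀ e ∈ M, lexRank b e < M.card := by
    intro e he
    rw [hrank e he]
    refine Finset.card_lt_card ?_
    rw [Finset.ssubset_iff_of_subset (Finset.filter_subset _ _)]
    exact ⟨e, he, fun h2 => lexGt_irrefl e (Finset.mem_filter.mp h2).2⟩
  have himg : M.image (lexRank b) = Finset.range M.card := by
    refine Finset.eq_of_subset_of_card_le ?_ ?_
    · intro x hx
      obtain ⟨e, he, rfl⟩ := Finset.mem_image.mp hx
      exact Finset.mem_range.mpr (hbd e he)
    · rw [Finset.card_range, Finset.card_image_of_injOn hinj]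
  have hs : {e : Fin 3 →₀ ℕ | e.degree = n ∧ ¬ InP b e ∧ lexRank b e < q} =
      ((M.filter fun e => lexRank b e < q : Finset (Fin 3 →₀ ℕ)) : Set (Fin 3 →₀ ℕ)) := by
    ext e
    simp only [Set.mem_setOf_eq, Finset.coe_filter, hmem]
    tauto
  rw [hs, Set.ncard_coe_finset]
  have himg2 : (M.filter fun e => lexRank b e < q).image (lexRank b) = Finset.range q := by
    ext x
    simp only [Finset.mem_image, Finset.mem_filter, Finset.mem_range]
    constructor
    · rintro ⟨e, ⟨-, h⟩, rfl⟩
      exact h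
    · intro hx
      have hx2 : x ∈ M.image (lexRank b) := by
        rw [himg, Finset.mem_range]
        omega
      obtain ⟨e, he, rfl⟩ := Finset.mem_image.mp hx2
      exact ⟨e, ⟨he, hx⟩, rfl⟩
  have hinj2 : Set.InjOn (lexRank b)
      ((M.filter fun e => lexRank b e < q : Finset (Fin 3 →₀ ℕ)) : Set (Fin 3 →₀ ℕ)) :=
    hinj.mono (by
      intro e he
      exact (Finset.mem_filter.mp he).1)
  rw [← Finset.card_image_of_injOn hinj2, himg2, Finset.card_range]

namespace IsReg3

variable {d : Fin 3 → ℕ} {p : Fin 3 → Pol K} {b : ℕ}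

/-- Each `J_n` has the same dimension as `I_n`. -/
theorem finrank_J_eq (hp : IsReg3 d p) (h0 : d 0 = 3) (h1 : d 1 = b) (h2 : d 2 = b) (hb : 3 ≤ b)
    {I : Ideal (Pol K)} (hI : Fid p ≤ I) (n : ℕ) :
    finrank K (lexPlusPowers b I n) = finrank K (degPart I n) := by
  rw [finrank_lexPlusPowers]
  have hs : expSet b I n = {e : Fin 3 →₀ ℕ | e.degree = n ∧ InP b e} ∪
      {e : Fin 3 →₀ ℕ | e.degree = n ∧ ¬ InP b e ∧ lexRank b e < qDim b I n} := by
    ext e
    simp only [expSet, Set.mem_setOf_eq, Set.mem_union]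
    tauto
  have hdis : Disjoint {e : Fin 3 →₀ ℕ | e.degree = n ∧ InP b e}
      {e : Fin 3 →₀ ℕ | e.degree = n ∧ ¬ InP b e ∧ lexRank b e < qDim b I n} := by
    rw [Set.disjoint_left]
    rintro e ⟨-, h⟩ ⟨-, h', -⟩
    exact h' h
  rw [hs, Set.ncard_union_eq hdis ((finite_degree n).subset fun e he => he.1)
    ((finite_degree n).subset fun e he => he.1), count_rank b n _ (hp.qDim_le h0 h1 h2 hb I n),
    hp.qDim_eq h0 h1 h2 hb, hp.ncard_InP_eq h0 h1 h2 hb]
  have h3 := finrank_le_of_le (Id_mono hI (n := n))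
  show _ = finrank K (Id I n)
  omega

end IsReg3

end Vale.Agent.P200G
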