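import Vale.Agent.P200G.BaseChange

/-!
# The growth inequalities for all ideals containing the regular sequence
-/

namespace Vale.Agent.P200G

open MvPolynomial Module Vale.Agent.P200

/-- The number of monomials `x₁ʲ x₂ᵏ` of degree `m` with `j, k < b`. -/
def Dd (b m : ℕ) : ℕ := min (m + 1) (2 * b - 1 - m)

/-- The number of monomials of degree `d` outside `P`. -/
def nonP (b d : ℕ) : ℕ :=
  Dd b d + (if 1 ≤ d then Dd b (d - 1) else 0) + (if 2 ≤ d then Dd b (d - 2) else 0)

theorem nonP_zero {b : ℕ} (hb : 3 ≤ b) : nonP b 0 = 1 := by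
  simp only [nonP, Dd]
  simp
  omega

theorem nonP_low {b j : ℕ} (h1 : 1 ≤ j) (h2 : j < b) : nonP b j = 3 * j := by
  simp only [nonP, Dd]
  split_ifs <;> omega

theorem nonP_at {b : ℕ} (hb : 3 ≤ b) : nonP b b = 3 * b - 2 := by
  simp only [nonP, Dd]
  split_ifs <;> omega

theorem nonP_symm {b j d : ℕ} (hb : 3 ≤ b) (h : j + d = 2 * b) : nonP b d = nonP b j := by
  simp only [nonP, Dd]
  split_ifs <;> omega

theorem nonP_large {b d : ℕ} (h : 2 * b < d) : nonP b d = 0 := by
  simp only [nonP, Dd]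
  split_ifs <;> omega

theorem phi_dual {b j d Q₀ Q₁ : ℕ} (hb : 3 ≤ b) (hdj : j + d + 1 = 2 * b) (hj : j + 1 ≤ b)
    (h₀ : Q₀ ≤ nonP b (j + 1)) (h₁ : Q₁ ≤ nonP b j)
    (h : phi b j (nonP b j - Q₁) + Q₀ ≤ nonP b (j + 1)) : phi b d Q₀ ≤ Q₁ := by
  by_cases hj0 : j = 0
  · subst hj0
    rw [nonP_zero hb] at h₁ h
    rw [nonP_low (j := 0 + 1) (by omega) (by omega)] at h₀ h
    have hd : d + 1 = 2 * b := by omega
    have hd1 : d ≠ 0 := by omega
    have hd2 : ¬ d + 2 ≤ b := by omega
    have hd3 : ¬ d + 1 = b := by omega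
    have hd4 : d ≠ b := by omega
    by_cases hQ : Q₁ = 0
    · subst hQ
      simp only [phi] at h
      simp at h
      have hQ0 : Q₀ = 0 := by omega
      subst hQ0
      simp [phi]
    · have hQ1 : Q₁ = 1 := by omega
      subst hQ1
      simp only [phi, hd1, hd2, hd3, hd4, hd, if_false, if_true]
      split_ifs <;> omega
  by_cases hj2 : j + 2 ≤ b
  · rw [nonP_low (by omega) (by omega)] at h₁ h
    rw [nonP_low (j := j + 1) (by omega) (by omega)] at h₀ h
    have hd1 : d ≠ 0 := by omega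
    have hd2 : ¬ d + 2 ≤ b := by omega
    have hd3 : ¬ d + 1 = b := by omega
    have hd4 : d ≠ b := by omega
    have hd5 : ¬ d + 1 = 2 * b := by omega
    simp only [phi, hj0, hj2, hd1, hd2, hd3, hd4, hd5, if_false, if_true] at h ⊢
    split_ifs at h ⊢ <;> omega
  · have hjb : j + 1 = b := by omega
    rw [nonP_low (by omega) (by omega)] at h₁ h
    have h3 : nonP b (j + 1) = 3 * b - 2 := by rw [hjb]; exact nonP_at hb
    rw [h3] at h₀ h
    have hdb : d = b := by omega
    subst hdb
    have hd1 : d ≠ 0 := by omega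
    have hd2 : ¬ d + 2 ≤ d := by omega
    have hd3 : ¬ d + 1 = d := by omega
    simp only [phi, hj0, hj2, hjb, hd1, hd2, hd3, if_false, if_true] at h ⊢
    split_ifs at h ⊢ <;> omega

variable {K : Type*} [Field K]

namespace IsReg3

variable {d : Fin 3 → ℕ} {p : Fin 3 → Pol K} {b : ℕ}

/-- The Hilbert function of the complete intersection. -/
theorem finrank_F_add (hp : IsReg3 d p) (h0 : d 0 = 3) (h1 : d 1 = b) (h2 : d 2 = b) (hb : 3 ≤ b)
    (n : ℕ) : finrank K (Sd K n) = finrank K (Id (Fid p) n) + nonP b n := by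
  have hs : 2 * b + 3 = d 0 + d 1 + d 2 := by omega
  have low : ∀ n, n ≤ b → finrank K (Sd K n) = finrank K (Id (Fid p) n) + nonP b n := by
    intro n hn
    rw [finrank_Sd]
    by_cases hn1 : n = b
    · subst hn1
      rw [hp.F_at' h0 h1 h2 (by omega), nonP_at hb, c3_add (by omega)]
      omega
    · rw [hp.F_below' h0 h1 h2 (by omega)]
      by_cases hn0 : n = 0
      · subst hn0
        rw [nonP_zero hb, c3_zero]
        rfl
      · rw [nonP_low (by omega) (by omega), c3_add (by omega)]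
  by_cases hn : n ≤ b
  · exact low n hn
  by_cases hn2 : n ≤ 2 * b
  · have h3 := hp.symmetry (K := K) hs (m := 2 * b - n) (n := n) (by omega)
    have h4 := low (2 * b - n) (by omega)
    have h5 := nonP_symm (j := 2 * b - n) (d := n) hb (by omega)
    omega
  · have h3 := hp.finrank_top (K := K) hs (n := n) (by omega)
    rw [nonP_large (by omega), h3]
    rfl

theorem Id_le_of_le {I : Ideal (Pol K)} (hI : Fid p ≤ I) (n : ℕ) : Id (Fid p) n ≤ Id I n :=
  Id_mono hI n

/-- The growth inequalities for all ideals containing the regular sequence. -/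
theorem growth (hp : IsReg3 d p) (h0 : d 0 = 3) (h1 : d 1 = b) (h2 : d 2 = b) (hb : 3 ≤ b)
    {I : Ideal (Pol K)} (hI : Fid p ≤ I) {n : ℕ} (hn : n + 1 ≤ 2 * b) :
    phi b n (finrank K (Id I n) - finrank K (Id (Fid p) n))
      ≤ finrank K (Id I (n + 1)) - finrank K (Id (Fid p) (n + 1)) := by
  by_cases hnb : n + 1 ≤ b
  · have h3 := hp.step_low_all h0 h1 h2 hb hnb (Id_mono hI n) (Id_le I n)
    have h4 : up (Id I n) ⊔ Id (Fid p) (n + 1) ≤ Id I (n + 1) :=
      sup_le (up_Id_le I n) (Id_mono hI _)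
    have h5 := finrank_le_of_le h4
    omega
  · obtain ⟨j, hj⟩ : ∃ j, j + n + 1 = 2 * b := ⟨2 * b - n - 1, by omega⟩
    have hs : 2 * b + 3 = d 0 + d 1 + d 2 := by omega
    obtain ⟨τ, hτ⟩ := hp.exists_tau (K := K) hs
    have hjb : j + 1 ≤ b := by omega
    have e1 := hp.finrank_perp hs hτ (m := n + 1) (n := j) (by omega) (Id_mono hI (n + 1))
      (Id_le I (n + 1))
    have e2 := hp.finrank_perp hs hτ (m := n) (n := j + 1) (by omega) (Id_mono hI n) (Id_le I n)
    have hY1 : Id (Fid p) j ≤ perp τ j (Id I (n + 1)) := by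
      intro y hy
      rw [mem_perp]
      have hy' := mem_Id.mp hy
      refine ⟨hy'.2, fun c hc => ?_⟩
      have hc' := mem_Id.mp hc
      refine (hτ _ ?_).mpr (Ideal.mul_mem_right _ _ hy'.1)
      have := hy'.2.mul hc'.2
      rwa [show j + (n + 1) = 2 * b by omega] at this
    have hZ1 : up (perp τ j (Id I (n + 1))) ⊔ Id (Fid p) (j + 1) ≤ perp τ (j + 1) (Id I n) := by
      refine sup_le ?_ ?_
      · refine Submodule.mul_le.mpr fun l hl y hy => ?_
        rw [mem_perp] at hy ⊢
        refine ⟨?_, fun c hc => ?_⟩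
        · have := hy.1.mul (show l.IsHomogeneous 1 from hl)
          rwa [mul_comm] at this
        · have h3 := hy.2 (l * c) (up_Id_le I n (mul_mem_up hl hc))
          rw [← h3]
          congr 1
          ring
      · intro g hg
        rw [mem_Id] at hg
        rw [mem_perp]
        refine ⟨hg.2, fun c hc => ?_⟩
        have hc' := mem_Id.mp hc
        refine (hτ _ ?_).mpr (Ideal.mul_mem_right _ _ hg.1)
        have h3 := hg.2.mul hc'.2
        rwa [show j + 1 + n = 2 * b by omega] at h3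
    have hYle : perp τ j (Id I (n + 1)) ≤ Sd K j := perp_le _ _ _
    have hZle : perp τ (j + 1) (Id I n) ≤ Sd K (j + 1) := perp_le _ _ _
    haveI := finDim hYle
    haveI := finDim hZle
    have h3 := hp.step_low_all h0 h1 h2 hb hjb hY1 hYle
    have h4 := finrank_le_of_le hZ1
    have n1 := hp.finrank_F_add h0 h1 h2 hb j
    have n2 := hp.finrank_F_add h0 h1 h2 hb (j + 1)
    have n3 := hp.finrank_F_add h0 h1 h2 hb n
    have n4 := hp.finrank_F_add h0 h1 h2 hb (n + 1)
    have n5 := nonP_symm (j := j + 1) (d := n) hb (by omega)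
    have n6 := nonP_symm (j := j) (d := n + 1) hb (by omega)
    have m1 := finrank_le_of_le (Id_mono hI (n := n))
    have m2 := finrank_le_of_le (Id_mono hI (n := n + 1))
    have m3 := finrank_le_of_le (Id_le I n)
    have m4 := finrank_le_of_le (Id_le I (n + 1))
    obtain ⟨Q₀, hQ₀⟩ : ∃ Q₀, finrank K (Id I n) = Q₀ + finrank K (Id (Fid p) n) :=
      ⟨_, (Nat.sub_add_cancel m1).symm⟩
    obtain ⟨Q₁, hQ₁⟩ : ∃ Q₁, finrank K (Id I (n + 1)) = Q₁ + finrank K (Id (Fid p) (n + 1)) :=
      ⟨_, (Nat.sub_add_cancel m2).symm⟩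
    have s0 : finrank K (Id I n) - finrank K (Id (Fid p) n) = Q₀ := by omega
    have s1 : finrank K (Id I (n + 1)) - finrank K (Id (Fid p) (n + 1)) = Q₁ := by omega
    rw [s0, s1]
    have s2 : finrank K (perp τ j (Id I (n + 1))) - finrank K (Id (Fid p) j) = nonP b j - Q₁ := by
      omega
    rw [s2] at h3
    refine phi_dual hb hj hjb (by omega) (by omega) ?_
    omega

end IsReg3

end Vale.Agent.P200G
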