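import Vale.Agent.P200G.GrowthI
import Vale.Agent.P200G.Defs

/-!
# Counting monomials outside `P` and the lexicographic rank
-/

namespace Vale.Agent.P200G

open MvPolynomial Module Vale.Agent.P200

/-- The exponent vector with given entries. -/
noncomputable def tri (a b c : ℕ) : Fin 3 →₀ ℕ := Finsupp.equivFunOnFinite.symm ![a, b, c]

theorem tri_0 (a b c : ℕ) : tri a b c 0 = a := rfl
theorem tri_1 (a b c : ℕ) : tri a b c 1 = b := rfl
theorem tri_2 (a b c : ℕ) : tri a b c 2 = c := rfl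

theorem tri_eta (e : Fin 3 →₀ ℕ) : tri (e 0) (e 1) (e 2) = e := by
  ext i
  fin_cases i <;> rfl

theorem degree_eq (e : Fin 3 →₀ ℕ) : e.degree = e 0 + e 1 + e 2 := by
  rw [Finsupp.degree_eq_sum, Fin.sum_univ_three]

theorem ncard_degree (d : ℕ) : Set.ncard {e : Fin 3 →₀ ℕ | e.degree = d} = (d + 2).choose 2 := by
  classical
  have hs : {e : Fin 3 →₀ ℕ | e.degree = d} =
      ((Finset.finsuppAntidiag (Finset.univ : Finset (Fin 3)) d : Finset (Fin 3 →₀ ℕ)) :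
        Set (Fin 3 →₀ ℕ)) := by
    ext e
    simp only [Set.mem_setOf_eq, Finset.mem_coe, Finset.mem_finsuppAntidiag]
    simp [Finsupp.degree_eq_sum]
  rw [hs, Set.ncard_coe_finset, Finset.card_finsuppAntidiag_nat_eq_choose]
  simp only [Finset.card_univ, Fintype.card_fin]
  have : 3 + d - 1 = d + 2 := by omega
  rw [this]
  exact Nat.choose_symm_of_eq_add (by omega)

theorem finite_degree (d : ℕ) : Set.Finite {e : Fin 3 →₀ ℕ | e.degree = d} := by
  classical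
  have hs : {e : Fin 3 →₀ ℕ | e.degree = d} =
      ((Finset.finsuppAntidiag (Finset.univ : Finset (Fin 3)) d : Finset (Fin 3 →₀ ℕ)) :
        Set (Fin 3 →₀ ℕ)) := by
    ext e
    simp only [Set.mem_setOf_eq, Finset.mem_coe, Finset.mem_finsuppAntidiag]
    simp [Finsupp.degree_eq_sum]
  rw [hs]
  exact Finset.finite_toSet _

/-- Counting monomials of degree `d` outside `P` with a property of the first two exponents. -/
theorem ncard_row (b d : ℕ) (R : ℕ → ℕ → Prop) [∀ a j, Decidable (R a j)] :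
    Set.ncard {e : Fin 3 →₀ ℕ | e.degree = d ∧ ¬ InP b e ∧ R (e 0) (e 1)} =
      ∑ a ∈ Finset.range 3, ((Finset.range b).filter
        (fun j => a + j ≤ d ∧ d - a - j < b ∧ R a j)).card := by
  classical
  let g : ℕ × ℕ → (Fin 3 →₀ ℕ) := fun t => tri t.1 t.2 (d - t.1 - t.2)
  let F : Finset (ℕ × ℕ) := (Finset.range 3 ×ˢ Finset.range b).filter
    (fun t => t.1 + t.2 ≤ d ∧ d - t.1 - t.2 < b ∧ R t.1 t.2)
  have hs : {e : Fin 3 →₀ ℕ | e.degree = d ∧ ¬ InP b e ∧ R (e 0) (e 1)} =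
      g '' (F : Set (ℕ × ℕ)) := by
    ext e
    simp only [Set.mem_setOf_eq, Set.mem_image, Finset.mem_coe, F, Finset.mem_filter,
      Finset.mem_product, Finset.mem_range, InP]
    constructor
    · rintro ⟨h1, h2, h3⟩
      rw [degree_eq] at h1
      refine ⟨(e 0, e 1), ⟨⟨by simp only; omega, by simp only; omega⟩, by simp only; omega,
        by simp only; omega, h3⟩, ?_⟩
      have : d - e 0 - e 1 = e 2 := by omega
      simp only [g, this]
      exact tri_eta e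
    · rintro ⟨⟨a, j⟩, ⟨⟨h1, h2⟩, h3, h4, h5⟩, rfl⟩
      simp only at h1 h2 h3 h4 h5
      simp only [g, tri_0, tri_1, tri_2, degree_eq]
      exact ⟨by omega, by omega, h5⟩
  have hinj : Set.InjOn g (F : Set (ℕ × ℕ)) := by
    rintro ⟨a, j⟩ _ ⟨a', j'⟩ _ h
    have h0 := DFunLike.congr_fun h 0
    have h1 := DFunLike.congr_fun h 1
    simp only [g, tri_0, tri_1] at h0 h1
    rw [h0, h1]
  rw [hs, Set.ncard_image_of_injOn hinj, Set.ncard_coe_finset]
  simp only [F]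
  rw [Finset.card_filter, Finset.sum_product]
  refine Finset.sum_congr rfl fun a _ => ?_
  rw [Finset.card_filter]

theorem row_full (b d a : ℕ) (ha : a ≤ d) :
    ((Finset.range b).filter (fun j => a + j ≤ d ∧ d - a - j < b ∧ True)).card = Dd b (d - a) := by
  have : (Finset.range b).filter (fun j => a + j ≤ d ∧ d - a - j < b ∧ True) =
      Finset.Ico (d - a + 1 - b) (min b (d - a + 1)) := by
    ext j
    simp only [Finset.mem_filter, Finset.mem_range, Finset.mem_Ico, and_true]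
    omega
  rw [this, Nat.card_Ico]
  try simp only [Dd]
  omega

theorem row_empty (b d a : ℕ) (ha : d < a) (R : ℕ → Prop) [∀ j, Decidable (R j)] :
    ((Finset.range b).filter (fun j => a + j ≤ d ∧ d - a - j < b ∧ R j)).card = 0 := by
  rw [Finset.card_eq_zero, Finset.filter_eq_empty_iff]
  intro j _ h
  omega

theorem row_gt (b d a j₀ k₀ : ℕ) (h : a + j₀ + k₀ = d) (hk : k₀ < b) :
    ((Finset.range b).filter (fun j => a + j ≤ d ∧ d - a - j < b ∧ j₀ < j)).card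
      = min (b - 1) (d - a) - j₀ := by
  have : (Finset.range b).filter (fun j => a + j ≤ d ∧ d - a - j < b ∧ j₀ < j) =
      Finset.Ico (j₀ + 1) (min b (d - a + 1)) := by
    ext j
    simp only [Finset.mem_filter, Finset.mem_range, Finset.mem_Ico]
    omega
  rw [this, Nat.card_Ico]
  omega

/-- The number of monomials of degree `d` outside `P`. -/
theorem ncard_nonP (b d : ℕ) :
    Set.ncard {e : Fin 3 →₀ ℕ | e.degree = d ∧ ¬ InP b e} = nonP b d := by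
  have h := ncard_row b d (fun _ _ => True)
  have hs : {e : Fin 3 →₀ ℕ | e.degree = d ∧ ¬ InP b e ∧ True} =
      {e : Fin 3 →₀ ℕ | e.degree = d ∧ ¬ InP b e} := by
    ext e
    simp
  rw [hs] at h
  rw [h, Finset.sum_range_succ, Finset.sum_range_succ, Finset.sum_range_one, nonP]
  rw [row_full b d 0 (by omega)]
  simp only [Nat.sub_zero]
  congr 1
  · congr 1
    by_cases h1 : 1 ≤ d
    · rw [row_full b d 1 h1, if_pos h1]
    · rw [if_neg h1]
      exact row_empty b d 1 (by omega) (fun _ => True)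
  · by_cases h1 : 2 ≤ d
    · rw [row_full b d 2 h1, if_pos h1]
    · rw [if_neg h1]
      exact row_empty b d 2 (by omega) (fun _ => True)

/-- The lexicographic rank as a formula in the exponents. -/
def rankF (b i j d : ℕ) : ℕ :=
  (if i < 2 ∧ 2 ≤ d then Dd b (d - 2) else 0) + (if i < 1 ∧ 1 ≤ d then Dd b (d - 1) else 0)
    + (min (b - 1) (d - i) - j)

theorem not_InP_iff {b : ℕ} (e : Fin 3 →₀ ℕ) : ¬ InP b e ↔ e 0 < 3 ∧ e 1 < b ∧ e 2 < b := by
  unfold InP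
  omega

theorem lexRank_eq {b : ℕ} {e : Fin 3 →₀ ℕ} (he : ¬ InP b e) :
    lexRank b e = rankF b (e 0) (e 1) (e 0 + e 1 + e 2) := by
  classical
  obtain ⟨h0, h1, h2⟩ := (not_InP_iff e).mp he
  set d := e 0 + e 1 + e 2 with hd
  have h := ncard_row b d (fun a j => e 0 < a ∨ (a = e 0 ∧ e 1 < j))
  have hs : {e' : Fin 3 →₀ ℕ | e'.degree = e.degree ∧ ¬ InP b e' ∧ LexGt e' e} =
      {e' : Fin 3 →₀ ℕ | e'.degree = d ∧ ¬ InP b e' ∧ (e 0 < e' 0 ∨ (e' 0 = e 0 ∧ e 1 < e' 1))} := by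
    ext e'
    simp only [Set.mem_setOf_eq, LexGt, degree_eq]
    constructor
    · rintro ⟨h3, h4, h5⟩
      refine ⟨by omega, h4, ?_⟩
      omega
    · rintro ⟨h3, h4, h5⟩
      refine ⟨by omega, h4, ?_⟩
      omega
  unfold lexRank
  rw [hs, h, Finset.sum_range_succ, Finset.sum_range_succ, Finset.sum_range_one, rankF]
  have c0 : ∀ a, e 0 < a → a ≤ d →
      ((Finset.range b).filter (fun j => a + j ≤ d ∧ d - a - j < b ∧
        (e 0 < a ∨ (a = e 0 ∧ e 1 < j)))).card = Dd b (d - a) := by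
    intro a h3 h4
    rw [← row_full b d a h4]
    congr 1
    ext j
    simp only [Finset.mem_filter, Finset.mem_range]
    tauto
  have c1 : ∀ a, e 0 < a → d < a →
      ((Finset.range b).filter (fun j => a + j ≤ d ∧ d - a - j < b ∧
        (e 0 < a ∨ (a = e 0 ∧ e 1 < j)))).card = 0 := by
    intro a h3 h4
    exact row_empty b d a h4 _
  have c2 : ∀ a, a < e 0 →
      ((Finset.range b).filter (fun j => a + j ≤ d ∧ d - a - j < b ∧
        (e 0 < a ∨ (a = e 0 ∧ e 1 < j)))).card = 0 := by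
    intro a h3
    rw [Finset.card_eq_zero, Finset.filter_eq_empty_iff]
    intro j _ h4
    omega
  have c3 : ∀ a, a = e 0 →
      ((Finset.range b).filter (fun j => a + j ≤ d ∧ d - a - j < b ∧
        (e 0 < a ∨ (a = e 0 ∧ e 1 < j)))).card = min (b - 1) (d - e 0) - e 1 := by
    intro a h3
    subst h3
    rw [← row_gt b d (e 0) (e 1) (e 2) (by omega) h2]
    congr 1
    ext j
    simp only [Finset.mem_filter, Finset.mem_range]
    have h5 : (e 0 < e 0 ∨ (True ∧ e 1 < j)) ↔ e 1 < j := by simp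
    rw [h5]
  have hcases : e 0 = 0 ∨ e 0 = 1 ∨ e 0 = 2 := by omega
  rcases hcases with h3 | h3 | h3
  · rw [c3 0 (by omega)]
    by_cases h4 : 1 ≤ d
    · rw [c0 1 (by omega) h4]
      by_cases h5 : 2 ≤ d
      · rw [c0 2 (by omega) h5, if_pos ⟨by omega, h5⟩, if_pos ⟨by omega, h4⟩]
        omega
      · rw [c1 2 (by omega) (by omega), if_neg (by omega), if_pos ⟨by omega, h4⟩]
        omega
    · rw [c1 1 (by omega) (by omega), c1 2 (by omega) (by omega), if_neg (by omega),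
        if_neg (by omega)]
      omega
  · rw [c2 0 (by omega), c3 1 (by omega)]
    by_cases h5 : 2 ≤ d
    · rw [c0 2 (by omega) h5, if_pos ⟨by omega, h5⟩, if_neg (by omega)]
      omega
    · rw [c1 2 (by omega) (by omega), if_neg (by omega), if_neg (by omega)]
      omega
  · rw [c2 0 (by omega), c2 1 (by omega), c3 2 (by omega), if_neg (by omega), if_neg (by omega)]

theorem phi_mono (b d : ℕ) {u v : ℕ} (h : u ≤ v) : phi b d u ≤ phi b d v := by
  by_cases hu : u = 0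
  · subst hu
    simp [phi]
  have hv : v ≠ 0 := by omega
  by_cases hd0 : d = 0
  · simp [phi, hu, hv, hd0]
  by_cases hd2 : d + 2 ≤ b
  · simp only [phi, hu, hv, hd0, hd2, if_true, if_false]
    split_ifs <;> omega
  by_cases hd1 : d + 1 = b
  · simp only [phi, hu, hv, hd0, hd2, hd1, if_true, if_false]
    split_ifs <;> omega
  by_cases hd3 : d = b
  · simp only [phi, hu, hv, hd0, hd2, hd1, hd3, if_true, if_false]
    split_ifs <;> omega
  by_cases hd4 : d + 1 = 2 * b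
  · unfold phi
    rw [if_neg hu, if_neg hd0, if_neg hd2, if_neg hd1, if_neg hd3, if_pos hd4, if_neg hv,
      if_neg hd0, if_neg hd2, if_neg hd1, if_neg hd3, if_pos hd4]
  simp only [phi, hu, hv, hd0, hd2, hd1, hd3, hd4, if_true, if_false]
  split_ifs <;> omega

theorem phi_reg {b d u : ℕ} (hu : u ≠ 0) : phi b d u =
    if d = 0 then 3
    else if d + 2 ≤ b then (if u + 1 ≤ d then u + 1 else if u + 1 ≤ 2 * d then u + 2 else u + 3)
    else if d + 1 = b then (if u + 2 ≤ b then u + 1 else if u + 3 < 3 * b then u + 2 else u + 1)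
    else if d = b then (if u + 2 ≤ 2 * b then u + 1 else if u + 3 ≤ 3 * b then u else u - 1)
    else if d + 1 = 2 * b then 1
    else if u + d < 2 * b + 1 then u
    else if u + 2 * d < 4 * b + 1 then u - 1
    else if u + 3 * d < 6 * b then u - 2
    else u - 3 := by
  rw [phi, if_neg hu]

theorem rankF_zero {b j d : ℕ} (h : 2 ≤ d) :
    rankF b 0 j d = Dd b (d - 2) + Dd b (d - 1) + (min (b - 1) d - j) := by
  rw [rankF, if_pos ⟨by omega, h⟩, if_pos ⟨by omega, by omega⟩, Nat.sub_zero]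

theorem rankF_one {b j d : ℕ} (h : 2 ≤ d) :
    rankF b 1 j d = Dd b (d - 2) + (min (b - 1) (d - 1) - j) := by
  rw [rankF, if_pos ⟨by omega, h⟩, if_neg (by omega), Nat.add_zero]

theorem rankF_two {b j d : ℕ} :
    rankF b 2 j d = min (b - 1) (d - 2) - j := by
  rw [rankF, if_neg (by omega), if_neg (by omega), Nat.zero_add]

theorem phi_A {b d u : ℕ} (hu : u ≠ 0) (hd : d ≠ 0) (h : d + 2 ≤ b) :
    phi b d u = if u + 1 ≤ d then u + 1 else if u + 1 ≤ 2 * d then u + 2 else u + 3 := by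
  rw [phi, if_neg hu, if_neg hd, if_pos h]

theorem phi_B {b d u : ℕ} (hu : u ≠ 0) (hd : d ≠ 0) (h : d + 1 = b) :
    phi b d u = if u + 2 ≤ b then u + 1 else if u + 3 < 3 * b then u + 2 else u + 1 := by
  rw [phi, if_neg hu, if_neg hd, if_neg (by omega), if_pos h]

theorem phi_C {b d u : ℕ} (hu : u ≠ 0) (hd : d ≠ 0) (h : d = b) :
    phi b d u = if u + 2 ≤ 2 * b then u + 1 else if u + 3 ≤ 3 * b then u else u - 1 := by
  rw [phi, if_neg hu, if_neg hd, if_neg (by omega), if_neg (by omega), if_pos h]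

theorem phi_D {b d u : ℕ} (hu : u ≠ 0) (hb : 3 ≤ b) (h : d + 1 = 2 * b) : phi b d u = 1 := by
  rw [phi, if_neg hu, if_neg (by omega), if_neg (by omega), if_neg (by omega), if_neg (by omega),
    if_pos h]

theorem phi_E {b d u : ℕ} (hu : u ≠ 0) (hd : d ≠ 0) (h : b < d) (h' : d + 1 ≠ 2 * b) :
    phi b d u = if u + d < 2 * b + 1 then u
      else if u + 2 * d < 4 * b + 1 then u - 1
      else if u + 3 * d < 6 * b then u - 2
      else u - 3 := by
  rw [phi, if_neg hu, if_neg hd, if_neg (by omega), if_neg (by omega), if_neg (by omega),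
    if_neg h']

theorem step_0_0_A {b j k d : ℕ} (hb : 3 ≤ b) (hd : d = 0 + j + k) (hj : j < b) (hk : k < b) (h2 : 2 ≤ d) (hA : d + 2 ≤ b) :
    rankF b 1 j (d + 1) < phi b d (rankF b 0 j d + 1) := by
  rw [phi_A (by omega) (by omega) hA, rankF_zero h2, rankF_one (by omega)]
  obtain ⟨r, hr⟩ : ∃ r, r = Dd b (d - 2) + Dd b (d - 1) + (min (b - 1) d - j) := ⟨_, rfl⟩
  rw [← hr]
  try simp only [Dd] at hr ⊢
  split_ifs <;> omega

theorem step_0_0_B {b j k d : ℕ} (hb : 3 ≤ b) (hd : d = 0 + j + k) (hj : j < b) (hk : k < b) (h2 : 2 ≤ d) (hB : d + 1 = b) :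
    rankF b 1 j (d + 1) < phi b d (rankF b 0 j d + 1) := by
  rw [phi_B (by omega) (by omega) hB, rankF_zero h2, rankF_one (by omega)]
  obtain ⟨r, hr⟩ : ∃ r, r = Dd b (d - 2) + Dd b (d - 1) + (min (b - 1) d - j) := ⟨_, rfl⟩
  rw [← hr]
  try simp only [Dd] at hr ⊢
  split_ifs <;> omega

theorem step_0_0_C {b j k d : ℕ} (hb : 3 ≤ b) (hd : d = 0 + j + k) (hj : j < b) (hk : k < b) (h2 : 2 ≤ d) (hC : d = b) :
    rankF b 1 j (d + 1) < phi b d (rankF b 0 j d + 1) := by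
  rw [phi_C (by omega) (by omega) hC, rankF_zero h2, rankF_one (by omega)]
  obtain ⟨r, hr⟩ : ∃ r, r = Dd b (d - 2) + Dd b (d - 1) + (min (b - 1) d - j) := ⟨_, rfl⟩
  rw [← hr]
  try simp only [Dd] at hr ⊢
  split_ifs <;> omega

theorem step_0_0_D {b j k d : ℕ} (hb : 3 ≤ b) (hd : d = 0 + j + k) (hj : j < b) (hk : k < b) (h2 : 2 ≤ d) (hD : d + 1 = 2 * b) :
    rankF b 1 j (d + 1) < phi b d (rankF b 0 j d + 1) := by
  rw [phi_D (by omega) (by omega) hD, rankF_one (by omega)]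
  try simp only [Dd]
  omega

theorem step_0_0_E {b j k d : ℕ} (hb : 3 ≤ b) (hd : d = 0 + j + k) (hj : j < b) (hk : k < b) (h2 : 2 ≤ d) (hE : b < d) (hE' : d + 1 ≠ 2 * b) :
    rankF b 1 j (d + 1) < phi b d (rankF b 0 j d + 1) := by
  rw [phi_E (by omega) (by omega) hE hE', rankF_zero h2, rankF_one (by omega)]
  obtain ⟨r, hr⟩ : ∃ r, r = Dd b (d - 2) + Dd b (d - 1) + (min (b - 1) d - j) := ⟨_, rfl⟩
  rw [← hr]
  try simp only [Dd] at hr ⊢
  split_ifs <;> omega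

theorem step_0_1_A {b j k d : ℕ} (hb : 3 ≤ b) (hd : d = 0 + j + k) (hj : j + 1 < b) (hk : k < b) (h2 : 2 ≤ d) (hA : d + 2 ≤ b) :
    rankF b 0 (j + 1) (d + 1) < phi b d (rankF b 0 j d + 1) := by
  rw [phi_A (by omega) (by omega) hA, rankF_zero h2, rankF_zero (by omega)]
  obtain ⟨r, hr⟩ : ∃ r, r = Dd b (d - 2) + Dd b (d - 1) + (min (b - 1) d - j) := ⟨_, rfl⟩
  rw [← hr]
  try simp only [Dd] at hr ⊢
  split_ifs <;> omega

theorem step_0_1_B {b j k d : ℕ} (hb : 3 ≤ b) (hd : d = 0 + j + k) (hj : j + 1 < b) (hk : k < b) (h2 : 2 ≤ d) (hB : d + 1 = b) :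
    rankF b 0 (j + 1) (d + 1) < phi b d (rankF b 0 j d + 1) := by
  rw [phi_B (by omega) (by omega) hB, rankF_zero h2, rankF_zero (by omega)]
  obtain ⟨r, hr⟩ : ∃ r, r = Dd b (d - 2) + Dd b (d - 1) + (min (b - 1) d - j) := ⟨_, rfl⟩
  rw [← hr]
  try simp only [Dd] at hr ⊢
  split_ifs <;> omega

theorem step_0_1_C {b j k d : ℕ} (hb : 3 ≤ b) (hd : d = 0 + j + k) (hj : j + 1 < b) (hk : k < b) (h2 : 2 ≤ d) (hC : d = b) :
    rankF b 0 (j + 1) (d + 1) < phi b d (rankF b 0 j d + 1) := by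
  rw [phi_C (by omega) (by omega) hC, rankF_zero h2, rankF_zero (by omega)]
  obtain ⟨r, hr⟩ : ∃ r, r = Dd b (d - 2) + Dd b (d - 1) + (min (b - 1) d - j) := ⟨_, rfl⟩
  rw [← hr]
  try simp only [Dd] at hr ⊢
  split_ifs <;> omega

theorem step_0_1_D {b j k d : ℕ} (hb : 3 ≤ b) (hd : d = 0 + j + k) (hj : j + 1 < b) (hk : k < b) (h2 : 2 ≤ d) (hD : d + 1 = 2 * b) :
    rankF b 0 (j + 1) (d + 1) < phi b d (rankF b 0 j d + 1) := by
  rw [phi_D (by omega) (by omega) hD, rankF_zero (by omega)]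
  try simp only [Dd]
  omega

theorem step_0_1_E {b j k d : ℕ} (hb : 3 ≤ b) (hd : d = 0 + j + k) (hj : j + 1 < b) (hk : k < b) (h2 : 2 ≤ d) (hE : b < d) (hE' : d + 1 ≠ 2 * b) :
    rankF b 0 (j + 1) (d + 1) < phi b d (rankF b 0 j d + 1) := by
  rw [phi_E (by omega) (by omega) hE hE', rankF_zero h2, rankF_zero (by omega)]
  obtain ⟨r, hr⟩ : ∃ r, r = Dd b (d - 2) + Dd b (d - 1) + (min (b - 1) d - j) := ⟨_, rfl⟩
  rw [← hr]
  try simp only [Dd] at hr ⊢
  split_ifs <;> omega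

theorem step_0_2_A {b j k d : ℕ} (hb : 3 ≤ b) (hd : d = 0 + j + k) (hj : j < b) (hk : k + 1 < b) (h2 : 2 ≤ d) (hA : d + 2 ≤ b) :
    rankF b 0 j (d + 1) < phi b d (rankF b 0 j d + 1) := by
  rw [phi_A (by omega) (by omega) hA, rankF_zero h2, rankF_zero (by omega)]
  obtain ⟨r, hr⟩ : ∃ r, r = Dd b (d - 2) + Dd b (d - 1) + (min (b - 1) d - j) := ⟨_, rfl⟩
  rw [← hr]
  try simp only [Dd] at hr ⊢
  split_ifs <;> omega

theorem step_0_2_B {b j k d : ℕ} (hb : 3 ≤ b) (hd : d = 0 + j + k) (hj : j < b) (hk : k + 1 < b) (h2 : 2 ≤ d) (hB : d + 1 = b) :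
    rankF b 0 j (d + 1) < phi b d (rankF b 0 j d + 1) := by
  rw [phi_B (by omega) (by omega) hB, rankF_zero h2, rankF_zero (by omega)]
  obtain ⟨r, hr⟩ : ∃ r, r = Dd b (d - 2) + Dd b (d - 1) + (min (b - 1) d - j) := ⟨_, rfl⟩
  rw [← hr]
  try simp only [Dd] at hr ⊢
  split_ifs <;> omega

theorem step_0_2_C {b j k d : ℕ} (hb : 3 ≤ b) (hd : d = 0 + j + k) (hj : j < b) (hk : k + 1 < b) (h2 : 2 ≤ d) (hC : d = b) :
    rankF b 0 j (d + 1) < phi b d (rankF b 0 j d + 1) := by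
  rw [phi_C (by omega) (by omega) hC, rankF_zero h2, rankF_zero (by omega)]
  obtain ⟨r, hr⟩ : ∃ r, r = Dd b (d - 2) + Dd b (d - 1) + (min (b - 1) d - j) := ⟨_, rfl⟩
  rw [← hr]
  try simp only [Dd] at hr ⊢
  split_ifs <;> omega

theorem step_0_2_D {b j k d : ℕ} (hb : 3 ≤ b) (hd : d = 0 + j + k) (hj : j < b) (hk : k + 1 < b) (h2 : 2 ≤ d) (hD : d + 1 = 2 * b) :
    rankF b 0 j (d + 1) < phi b d (rankF b 0 j d + 1) := by
  rw [phi_D (by omega) (by omega) hD, rankF_zero (by omega)]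
  try simp only [Dd]
  omega

theorem step_0_2_E {b j k d : ℕ} (hb : 3 ≤ b) (hd : d = 0 + j + k) (hj : j < b) (hk : k + 1 < b) (h2 : 2 ≤ d) (hE : b < d) (hE' : d + 1 ≠ 2 * b) :
    rankF b 0 j (d + 1) < phi b d (rankF b 0 j d + 1) := by
  rw [phi_E (by omega) (by omega) hE hE', rankF_zero h2, rankF_zero (by omega)]
  obtain ⟨r, hr⟩ : ∃ r, r = Dd b (d - 2) + Dd b (d - 1) + (min (b - 1) d - j) := ⟨_, rfl⟩
  rw [← hr]
  try simp only [Dd] at hr ⊢
  split_ifs <;> omega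

theorem step_1_0_A {b j k d : ℕ} (hb : 3 ≤ b) (hd : d = 1 + j + k) (hj : j < b) (hk : k < b) (h2 : 2 ≤ d) (hA : d + 2 ≤ b) :
    rankF b 2 j (d + 1) < phi b d (rankF b 1 j d + 1) := by
  rw [phi_A (by omega) (by omega) hA, rankF_one h2, rankF_two]
  obtain ⟨r, hr⟩ : ∃ r, r = Dd b (d - 2) + (min (b - 1) (d - 1) - j) := ⟨_, rfl⟩
  rw [← hr]
  try simp only [Dd] at hr ⊢
  split_ifs <;> omega

theorem step_1_0_B {b j k d : ℕ} (hb : 3 ≤ b) (hd : d = 1 + j + k) (hj : j < b) (hk : k < b) (h2 : 2 ≤ d) (hB : d + 1 = b) :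
    rankF b 2 j (d + 1) < phi b d (rankF b 1 j d + 1) := by
  rw [phi_B (by omega) (by omega) hB, rankF_one h2, rankF_two]
  obtain ⟨r, hr⟩ : ∃ r, r = Dd b (d - 2) + (min (b - 1) (d - 1) - j) := ⟨_, rfl⟩
  rw [← hr]
  try simp only [Dd] at hr ⊢
  split_ifs <;> omega

theorem step_1_0_C {b j k d : ℕ} (hb : 3 ≤ b) (hd : d = 1 + j + k) (hj : j < b) (hk : k < b) (h2 : 2 ≤ d) (hC : d = b) :
    rankF b 2 j (d + 1) < phi b d (rankF b 1 j d + 1) := by
  rw [phi_C (by omega) (by omega) hC, rankF_one h2, rankF_two]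
  obtain ⟨r, hr⟩ : ∃ r, r = Dd b (d - 2) + (min (b - 1) (d - 1) - j) := ⟨_, rfl⟩
  rw [← hr]
  try simp only [Dd] at hr ⊢
  split_ifs <;> omega

theorem step_1_0_D {b j k d : ℕ} (hb : 3 ≤ b) (hd : d = 1 + j + k) (hj : j < b) (hk : k < b) (h2 : 2 ≤ d) (hD : d + 1 = 2 * b) :
    rankF b 2 j (d + 1) < phi b d (rankF b 1 j d + 1) := by
  rw [phi_D (by omega) (by omega) hD, rankF_two]
  try simp only [Dd]
  omega

theorem step_1_0_E {b j k d : ℕ} (hb : 3 ≤ b) (hd : d = 1 + j + k) (hj : j < b) (hk : k < b) (h2 : 2 ≤ d) (hE : b < d) (hE' : d + 1 ≠ 2 * b) :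
    rankF b 2 j (d + 1) < phi b d (rankF b 1 j d + 1) := by
  rw [phi_E (by omega) (by omega) hE hE', rankF_one h2, rankF_two]
  obtain ⟨r, hr⟩ : ∃ r, r = Dd b (d - 2) + (min (b - 1) (d - 1) - j) := ⟨_, rfl⟩
  rw [← hr]
  try simp only [Dd] at hr ⊢
  split_ifs <;> omega

theorem step_1_1_A {b j k d : ℕ} (hb : 3 ≤ b) (hd : d = 1 + j + k) (hj : j + 1 < b) (hk : k < b) (h2 : 2 ≤ d) (hA : d + 2 ≤ b) :
    rankF b 1 (j + 1) (d + 1) < phi b d (rankF b 1 j d + 1) := by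
  rw [phi_A (by omega) (by omega) hA, rankF_one h2, rankF_one (by omega)]
  obtain ⟨r, hr⟩ : ∃ r, r = Dd b (d - 2) + (min (b - 1) (d - 1) - j) := ⟨_, rfl⟩
  rw [← hr]
  try simp only [Dd] at hr ⊢
  split_ifs <;> omega

theorem step_1_1_B {b j k d : ℕ} (hb : 3 ≤ b) (hd : d = 1 + j + k) (hj : j + 1 < b) (hk : k < b) (h2 : 2 ≤ d) (hB : d + 1 = b) :
    rankF b 1 (j + 1) (d + 1) < phi b d (rankF b 1 j d + 1) := by
  rw [phi_B (by omega) (by omega) hB, rankF_one h2, rankF_one (by omega)]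
  obtain ⟨r, hr⟩ : ∃ r, r = Dd b (d - 2) + (min (b - 1) (d - 1) - j) := ⟨_, rfl⟩
  rw [← hr]
  try simp only [Dd] at hr ⊢
  split_ifs <;> omega

theorem step_1_1_C {b j k d : ℕ} (hb : 3 ≤ b) (hd : d = 1 + j + k) (hj : j + 1 < b) (hk : k < b) (h2 : 2 ≤ d) (hC : d = b) :
    rankF b 1 (j + 1) (d + 1) < phi b d (rankF b 1 j d + 1) := by
  rw [phi_C (by omega) (by omega) hC, rankF_one h2, rankF_one (by omega)]
  obtain ⟨r, hr⟩ : ∃ r, r = Dd b (d - 2) + (min (b - 1) (d - 1) - j) := ⟨_, rfl⟩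
  rw [← hr]
  try simp only [Dd] at hr ⊢
  split_ifs <;> omega

theorem step_1_1_D {b j k d : ℕ} (hb : 3 ≤ b) (hd : d = 1 + j + k) (hj : j + 1 < b) (hk : k < b) (h2 : 2 ≤ d) (hD : d + 1 = 2 * b) :
    rankF b 1 (j + 1) (d + 1) < phi b d (rankF b 1 j d + 1) := by
  rw [phi_D (by omega) (by omega) hD, rankF_one (by omega)]
  try simp only [Dd]
  omega

theorem step_1_1_E {b j k d : ℕ} (hb : 3 ≤ b) (hd : d = 1 + j + k) (hj : j + 1 < b) (hk : k < b) (h2 : 2 ≤ d) (hE : b < d) (hE' : d + 1 ≠ 2 * b) :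
    rankF b 1 (j + 1) (d + 1) < phi b d (rankF b 1 j d + 1) := by
  rw [phi_E (by omega) (by omega) hE hE', rankF_one h2, rankF_one (by omega)]
  obtain ⟨r, hr⟩ : ∃ r, r = Dd b (d - 2) + (min (b - 1) (d - 1) - j) := ⟨_, rfl⟩
  rw [← hr]
  try simp only [Dd] at hr ⊢
  split_ifs <;> omega

theorem step_1_2_A {b j k d : ℕ} (hb : 3 ≤ b) (hd : d = 1 + j + k) (hj : j < b) (hk : k + 1 < b) (h2 : 2 ≤ d) (hA : d + 2 ≤ b) :
    rankF b 1 j (d + 1) < phi b d (rankF b 1 j d + 1) := by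
  rw [phi_A (by omega) (by omega) hA, rankF_one h2, rankF_one (by omega)]
  obtain ⟨r, hr⟩ : ∃ r, r = Dd b (d - 2) + (min (b - 1) (d - 1) - j) := ⟨_, rfl⟩
  rw [← hr]
  try simp only [Dd] at hr ⊢
  split_ifs <;> omega

theorem step_1_2_B {b j k d : ℕ} (hb : 3 ≤ b) (hd : d = 1 + j + k) (hj : j < b) (hk : k + 1 < b) (h2 : 2 ≤ d) (hB : d + 1 = b) :
    rankF b 1 j (d + 1) < phi b d (rankF b 1 j d + 1) := by
  rw [phi_B (by omega) (by omega) hB, rankF_one h2, rankF_one (by omega)]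
  obtain ⟨r, hr⟩ : ∃ r, r = Dd b (d - 2) + (min (b - 1) (d - 1) - j) := ⟨_, rfl⟩
  rw [← hr]
  try simp only [Dd] at hr ⊢
  split_ifs <;> omega

theorem step_1_2_C {b j k d : ℕ} (hb : 3 ≤ b) (hd : d = 1 + j + k) (hj : j < b) (hk : k + 1 < b) (h2 : 2 ≤ d) (hC : d = b) :
    rankF b 1 j (d + 1) < phi b d (rankF b 1 j d + 1) := by
  rw [phi_C (by omega) (by omega) hC, rankF_one h2, rankF_one (by omega)]
  obtain ⟨r, hr⟩ : ∃ r, r = Dd b (d - 2) + (min (b - 1) (d - 1) - j) := ⟨_, rfl⟩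
  rw [← hr]
  try simp only [Dd] at hr ⊢
  split_ifs <;> omega

theorem step_1_2_D {b j k d : ℕ} (hb : 3 ≤ b) (hd : d = 1 + j + k) (hj : j < b) (hk : k + 1 < b) (h2 : 2 ≤ d) (hD : d + 1 = 2 * b) :
    rankF b 1 j (d + 1) < phi b d (rankF b 1 j d + 1) := by
  rw [phi_D (by omega) (by omega) hD, rankF_one (by omega)]
  try simp only [Dd]
  omega

theorem step_1_2_E {b j k d : ℕ} (hb : 3 ≤ b) (hd : d = 1 + j + k) (hj : j < b) (hk : k + 1 < b) (h2 : 2 ≤ d) (hE : b < d) (hE' : d + 1 ≠ 2 * b) :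
    rankF b 1 j (d + 1) < phi b d (rankF b 1 j d + 1) := by
  rw [phi_E (by omega) (by omega) hE hE', rankF_one h2, rankF_one (by omega)]
  obtain ⟨r, hr⟩ : ∃ r, r = Dd b (d - 2) + (min (b - 1) (d - 1) - j) := ⟨_, rfl⟩
  rw [← hr]
  try simp only [Dd] at hr ⊢
  split_ifs <;> omega

theorem step_2_1_A {b j k d : ℕ} (hb : 3 ≤ b) (hd : d = 2 + j + k) (hj : j + 1 < b) (hk : k < b) (h2 : 2 ≤ d) (hA : d + 2 ≤ b) :
    rankF b 2 (j + 1) (d + 1) < phi b d (rankF b 2 j d + 1) := by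
  rw [phi_A (by omega) (by omega) hA, rankF_two, rankF_two]
  obtain ⟨r, hr⟩ : ∃ r, r = min (b - 1) (d - 2) - j := ⟨_, rfl⟩
  rw [← hr]
  try simp only [Dd] at hr ⊢
  split_ifs <;> omega

theorem step_2_1_B {b j k d : ℕ} (hb : 3 ≤ b) (hd : d = 2 + j + k) (hj : j + 1 < b) (hk : k < b) (h2 : 2 ≤ d) (hB : d + 1 = b) :
    rankF b 2 (j + 1) (d + 1) < phi b d (rankF b 2 j d + 1) := by
  rw [phi_B (by omega) (by omega) hB, rankF_two, rankF_two]
  obtain ⟨r, hr⟩ : ∃ r, r = min (b - 1) (d - 2) - j := ⟨_, rfl⟩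
  rw [← hr]
  try simp only [Dd] at hr ⊢
  split_ifs <;> omega

theorem step_2_1_C {b j k d : ℕ} (hb : 3 ≤ b) (hd : d = 2 + j + k) (hj : j + 1 < b) (hk : k < b) (h2 : 2 ≤ d) (hC : d = b) :
    rankF b 2 (j + 1) (d + 1) < phi b d (rankF b 2 j d + 1) := by
  rw [phi_C (by omega) (by omega) hC, rankF_two, rankF_two]
  obtain ⟨r, hr⟩ : ∃ r, r = min (b - 1) (d - 2) - j := ⟨_, rfl⟩
  rw [← hr]
  try simp only [Dd] at hr ⊢
  split_ifs <;> omega

theorem step_2_1_D {b j k d : ℕ} (hb : 3 ≤ b) (hd : d = 2 + j + k) (hj : j + 1 < b) (hk : k < b) (h2 : 2 ≤ d) (hD : d + 1 = 2 * b) :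
    rankF b 2 (j + 1) (d + 1) < phi b d (rankF b 2 j d + 1) := by
  rw [phi_D (by omega) (by omega) hD, rankF_two]
  try simp only [Dd]
  omega

theorem step_2_1_E {b j k d : ℕ} (hb : 3 ≤ b) (hd : d = 2 + j + k) (hj : j + 1 < b) (hk : k < b) (h2 : 2 ≤ d) (hE : b < d) (hE' : d + 1 ≠ 2 * b) :
    rankF b 2 (j + 1) (d + 1) < phi b d (rankF b 2 j d + 1) := by
  rw [phi_E (by omega) (by omega) hE hE', rankF_two, rankF_two]
  obtain ⟨r, hr⟩ : ∃ r, r = min (b - 1) (d - 2) - j := ⟨_, rfl⟩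
  rw [← hr]
  try simp only [Dd] at hr ⊢
  split_ifs <;> omega

theorem step_2_2_A {b j k d : ℕ} (hb : 3 ≤ b) (hd : d = 2 + j + k) (hj : j < b) (hk : k + 1 < b) (h2 : 2 ≤ d) (hA : d + 2 ≤ b) :
    rankF b 2 j (d + 1) < phi b d (rankF b 2 j d + 1) := by
  rw [phi_A (by omega) (by omega) hA, rankF_two, rankF_two]
  obtain ⟨r, hr⟩ : ∃ r, r = min (b - 1) (d - 2) - j := ⟨_, rfl⟩
  rw [← hr]
  try simp only [Dd] at hr ⊢
  split_ifs <;> omega

theorem step_2_2_B {b j k d : ℕ} (hb : 3 ≤ b) (hd : d = 2 + j + k) (hj : j < b) (hk : k + 1 < b) (h2 : 2 ≤ d) (hB : d + 1 = b) :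
    rankF b 2 j (d + 1) < phi b d (rankF b 2 j d + 1) := by
  rw [phi_B (by omega) (by omega) hB, rankF_two, rankF_two]
  obtain ⟨r, hr⟩ : ∃ r, r = min (b - 1) (d - 2) - j := ⟨_, rfl⟩
  rw [← hr]
  try simp only [Dd] at hr ⊢
  split_ifs <;> omega

theorem step_2_2_C {b j k d : ℕ} (hb : 3 ≤ b) (hd : d = 2 + j + k) (hj : j < b) (hk : k + 1 < b) (h2 : 2 ≤ d) (hC : d = b) :
    rankF b 2 j (d + 1) < phi b d (rankF b 2 j d + 1) := by
  rw [phi_C (by omega) (by omega) hC, rankF_two, rankF_two]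
  obtain ⟨r, hr⟩ : ∃ r, r = min (b - 1) (d - 2) - j := ⟨_, rfl⟩
  rw [← hr]
  try simp only [Dd] at hr ⊢
  split_ifs <;> omega

theorem step_2_2_D {b j k d : ℕ} (hb : 3 ≤ b) (hd : d = 2 + j + k) (hj : j < b) (hk : k + 1 < b) (h2 : 2 ≤ d) (hD : d + 1 = 2 * b) :
    rankF b 2 j (d + 1) < phi b d (rankF b 2 j d + 1) := by
  rw [phi_D (by omega) (by omega) hD, rankF_two]
  try simp only [Dd]
  omega

theorem step_2_2_E {b j k d : ℕ} (hb : 3 ≤ b) (hd : d = 2 + j + k) (hj : j < b) (hk : k + 1 < b) (h2 : 2 ≤ d) (hE : b < d) (hE' : d + 1 ≠ 2 * b) :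
    rankF b 2 j (d + 1) < phi b d (rankF b 2 j d + 1) := by
  rw [phi_E (by omega) (by omega) hE hE', rankF_two, rankF_two]
  obtain ⟨r, hr⟩ : ∃ r, r = min (b - 1) (d - 2) - j := ⟨_, rfl⟩
  rw [← hr]
  try simp only [Dd] at hr ⊢
  split_ifs <;> omega

theorem step_0_0 {b j k d : ℕ} (hb : 3 ≤ b) (hd : d = 0 + j + k) (hj : j < b) (hk : k < b) (h2 : 2 ≤ d) :
    rankF b 1 j (d + 1) < phi b d (rankF b 0 j d + 1) := by
  by_cases hA : d + 2 ≤ b
  · exact step_0_0_A hb hd hj hk h2 hA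
  by_cases hB : d + 1 = b
  · exact step_0_0_B hb hd hj hk h2 hB
  by_cases hC : d = b
  · exact step_0_0_C hb hd hj hk h2 hC
  by_cases hD : d + 1 = 2 * b
  · exact step_0_0_D hb hd hj hk h2 hD
  exact step_0_0_E hb hd hj hk h2 (by omega) hD

theorem step_0_1 {b j k d : ℕ} (hb : 3 ≤ b) (hd : d = 0 + j + k) (hj : j + 1 < b) (hk : k < b) (h2 : 2 ≤ d) :
    rankF b 0 (j + 1) (d + 1) < phi b d (rankF b 0 j d + 1) := by
  by_cases hA : d + 2 ≤ b
  · exact step_0_1_A hb hd hj hk h2 hA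
  by_cases hB : d + 1 = b
  · exact step_0_1_B hb hd hj hk h2 hB
  by_cases hC : d = b
  · exact step_0_1_C hb hd hj hk h2 hC
  by_cases hD : d + 1 = 2 * b
  · exact step_0_1_D hb hd hj hk h2 hD
  exact step_0_1_E hb hd hj hk h2 (by omega) hD

theorem step_0_2 {b j k d : ℕ} (hb : 3 ≤ b) (hd : d = 0 + j + k) (hj : j < b) (hk : k + 1 < b) (h2 : 2 ≤ d) :
    rankF b 0 j (d + 1) < phi b d (rankF b 0 j d + 1) := by
  by_cases hA : d + 2 ≤ b
  · exact step_0_2_A hb hd hj hk h2 hA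
  by_cases hB : d + 1 = b
  · exact step_0_2_B hb hd hj hk h2 hB
  by_cases hC : d = b
  · exact step_0_2_C hb hd hj hk h2 hC
  by_cases hD : d + 1 = 2 * b
  · exact step_0_2_D hb hd hj hk h2 hD
  exact step_0_2_E hb hd hj hk h2 (by omega) hD

theorem step_1_0 {b j k d : ℕ} (hb : 3 ≤ b) (hd : d = 1 + j + k) (hj : j < b) (hk : k < b) (h2 : 2 ≤ d) :
    rankF b 2 j (d + 1) < phi b d (rankF b 1 j d + 1) := by
  by_cases hA : d + 2 ≤ b
  · exact step_1_0_A hb hd hj hk h2 hA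
  by_cases hB : d + 1 = b
  · exact step_1_0_B hb hd hj hk h2 hB
  by_cases hC : d = b
  · exact step_1_0_C hb hd hj hk h2 hC
  by_cases hD : d + 1 = 2 * b
  · exact step_1_0_D hb hd hj hk h2 hD
  exact step_1_0_E hb hd hj hk h2 (by omega) hD

theorem step_1_1 {b j k d : ℕ} (hb : 3 ≤ b) (hd : d = 1 + j + k) (hj : j + 1 < b) (hk : k < b) (h2 : 2 ≤ d) :
    rankF b 1 (j + 1) (d + 1) < phi b d (rankF b 1 j d + 1) := by
  by_cases hA : d + 2 ≤ b
  · exact step_1_1_A hb hd hj hk h2 hA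
  by_cases hB : d + 1 = b
  · exact step_1_1_B hb hd hj hk h2 hB
  by_cases hC : d = b
  · exact step_1_1_C hb hd hj hk h2 hC
  by_cases hD : d + 1 = 2 * b
  · exact step_1_1_D hb hd hj hk h2 hD
  exact step_1_1_E hb hd hj hk h2 (by omega) hD

theorem step_1_2 {b j k d : ℕ} (hb : 3 ≤ b) (hd : d = 1 + j + k) (hj : j < b) (hk : k + 1 < b) (h2 : 2 ≤ d) :
    rankF b 1 j (d + 1) < phi b d (rankF b 1 j d + 1) := by
  by_cases hA : d + 2 ≤ b
  · exact step_1_2_A hb hd hj hk h2 hA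
  by_cases hB : d + 1 = b
  · exact step_1_2_B hb hd hj hk h2 hB
  by_cases hC : d = b
  · exact step_1_2_C hb hd hj hk h2 hC
  by_cases hD : d + 1 = 2 * b
  · exact step_1_2_D hb hd hj hk h2 hD
  exact step_1_2_E hb hd hj hk h2 (by omega) hD

theorem step_2_1 {b j k d : ℕ} (hb : 3 ≤ b) (hd : d = 2 + j + k) (hj : j + 1 < b) (hk : k < b) (h2 : 2 ≤ d) :
    rankF b 2 (j + 1) (d + 1) < phi b d (rankF b 2 j d + 1) := by
  by_cases hA : d + 2 ≤ b
  · exact step_2_1_A hb hd hj hk h2 hA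
  by_cases hB : d + 1 = b
  · exact step_2_1_B hb hd hj hk h2 hB
  by_cases hC : d = b
  · exact step_2_1_C hb hd hj hk h2 hC
  by_cases hD : d + 1 = 2 * b
  · exact step_2_1_D hb hd hj hk h2 hD
  exact step_2_1_E hb hd hj hk h2 (by omega) hD

theorem step_2_2 {b j k d : ℕ} (hb : 3 ≤ b) (hd : d = 2 + j + k) (hj : j < b) (hk : k + 1 < b) (h2 : 2 ≤ d) :
    rankF b 2 j (d + 1) < phi b d (rankF b 2 j d + 1) := by
  by_cases hA : d + 2 ≤ b
  · exact step_2_2_A hb hd hj hk h2 hA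
  by_cases hB : d + 1 = b
  · exact step_2_2_B hb hd hj hk h2 hB
  by_cases hC : d = b
  · exact step_2_2_C hb hd hj hk h2 hC
  by_cases hD : d + 1 = 2 * b
  · exact step_2_2_D hb hd hj hk h2 hD
  exact step_2_2_E hb hd hj hk h2 (by omega) hD

end Vale.Agent.P200G
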