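import Vale.Agent.P200G.Lex

/-!
# The Eisenbud-Green-Harris statement for regular sequences of degrees `(3, b, b)`
-/

namespace Vale.Agent.P200G

open MvPolynomial Module Vale.Agent.P200

variable {K : Type*} [Field K]

theorem phi_one_eq {b u : ℕ} (hb : 3 ≤ b) (hu : u ≠ 0) :
    phi b 1 u = if u + 1 ≤ 1 then u + 1 else if u + 1 ≤ 2 * 1 then u + 2 else u + 3 :=
  phi_A hu (by omega) (by omega)

/-- Steps from degree `0`. -/
theorem step_small_0 {b : ℕ} (hb : 3 ≤ b) :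
    rankF b 1 0 1 < phi b 0 (rankF b 0 0 0 + 1) ∧ rankF b 0 1 1 < phi b 0 (rankF b 0 0 0 + 1)
      ∧ rankF b 0 0 1 < phi b 0 (rankF b 0 0 0 + 1) := by
  have h : phi b 0 (rankF b 0 0 0 + 1) = 3 := by
    rw [phi_reg (by omega), if_pos rfl]
  rw [h]
  simp only [rankF, Dd]
  refine ⟨?_, ?_, ?_⟩ <;> simp <;> omega

/-- The closure inequality in terms of the exponents. -/
theorem rankF_step {b i j k : ℕ} (hb : 3 ≤ b) (m : Fin 3) {i' j' k' : ℕ}
    (he : (m = 0 ∧ i' = i + 1 ∧ j' = j ∧ k' = k) ∨ (m = 1 ∧ i' = i ∧ j' = j + 1 ∧ k' = k) ∨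
      (m = 2 ∧ i' = i ∧ j' = j ∧ k' = k + 1))
    (hi' : i' < 3) (hj' : j' < b) (hk' : k' < b) :
    rankF b i' j' (i + j + k + 1) < phi b (i + j + k) (rankF b i j (i + j + k) + 1) := by
  by_cases h2 : 2 ≤ i + j + k
  · rcases he with ⟨rfl, rfl, rfl, rfl⟩ | ⟨rfl, rfl, rfl, rfl⟩ | ⟨rfl, rfl, rfl, rfl⟩
    · have hi : i = 0 ∨ i = 1 := by omega
      rcases hi with rfl | rfl
      · exact step_0_0 hb rfl hj' hk' h2
      · exact step_1_0 hb rfl hj' hk' h2
    · have hi : i' = 0 ∨ i' = 1 ∨ i' = 2 := by omega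
      rcases hi with rfl | rfl | rfl
      · exact step_0_1 hb rfl hj' hk' h2
      · exact step_1_1 hb rfl hj' hk' h2
      · exact step_2_1 hb rfl hj' hk' h2
    · have hi : i' = 0 ∨ i' = 1 ∨ i' = 2 := by omega
      rcases hi with rfl | rfl | rfl
      · exact step_0_2 hb rfl hj' hk' h2
      · exact step_1_2 hb rfl hj' hk' h2
      · exact step_2_2 hb rfl hj' hk' h2
  · have hc : (i = 0 ∧ j = 0 ∧ k = 0) ∨ (i = 1 ∧ j = 0 ∧ k = 0) ∨ (i = 0 ∧ j = 1 ∧ k = 0) ∨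
        (i = 0 ∧ j = 0 ∧ k = 1) := by omega
    rcases hc with ⟨rfl, rfl, rfl⟩ | ⟨rfl, rfl, rfl⟩ | ⟨rfl, rfl, rfl⟩ | ⟨rfl, rfl, rfl⟩
    · obtain ⟨s0, s1, s2⟩ := step_small_0 hb
      rcases he with ⟨rfl, rfl, rfl, rfl⟩ | ⟨rfl, rfl, rfl, rfl⟩ | ⟨rfl, rfl, rfl, rfl⟩
      · exact s0
      · exact s1
      · exact s2
    all_goals
      rcases he with ⟨rfl, rfl, rfl, rfl⟩ | ⟨rfl, rfl, rfl, rfl⟩ | ⟨rfl, rfl, rfl, rfl⟩ <;>
      (rw [phi_one_eq hb (by omega)]; simp only [rankF, Dd]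
       first | (simp; done) | (simp; omega) | (simp; split_ifs <;> omega))

/-- The closure inequality for exponent vectors. -/
theorem lexRank_step {b : ℕ} (hb : 3 ≤ b) {e : Fin 3 →₀ ℕ} (he : ¬ InP b e) (m : Fin 3)
    (he' : ¬ InP b (e + Finsupp.single m 1)) :
    lexRank b (e + Finsupp.single m 1) < phi b (e 0 + e 1 + e 2) (lexRank b e + 1) := by
  rw [lexRank_eq he, lexRank_eq he']
  obtain ⟨h0, h1, h2⟩ := (not_InP_iff _).mp he'
  simp only [Finsupp.add_apply] at h0 h1 h2 ⊢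
  have hsum : (e 0 + (Finsupp.single m 1 : Fin 3 →₀ ℕ) 0) + (e 1 + (Finsupp.single m 1 : Fin 3 →₀ ℕ) 1)
      + (e 2 + (Finsupp.single m 1 : Fin 3 →₀ ℕ) 2) = e 0 + e 1 + e 2 + 1 := by
    fin_cases m <;> simp <;> omega
  rw [hsum]
  refine rankF_step (k := e 2) (k' := e 2 + (Finsupp.single m 1 : Fin 3 →₀ ℕ) 2) hb m ?_ h0 h1 h2
  fin_cases m <;> simp

theorem ncard_InP_add (b n : ℕ) :
    Set.ncard {e : Fin 3 →₀ ℕ | e.degree = n ∧ InP b e} + nonP b n = (n + 2).choose 2 := by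
  classical
  have hdis : Disjoint {e : Fin 3 →₀ ℕ | e.degree = n ∧ InP b e}
      {e : Fin 3 →₀ ℕ | e.degree = n ∧ ¬ InP b e} := by
    rw [Set.disjoint_left]
    rintro e ⟨-, h⟩ ⟨-, h'⟩
    exact h' h
  rw [← ncard_nonP, ← ncard_degree, ← Set.ncard_union_eq hdis
    ((finite_degree n).subset fun e he => he.1) ((finite_degree n).subset fun e he => he.1)]
  congr 1
  ext e
  simp only [Set.mem_union, Set.mem_setOf_eq]
  tauto

namespace IsReg3

variable {d : Fin 3 → ℕ} {p : Fin 3 → Pol K} {b : ℕ}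

theorem ncard_InP_eq (hp : IsReg3 d p) (h0 : d 0 = 3) (h1 : d 1 = b) (h2 : d 2 = b) (hb : 3 ≤ b)
    (n : ℕ) : Set.ncard {e : Fin 3 →₀ ℕ | e.degree = n ∧ InP b e} = finrank K (Id (Fid p) n) := by
  have h3 := ncard_InP_add b n
  have h4 := hp.finrank_F_add h0 h1 h2 hb n
  rw [finrank_Sd] at h4
  omega

theorem qDim_eq (hp : IsReg3 d p) (h0 : d 0 = 3) (h1 : d 1 = b) (h2 : d 2 = b) (hb : 3 ≤ b)
    (I : Ideal (Pol K)) (n : ℕ) :
    qDim b I n = finrank K (Id I n) - finrank K (Id (Fid p) n) := by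
  unfold qDim
  rw [hp.ncard_InP_eq h0 h1 h2 hb]
  rfl

theorem qDim_le (hp : IsReg3 d p) (h0 : d 0 = 3) (h1 : d 1 = b) (h2 : d 2 = b) (hb : 3 ≤ b)
    (I : Ideal (Pol K)) (n : ℕ) : qDim b I n ≤ nonP b n := by
  rw [hp.qDim_eq h0 h1 h2 hb]
  have h3 := hp.finrank_F_add h0 h1 h2 hb n
  have h4 := finrank_le_of_le (Id_le I n)
  omega

/-- The rank condition propagates along multiplication by a variable. -/
theorem closure_monomial (hp : IsReg3 d p) (h0 : d 0 = 3) (h1 : d 1 = b) (h2 : d 2 = b)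
    (hb : 3 ≤ b) {I : Ideal (Pol K)} (hI : Fid p ≤ I) {e : Fin 3 →₀ ℕ} {n : ℕ}
    (hde : e.degree = n) (m : Fin 3) (he : InP b e ∨ lexRank b e < qDim b I n) :
    InP b (e + Finsupp.single m 1) ∨ lexRank b (e + Finsupp.single m 1) < qDim b I (n + 1) := by
  by_cases hP : InP b (e + Finsupp.single m 1)
  · exact Or.inl hP
  right
  obtain ⟨a0, a1, a2⟩ := (not_InP_iff _).mp hP
  simp only [Finsupp.add_apply] at a0 a1 a2
  have hnP : ¬ InP b e := by
    rw [not_InP_iff]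
    omega
  have hrk : lexRank b e < qDim b I n := he.resolve_left hnP
  have hn : n = e 0 + e 1 + e 2 := by rw [← hde, degree_eq]
  have hstep := lexRank_step hb hnP m hP
  rw [← hn] at hstep
  have hn1 : n + 1 ≤ 2 * b := by
    have hb1 : e 0 + (Finsupp.single m 1 : Fin 3 →₀ ℕ) 0 + (e 1 + (Finsupp.single m 1 : Fin 3 →₀ ℕ) 1)
        + (e 2 + (Finsupp.single m 1 : Fin 3 →₀ ℕ) 2) = e 0 + e 1 + e 2 + 1 := by
      fin_cases m <;> simp <;> omega
    omega
  have hg := hp.growth h0 h1 h2 hb hI hn1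
  rw [← hp.qDim_eq h0 h1 h2 hb, ← hp.qDim_eq h0 h1 h2 hb] at hg
  exact lt_of_lt_of_le hstep ((phi_mono b n hrk).trans hg)

/-- The spaces `J_d` are closed under multiplication by the variables. -/
theorem closure_X (hp : IsReg3 d p) (h0 : d 0 = 3) (h1 : d 1 = b) (h2 : d 2 = b)
    (hb : 3 ≤ b) {I : Ideal (Pol K)} (hI : Fid p ≤ I) {n : ℕ} (i : Fin 3)
    {g : Pol K} (hg : g ∈ lexPlusPowers b I n) : X i * g ∈ lexPlusPowers b I (n + 1) := by
  unfold lexPlusPowers at hg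
  induction hg using Submodule.span_induction with
  | mem x hx =>
    obtain ⟨e, hde, he, rfl⟩ := hx
    refine Submodule.subset_span
      ⟨e + Finsupp.single i 1, ?_, hp.closure_monomial h0 h1 h2 hb hI hde i he, ?_⟩
    · rw [map_add, hde]
      simp
    · rw [X, monomial_mul, one_mul, add_comm]
  | zero => simp
  | add x y _ _ hx hy =>
    rw [mul_add]
    exact Submodule.add_mem _ hx hy
  | smul a x _ hx =>
    rw [mul_smul_comm]
    exact Submodule.smul_mem _ _ hx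

/-- The sum of the `J_d` is stable under multiplication by all polynomials. -/
theorem closure_all (hp : IsReg3 d p) (h0 : d 0 = 3) (h1 : d 1 = b) (h2 : d 2 = b)
    (hb : 3 ≤ b) {I : Ideal (Pol K)} (hI : Fid p ≤ I) (r : Pol K)
    {g : Pol K} (hg : g ∈ ⨆ n, lexPlusPowers b I n) : r * g ∈ ⨆ n, lexPlusPowers b I n := by
  have hX : ∀ (i : Fin 3) {g : Pol K}, g ∈ ⨆ n, lexPlusPowers b I n →
      X i * g ∈ ⨆ n, lexPlusPowers b I n := by
    intro i g hg
    induction hg using Submodule.iSup_induction' with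
    | mem n x hx => exact Submodule.mem_iSup_of_mem (n + 1) (hp.closure_X h0 h1 h2 hb hI i hx)
    | zero => simp
    | add x y _ _ hx hy =>
      rw [mul_add]
      exact Submodule.add_mem _ hx hy
  induction r using MvPolynomial.induction_on generalizing g with
  | C a =>
    rw [← smul_eq_C_mul]
    exact Submodule.smul_mem _ _ hg
  | add r s hr hs =>
    rw [add_mul]
    exact Submodule.add_mem _ (hr hg) (hs hg)
  | mul_X r i hr =>
    rw [mul_assoc]
    exact hr (hX i hg)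

end IsReg3

end Vale.Agent.P200G
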