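import Vale.Agent.P200G.Zd

/-!
# Regular sequences of three forms of arbitrary degrees: the Koszul complex
-/

namespace Vale.Agent.P200G

open MvPolynomial Module Vale.Agent.P200

variable {K : Type*} [Field K] {d : Fin 3 → ℕ} {p : Fin 3 → Pol K}

/-- The ideal generated by the three forms. -/
noncomputable def Fid (p : Fin 3 → Pol K) : Ideal (Pol K) := Ideal.span (Set.range p)

theorem p_mem_Fid (i : Fin 3) : p i ∈ Fid p := Ideal.subset_span ⟨i, rfl⟩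

theorem comb_mem_Fid (c : Fin 3 → Pol K) : ∑ i, c i * p i ∈ Fid p :=
  Ideal.sum_mem _ fun i _ => Ideal.mul_mem_left _ _ (p_mem_Fid i)

theorem HomZ.mul_eq {a b : Pol K} {m n r : ℤ} (ha : HomZ a m) (hb : HomZ b n) (h : m + n = r) :
    HomZ (a * b) r := h ▸ ha.mul hb

/-- A combination of forms of positive degree is not a unit. -/
theorem one_not_mem_pair {a b : Pol K} {α β : ℕ} (ha : a.IsHomogeneous α) (hb : b.IsHomogeneous β)
    (hα : 0 < α) (hβ : 0 < β) : (1 : Pol K) ∉ Ideal.span {a, b} := by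
  intro h
  obtain ⟨u, v, huv⟩ := Ideal.mem_span_pair.mp h
  have h1 := congrArg (homogeneousComponent 0) huv
  rw [map_add, hc_mul_lt ha _ hα, hc_mul_lt hb _ hβ, add_zero] at h1
  have h2 : homogeneousComponent 0 (1 : Pol K) = 1 :=
    homogeneousComponent_eq_self (isHomogeneous_one _ _)
  rw [h2] at h1
  exact zero_ne_one h1

namespace IsReg3

variable (hp : IsReg3 d p)
include hp

theorem homZ (i : Fin 3) : HomZ (p i) (d i) := homZ_nat.mpr (hp.hom i)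

theorem p0_ne : p 0 ≠ 0 := by
  intro h
  have := hp.reg₀ 1 (by rw [h, mul_zero])
  exact one_ne_zero this

theorem p1_ne : p 1 ≠ 0 := by
  intro h
  have h1 := hp.reg₁ 1 (by rw [h, mul_zero]; exact Ideal.zero_mem _)
  apply one_not_mem_pair (hp.hom 0) (hp.hom 0) (hp.pos 0) (hp.pos 0)
  have : ({p 0, p 0} : Set (Pol K)) = {p 0} := by simp
  rwa [this]

theorem p2_ne : p 2 ≠ 0 := by
  intro h
  have h1 := hp.reg₂ 1 (by rw [h, mul_zero]; exact Ideal.zero_mem _)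
  exact one_not_mem_pair (hp.hom 0) (hp.hom 1) (hp.pos 0) (hp.pos 1) h1

theorem p_ne (i : Fin 3) : p i ≠ 0 := by
  fin_cases i
  · exact hp.p0_ne
  · exact hp.p1_ne
  · exact hp.p2_ne

/-- Exactness on the left with homogeneous coefficients. -/
theorem H1 {n : ℤ} {c : Fin 3 → Pol K} (hc : ∀ i, HomZ (c i) (n - d i))
    (h : ∑ i, c i * p i = 0) :
    ∃ w : Fin 3 → Pol K, (∀ i, HomZ (w i) (n - (d 0 + d 1 + d 2) + d i)) ∧
      c 0 = p 1 * w 2 - p 2 * w 1 ∧ c 1 = p 2 * w 0 - p 0 * w 2 ∧ c 2 = p 0 * w 1 - p 1 * w 0 := by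
  rw [Fin.sum_univ_three] at h
  obtain ⟨w₀, w₁, w₂, h0, h1, h2⟩ := koszul1 hp.reg₀ hp.reg₁ hp.reg₂ h
  have key : ∀ (u a b : Pol K) (i j : Fin 3) (m : ℤ), HomZ u m → u = p i * a - p j * b →
      u = p i * hcZ (m - d i) a - p j * hcZ (m - d j) b := by
    intro u a b i j m hu he
    have h1 : hcZ m u = u := hu.hcZ_eq
    have h2 : hcZ m (a * p i) = hcZ (m - d i) a * p i := by
      have := hcZ_mul (hp.hom i) a (m - d i)
      rwa [sub_add_cancel] at this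
    have h3 : hcZ m (b * p j) = hcZ (m - d j) b * p j := by
      have := hcZ_mul (hp.hom j) b (m - d j)
      rwa [sub_add_cancel] at this
    rw [← h1, he, mul_comm (p i), mul_comm (p j), hcZ_sub, h2, h3]
    ring
  have e0 := key _ _ _ _ _ _ (hc 0) h0
  have e1 := key _ _ _ _ _ _ (hc 1) h1
  have e2 := key _ _ _ _ _ _ (hc 2) h2
  have a0 : ((n : ℤ) - d 0 - d 1) = n - (d 0 + d 1 + d 2) + d 2 := by ring
  have a1 : ((n : ℤ) - d 0 - d 2) = n - (d 0 + d 1 + d 2) + d 1 := by ring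
  have a2 : ((n : ℤ) - d 1 - d 2) = n - (d 0 + d 1 + d 2) + d 0 := by ring
  have a3 : ((n : ℤ) - d 1 - d 0) = n - (d 0 + d 1 + d 2) + d 2 := by ring
  have a4 : ((n : ℤ) - d 2 - d 0) = n - (d 0 + d 1 + d 2) + d 1 := by ring
  have a5 : ((n : ℤ) - d 2 - d 1) = n - (d 0 + d 1 + d 2) + d 0 := by ring
  rw [a0, a1] at e0
  rw [a2, a3] at e1
  rw [a4, a5] at e2
  refine ⟨![hcZ (n - (d 0 + d 1 + d 2) + d 0) w₀, hcZ (n - (d 0 + d 1 + d 2) + d 1) w₁,
    hcZ (n - (d 0 + d 1 + d 2) + d 2) w₂], ?_, e0, e1, e2⟩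
  intro i
  fin_cases i
  · exact hcZ_homZ _ _
  · exact hcZ_homZ _ _
  · exact hcZ_homZ _ _

/-- Exactness in the middle. -/
theorem H2 {n : ℤ} {w : Fin 3 → Pol K} (hw : ∀ i, HomZ (w i) (n + d i))
    (e₂ : p 0 * w 1 = p 1 * w 0) (e₁ : p 2 * w 0 = p 0 * w 2) :
    ∃ g, HomZ g n ∧ w 0 = g * p 0 ∧ w 1 = g * p 1 ∧ w 2 = g * p 2 := by
  obtain ⟨g, h0, h1, h2⟩ := koszul2 hp.reg₀ hp.reg₁ e₂ e₁
  refine ⟨g, ?_, h0, h1, h2⟩
  refine HomZ.of_mul (hp.hom 0) hp.p0_ne ?_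
  rw [← h0]
  exact hw 0

/-- Homogeneous elements of the ideal are combinations with homogeneous coefficients. -/
theorem Fid_comb {n : ℤ} {q : Pol K} (hq : HomZ q n) (hm : q ∈ Fid p) :
    ∃ c : Fin 3 → Pol K, (∀ i, HomZ (c i) (n - d i)) ∧ q = ∑ i, c i * p i := by
  obtain ⟨c, hc⟩ := (Ideal.mem_span_range_iff_exists_fun).mp hm
  refine ⟨fun i => hcZ (n - d i) (c i), fun i => hcZ_homZ _ _, ?_⟩
  have h1 := hq.hcZ_eq
  rw [← h1, ← hc, Fin.sum_univ_three, hcZ_add, hcZ_add, Fin.sum_univ_three]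
  have key : ∀ i, hcZ n (c i * p i) = hcZ (n - d i) (c i) * p i := by
    intro i
    have := hcZ_mul (hp.hom i) (c i) (n - d i)
    rwa [sub_add_cancel] at this
  rw [key, key, key]

/-- The ideal is homogeneous. -/
theorem Fid_hc {q : Pol K} (hm : q ∈ Fid p) (n : ℕ) : homogeneousComponent n q ∈ Fid p := by
  obtain ⟨c, hc⟩ := (Ideal.mem_span_range_iff_exists_fun).mp hm
  rw [← hc, map_sum]
  refine Ideal.sum_mem _ fun i _ => ?_
  by_cases hn : n < d i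
  · rw [hc_mul_lt (hp.hom i) _ hn]
    exact Ideal.zero_mem _
  · obtain ⟨m, rfl⟩ : ∃ m, n = m + d i := ⟨n - d i, by omega⟩
    rw [hc_mul (hp.hom i)]
    exact Ideal.mul_mem_left _ _ (p_mem_Fid i)

/-- The socle of `S/(p)` vanishes below the top degree. -/
theorem socle {k : ℕ} (hk : k + 3 < d 0 + d 1 + d 2) {a : Pol K} (ha : a.IsHomogeneous k)
    (h : ∀ j, X j * a ∈ Fid p) : a ∈ Fid p := by
  have hXa : ∀ j, HomZ (X j * a : Pol K) ((k : ℤ) + 1) := by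
    intro j
    have h1 : (X j * a : Pol K).IsHomogeneous (1 + k) := (isHomogeneous_X K j).mul ha
    have h2 := homZ_nat.mpr h1
    push_cast at h2
    rwa [add_comm] at h2
  have hC : ∀ j, ∃ c : Fin 3 → Pol K, (∀ i, HomZ (c i) ((k : ℤ) + 1 - d i)) ∧
      X j * a = ∑ i, c i * p i := fun j => hp.Fid_comb (hXa j) (h j)
  choose C hC1 hC2 using hC
  simp only [Fin.sum_univ_three] at hC2
  have hXz : ∀ j : Fin 3, HomZ (X j : Pol K) 1 := fun j => by
    have := homZ_nat.mpr (isHomogeneous_X K j)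
    simpa using this
  have hhom : ∀ (j l : Fin 3) (i : Fin 3),
      HomZ (X j * C l i - X l * C j i : Pol K) ((k : ℤ) + 2 - d i) := by
    intro j l i
    refine HomZ.sub ((hXz j).mul_eq (hC1 l i) (by ring)) ((hXz l).mul_eq (hC1 j i) (by ring))
  have hrel : ∀ j l : Fin 3, ∑ i, (X j * C l i - X l * C j i) * p i = 0 := by
    intro j l
    rw [Fin.sum_univ_three]
    linear_combination (-(X j : Pol K)) * hC2 l + (X l : Pol K) * hC2 j
  obtain ⟨D0, hD0h, hD00, hD01, hD02⟩ := hp.H1 (fun i => hhom 1 2 i) (hrel 1 2)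
  obtain ⟨D1, hD1h, hD10, hD11, hD12⟩ := hp.H1 (fun i => hhom 2 0 i) (hrel 2 0)
  obtain ⟨D2, hD2h, hD20, hD21, hD22⟩ := hp.H1 (fun i => hhom 0 1 i) (hrel 0 1)
  -- the contraction
  let G : Fin 3 → Pol K := fun i => X 0 * D0 i + X 1 * D1 i + X 2 * D2 i
  have hG : ∀ i, HomZ (G i) (((k : ℤ) + 2 - (d 0 + d 1 + d 2) + 1) + d i) := by
    intro i
    refine HomZ.add (HomZ.add ((hXz 0).mul_eq (hD0h i) (by ring))
      ((hXz 1).mul_eq (hD1h i) (by ring))) ((hXz 2).mul_eq (hD2h i) (by ring))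
  obtain ⟨g, hg, hg0, hg1, hg2⟩ := hp.H2 hG
    (by
      simp only [G]
      linear_combination (-(X 0 : Pol K)) * hD02 - (X 1 : Pol K) * hD12 - (X 2 : Pol K) * hD22)
    (by
      simp only [G]
      linear_combination (-(X 0 : Pol K)) * hD01 - (X 1 : Pol K) * hD11 - (X 2 : Pol K) * hD21)
  have hg00 : g = 0 := hg.eq_zero (by omega)
  have hG00 : D0 0 * X 0 + D1 0 * X 1 + D2 0 * X 2 = 0 := by
    have := hg0
    rw [hg00, zero_mul] at this
    simp only [G] at this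
    linear_combination this
  have hG01 : D0 1 * X 0 + D1 1 * X 1 + D2 1 * X 2 = 0 := by
    have := hg1
    rw [hg00, zero_mul] at this
    simp only [G] at this
    linear_combination this
  have hG02 : D0 2 * X 0 + D1 2 * X 1 + D2 2 * X 2 = 0 := by
    have := hg2
    rw [hg00, zero_mul] at this
    simp only [G] at this
    linear_combination this
  obtain ⟨u00, u01, u02, hu00, hu01, hu02⟩ := koszul1 regX₀ regX₁ regX₂ hG00
  obtain ⟨u10, u11, u12, hu10, hu11, hu12⟩ := koszul1 regX₀ regX₁ regX₂ hG01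
  obtain ⟨u20, u21, u22, hu20, hu21, hu22⟩ := koszul1 regX₀ regX₁ regX₂ hG02
  -- the corrected coefficients
  obtain ⟨b0, hb00, -, -⟩ := koszul2 (r₀ := (X 0 : Pol K)) (r₁ := X 1) (r₂ := X 2)
    (w₀ := C 0 0 - (p 1 * u20 - p 2 * u10)) (w₁ := C 1 0 - (p 1 * u21 - p 2 * u11))
    (w₂ := C 2 0 - (p 1 * u22 - p 2 * u12)) regX₀ regX₁
    (by linear_combination hD20 + p 1 * hu22 - p 2 * hu12)
    (by linear_combination hD10 + p 1 * hu21 - p 2 * hu11)
  obtain ⟨b1, hb10, -, -⟩ := koszul2 (r₀ := (X 0 : Pol K)) (r₁ := X 1) (r₂ := X 2)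
    (w₀ := C 0 1 - (p 2 * u00 - p 0 * u20)) (w₁ := C 1 1 - (p 2 * u01 - p 0 * u21))
    (w₂ := C 2 1 - (p 2 * u02 - p 0 * u22)) regX₀ regX₁
    (by linear_combination hD21 + p 2 * hu02 - p 0 * hu22)
    (by linear_combination hD11 + p 2 * hu01 - p 0 * hu21)
  obtain ⟨b2, hb20, -, -⟩ := koszul2 (r₀ := (X 0 : Pol K)) (r₁ := X 1) (r₂ := X 2)
    (w₀ := C 0 2 - (p 0 * u10 - p 1 * u00)) (w₁ := C 1 2 - (p 0 * u11 - p 1 * u01))
    (w₂ := C 2 2 - (p 0 * u12 - p 1 * u02)) regX₀ regX₁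
    (by linear_combination hD22 + p 0 * hu12 - p 1 * hu02)
    (by linear_combination hD12 + p 0 * hu11 - p 1 * hu01)
  have hfinal : a = b0 * p 0 + b1 * p 1 + b2 * p 2 := by
    have h0 : (a - (b0 * p 0 + b1 * p 1 + b2 * p 2)) * X 0 = 0 := by
      linear_combination hC2 0 + p 0 * hb00 + p 1 * hb10 + p 2 * hb20
    exact sub_eq_zero.mp (regX₀ _ h0)
  rw [hfinal]
  exact Ideal.add_mem _ (Ideal.add_mem _ (Ideal.mul_mem_left _ _ (p_mem_Fid 0))
    (Ideal.mul_mem_left _ _ (p_mem_Fid 1))) (Ideal.mul_mem_left _ _ (p_mem_Fid 2))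

end IsReg3

end Vale.Agent.P200G
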