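import Vale.Agent.P200G.Reg3

/-!
# The Hilbert function of a complete intersection, and its Gorenstein pairing
-/

namespace Vale.Agent.P200G

open MvPolynomial Module Vale.Agent.P200

variable {K : Type*} [Field K] {d : Fin 3 → ℕ} {p : Fin 3 → Pol K}

/-- Combination with homogeneous coefficients. -/
noncomputable def mu (p : Fin 3 → Pol K) (d : Fin 3 → ℕ) (n : ℤ) :
    (∀ i, Sz K (n - d i)) →ₗ[K] Pol K where
  toFun c := ∑ i, (c i : Pol K) * p i
  map_add' c e := by
    simp [add_mul, Finset.sum_add_distrib]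
  map_smul' r c := by
    simp [Finset.smul_sum, smul_mul_assoc]

theorem mu_apply (n : ℤ) (c : ∀ i, Sz K (n - d i)) : mu p d n c = ∑ i, (c i : Pol K) * p i := rfl

namespace IsReg3

variable (hp : IsReg3 d p)
include hp

theorem range_mu (n : ℕ) : LinearMap.range (mu p d n) = Id (Fid p) n := by
  ext q
  constructor
  · rintro ⟨c, rfl⟩
    rw [mem_Id, mu_apply]
    refine ⟨comb_mem_Fid (fun i => (c i : Pol K)), ?_⟩
    apply homZ_nat.mp
    have hc : ∀ i, HomZ (((c i : Pol K))) ((n : ℤ) - d i) := fun i => (c i).2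
    rw [Fin.sum_univ_three]
    exact HomZ.add (HomZ.add ((hc 0).mul_eq (hp.homZ 0) (by ring))
      ((hc 1).mul_eq (hp.homZ 1) (by ring))) ((hc 2).mul_eq (hp.homZ 2) (by ring))
  · intro hq
    rw [mem_Id] at hq
    obtain ⟨c, hc, rfl⟩ := hp.Fid_comb (homZ_nat.mpr hq.2) hq.1
    exact ⟨fun i => ⟨c i, hc i⟩, rfl⟩

/-- The Koszul map on the middle term. -/
noncomputable def cross (hp : IsReg3 d p) (n : ℤ) :
    (∀ i, Sz K (n - (d 0 + d 1 + d 2) + d i)) →ₗ[K] (∀ i, Sz K (n - d i)) where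
  toFun w := by
    refine fun i => ⟨(![p 1 * w 2 - p 2 * w 1, p 2 * w 0 - p 0 * w 2, p 0 * w 1 - p 1 * w 0] :
      Fin 3 → Pol K) i, ?_⟩
    fin_cases i
    · exact HomZ.sub ((hp.homZ 1).mul_eq (w 2).2 (by simp; ring))
        ((hp.homZ 2).mul_eq (w 1).2 (by simp; ring))
    · exact HomZ.sub ((hp.homZ 2).mul_eq (w 0).2 (by simp; ring))
        ((hp.homZ 0).mul_eq (w 2).2 (by simp; ring))
    · exact HomZ.sub ((hp.homZ 0).mul_eq (w 1).2 (by simp; ring))
        ((hp.homZ 1).mul_eq (w 0).2 (by simp; ring))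
  map_add' v w := by
    funext i
    apply Subtype.ext
    fin_cases i <;> simp <;> ring
  map_smul' r v := by
    funext i
    apply Subtype.ext
    fin_cases i <;> simp [mul_sub, mul_smul_comm, smul_sub]

theorem cross_apply0 (n : ℤ) (w : ∀ i, Sz K (n - (d 0 + d 1 + d 2) + d i)) :
    (hp.cross n w 0 : Pol K) = p 1 * w 2 - p 2 * w 1 := rfl

theorem cross_apply1 (n : ℤ) (w : ∀ i, Sz K (n - (d 0 + d 1 + d 2) + d i)) :
    (hp.cross n w 1 : Pol K) = p 2 * w 0 - p 0 * w 2 := rfl

theorem cross_apply2 (n : ℤ) (w : ∀ i, Sz K (n - (d 0 + d 1 + d 2) + d i)) :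
    (hp.cross n w 2 : Pol K) = p 0 * w 1 - p 1 * w 0 := rfl

theorem ker_mu (n : ℤ) : LinearMap.ker (mu p d n) = LinearMap.range (hp.cross n) := by
  apply le_antisymm
  · intro c hc
    rw [LinearMap.mem_ker, mu_apply] at hc
    obtain ⟨w, hwh, h0, h1, h2⟩ := hp.H1 (fun i => (c i).2) hc
    refine ⟨fun i => ⟨w i, hwh i⟩, ?_⟩
    funext i
    apply Subtype.ext
    fin_cases i
    · exact h0.symm
    · exact h1.symm
    · exact h2.symm
  · rintro _ ⟨w, rfl⟩
    rw [LinearMap.mem_ker, mu_apply, Fin.sum_univ_three, cross_apply0, cross_apply1, cross_apply2]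
    ring

/-- Multiplication of a form by the three generators. -/
noncomputable def mult (hp : IsReg3 d p) (n : ℤ) :
    Sz K (n - (d 0 + d 1 + d 2)) →ₗ[K] (∀ i, Sz K (n - (d 0 + d 1 + d 2) + d i)) where
  toFun g := fun i => ⟨(g : Pol K) * p i, HomZ.mul_eq g.2 (hp.homZ i) rfl⟩
  map_add' v w := by
    funext i
    apply Subtype.ext
    simp [add_mul]
  map_smul' r v := by
    funext i
    apply Subtype.ext
    simp [smul_mul_assoc]

theorem mult_injective (n : ℤ) : Function.Injective (hp.mult n) := by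
  rw [injective_iff_map_eq_zero]
  intro g hg
  have h0 := congrArg Subtype.val (congrFun hg 0)
  have h1 : (g : Pol K) * p 0 = 0 := h0
  exact Subtype.ext ((mul_eq_zero.mp h1).resolve_right hp.p0_ne)

theorem ker_cross (n : ℤ) : LinearMap.ker (hp.cross n) = LinearMap.range (hp.mult n) := by
  apply le_antisymm
  · intro w hw
    rw [LinearMap.mem_ker] at hw
    have h0 := congrArg Subtype.val (congrFun hw 0)
    have h1 := congrArg Subtype.val (congrFun hw 1)
    have h2 := congrArg Subtype.val (congrFun hw 2)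
    rw [cross_apply0] at h0
    rw [cross_apply1] at h1
    rw [cross_apply2] at h2
    have h1' : p 2 * (w 0 : Pol K) - p 0 * w 2 = 0 := h1
    have h2' : p 0 * (w 1 : Pol K) - p 1 * w 0 = 0 := h2
    obtain ⟨g, hg, e0, e1, e2⟩ := hp.H2 (w := fun i => (w i : Pol K)) (fun i => (w i).2)
      (sub_eq_zero.mp h2') (sub_eq_zero.mp h1')
    refine ⟨⟨g, hg⟩, ?_⟩
    funext i
    apply Subtype.ext
    fin_cases i
    · exact e0.symm
    · exact e1.symm
    · exact e2.symm
  · rintro _ ⟨g, rfl⟩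
    rw [LinearMap.mem_ker]
    funext i
    apply Subtype.ext
    fin_cases i
    · change p 1 * ((g : Pol K) * p 2) - p 2 * ((g : Pol K) * p 1) = 0
      ring
    · change p 2 * ((g : Pol K) * p 0) - p 0 * ((g : Pol K) * p 2) = 0
      ring
    · change p 0 * ((g : Pol K) * p 1) - p 1 * ((g : Pol K) * p 0) = 0
      ring

/-- The Koszul count. -/
theorem finrank_Id (n : ℕ) :
    finrank K (Id (Fid p) n) + (cc ((n : ℤ) - (d 0 + d 1 + d 2) + d 0)
        + cc ((n : ℤ) - (d 0 + d 1 + d 2) + d 1) + cc ((n : ℤ) - (d 0 + d 1 + d 2) + d 2))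
      = cc ((n : ℤ) - d 0) + cc ((n : ℤ) - d 1) + cc ((n : ℤ) - d 2)
        + cc ((n : ℤ) - (d 0 + d 1 + d 2)) := by
  have h1 := LinearMap.finrank_range_add_finrank_ker (mu p d (n : ℤ))
  have h2 := LinearMap.finrank_range_add_finrank_ker (hp.cross (n : ℤ))
  have h3 := LinearMap.finrank_range_of_inj (hp.mult_injective (n : ℤ))
  rw [hp.range_mu, hp.ker_mu] at h1
  rw [hp.ker_cross, h3] at h2
  rw [Module.finrank_pi_fintype, Fin.sum_univ_three] at h1 h2
  simp only [finrank_Sz] at h1 h2 h3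
  omega


/-- Above the socle degree the ideal is everything. -/
theorem finrank_top {s n : ℕ} (hs : s + 3 = d 0 + d 1 + d 2) (hn : s + 1 ≤ n) :
    finrank K (Id (Fid p) n) = finrank K (Sd K n) := by
  have h := hp.finrank_Id n
  rw [finrank_Sd]
  have hd0 := hp.pos 0
  have hd1 := hp.pos 1
  have hd2 := hp.pos 2
  have e0 := two_mul_cc (m := (n : ℤ) - (d 0 + d 1 + d 2) + d 0) (by omega)
  have e1 := two_mul_cc (m := (n : ℤ) - (d 0 + d 1 + d 2) + d 1) (by omega)
  have e2 := two_mul_cc (m := (n : ℤ) - (d 0 + d 1 + d 2) + d 2) (by omega)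
  have e3 := two_mul_cc (m := (n : ℤ) - d 0) (by omega)
  have e4 := two_mul_cc (m := (n : ℤ) - d 1) (by omega)
  have e5 := two_mul_cc (m := (n : ℤ) - d 2) (by omega)
  have e6 := two_mul_cc (m := (n : ℤ) - (d 0 + d 1 + d 2)) (by omega)
  have e7 := two_mul_cc (m := (n : ℤ)) (by omega)
  have h7 : cc (n : ℤ) = (n + 2).choose 2 := by
    unfold cc
    congr 1
  rw [← h7]
  zify at h ⊢
  have : 2 * ((finrank K (Id (Fid p) n) : ℤ)) = 2 * (cc (n : ℤ) : ℤ) := by
    linear_combination 2 * h - e0 - e1 - e2 + e3 + e4 + e5 + e6 - e7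
  omega

/-- The socle degree has codimension one. -/
theorem finrank_socle {s : ℕ} (hs : s + 3 = d 0 + d 1 + d 2) :
    finrank K (Id (Fid p) s) + 1 = finrank K (Sd K s) := by
  have h := hp.finrank_Id s
  rw [finrank_Sd]
  have hd0 := hp.pos 0
  have hd1 := hp.pos 1
  have hd2 := hp.pos 2
  have e0 := two_mul_cc (m := (s : ℤ) - (d 0 + d 1 + d 2) + d 0) (by omega)
  have e1 := two_mul_cc (m := (s : ℤ) - (d 0 + d 1 + d 2) + d 1) (by omega)
  have e2 := two_mul_cc (m := (s : ℤ) - (d 0 + d 1 + d 2) + d 2) (by omega)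
  have e3 := two_mul_cc (m := (s : ℤ) - d 0) (by omega)
  have e4 := two_mul_cc (m := (s : ℤ) - d 1) (by omega)
  have e5 := two_mul_cc (m := (s : ℤ) - d 2) (by omega)
  have e6 : cc ((s : ℤ) - (d 0 + d 1 + d 2)) = 0 := cc_neg (by omega)
  have e7 := two_mul_cc (m := (s : ℤ)) (by omega)
  have h7 : cc (s : ℤ) = (s + 2).choose 2 := by
    unfold cc
    congr 1
  rw [← h7]
  rw [e6] at h
  have hD : (d 0 + d 1 + d 2 : ℤ) = s + 3 := by exact_mod_cast hs.symm
  rw [hD] at e0 e1 e2
  rw [hD] at h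
  zify at h ⊢
  have : 2 * ((finrank K (Id (Fid p) s) : ℤ) + 1) = 2 * (cc (s : ℤ) : ℤ) := by
    have hd2' : (d 2 : ℤ) = s + 3 - d 0 - d 1 := by omega
    simp only [hd2'] at e0 e1 e2 e3 e4 e5 h
    linear_combination 2 * h - e0 - e1 - e2 + e3 + e4 + e5 - e7
  omega

theorem Sd_le_Id {s n : ℕ} (hs : s + 3 = d 0 + d 1 + d 2) (hn : s + 1 ≤ n) :
    Sd K n ≤ Id (Fid p) n :=
  (Submodule.eq_of_le_of_finrank_le (Id_le _ n) (hp.finrank_top hs hn).ge).ge

theorem top_mem {s n : ℕ} (hs : s + 3 = d 0 + d 1 + d 2) (hn : s + 1 ≤ n) {q : Pol K}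
    (hq : q.IsHomogeneous n) : q ∈ Fid p :=
  (mem_Id.mp (hp.Sd_le_Id hs hn hq)).1

/-- There is a functional whose kernel on the socle degree is exactly the ideal. -/
theorem exists_tau {s : ℕ} (hs : s + 3 = d 0 + d 1 + d 2) :
    ∃ τ : Pol K →ₗ[K] K, ∀ q ∈ Sd K s, (τ q = 0 ↔ q ∈ Fid p) := by
  have hdim := hp.finrank_socle (K := K) hs
  obtain ⟨p₀, hp₀, hp₀F⟩ := exists_not_mem (U := Id (Fid p) s) (V := Sd K s) (by omega)
  obtain ⟨τ, hτ, hτ'⟩ := Submodule.exists_dual_map_eq_bot_of_notMem hp₀F inferInstance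
  have hker : ∀ v ∈ Id (Fid p) s, τ v = 0 := by
    intro v hv
    have : τ v ∈ (Id (Fid p) s).map τ := Submodule.mem_map_of_mem hv
    rw [hτ'] at this
    simpa using this
  have hsup : Sd K s ≤ Id (Fid p) s ⊔ Submodule.span K {p₀} := by
    refine Submodule.eq_of_le_of_finrank_le (sup_le (Id_le _ s)
      ((Submodule.span_singleton_le_iff_mem _ _).mpr hp₀)) ?_ |>.ge
    have h3 : Id (Fid p) s < Id (Fid p) s ⊔ Submodule.span K {p₀} := by
      refine lt_of_le_of_ne le_sup_left ?_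
      intro h
      apply hp₀F
      rw [h]
      exact Submodule.mem_sup_right (Submodule.mem_span_singleton_self _)
    haveI : FiniteDimensional K ↥(Id (Fid p) s ⊔ Submodule.span K {p₀}) :=
      Submodule.finiteDimensional_of_le (sup_le (Id_le _ s)
        ((Submodule.span_singleton_le_iff_mem _ _).mpr hp₀))
    have h4 := Submodule.finrank_lt_finrank_of_lt h3
    omega
  refine ⟨τ, fun q hq => ⟨fun h0 => ?_, fun h0 => ?_⟩⟩
  · obtain ⟨v, hv, w, hw, rfl⟩ := Submodule.mem_sup.mp (hsup hq)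
    obtain ⟨r, rfl⟩ := Submodule.mem_span_singleton.mp hw
    rw [map_add, hker v hv, zero_add, map_smul, smul_eq_mul] at h0
    have hr : r = 0 := (mul_eq_zero.mp h0).resolve_right hτ
    rw [hr, zero_smul, add_zero]
    exact (mem_Id.mp hv).1
  · exact hker q (mem_Id.mpr ⟨h0, hq⟩)

/-- Nondegeneracy of the pairing. -/
theorem nondeg {s : ℕ} (hs : s + 3 = d 0 + d 1 + d 2) {τ : Pol K →ₗ[K] K}
    (hτ : ∀ q ∈ Sd K s, (τ q = 0 ↔ q ∈ Fid p)) :
    ∀ (n k : ℕ), n + k = s → ∀ a : Pol K, a.IsHomogeneous k →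
      (∀ b : Pol K, b.IsHomogeneous n → τ (b * a) = 0) → a ∈ Fid p := by
  intro n
  induction n with
  | zero =>
    intro k hk a ha h
    have hk6 : k = s := by omega
    subst hk6
    have h1 := h 1 (isHomogeneous_one _ _)
    rw [one_mul] at h1
    exact (hτ a ha).mp h1
  | succ n ih =>
    intro k hk a ha h
    refine hp.socle (k := k) (by omega) ha fun j => ?_
    refine ih (k + 1) (by omega) _ (by
      have := (isHomogeneous_X K j).mul ha
      rwa [add_comm] at this) ?_
    intro b hb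
    have h1 := h (b * X j) (hb.mul (isHomogeneous_X K j))
    rw [← h1]
    congr 1
    ring

/-- The dimension of the orthogonal complement. -/
theorem finrank_perp {s : ℕ} (hs : s + 3 = d 0 + d 1 + d 2) {τ : Pol K →ₗ[K] K}
    (hτ : ∀ q ∈ Sd K s, (τ q = 0 ↔ q ∈ Fid p)) {m n : ℕ} (hmn : n + m = s)
    {V : Submodule K (Pol K)} (hF : Id (Fid p) m ≤ V) (hV : V ≤ Sd K m) :
    finrank K (perp τ n V) + finrank K V = finrank K (Sd K n) + finrank K (Id (Fid p) m) := by
  haveI := finDim hV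
  haveI := finDim (perp_le τ n V)
  have h1 := LinearMap.finrank_range_add_finrank_ker (pairing τ n V)
  have h2 := Subspace.finrank_add_finrank_dualCoannihilator_eq (LinearMap.range (pairing τ n V))
  -- the kernel is the ideal part
  have h3 : finrank K (LinearMap.ker (pairing τ n V)) = finrank K (Id (Fid p) m) := by
    have h4 : (LinearMap.ker (pairing τ n V)).map V.subtype = Id (Fid p) m := by
      ext c
      constructor
      · rintro ⟨c', hc', rfl⟩
        have hc'h : (c' : Pol K).IsHomogeneous m := hV c'.2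
        rw [mem_Id]
        refine ⟨hp.nondeg hs hτ n m hmn _ hc'h fun b hb => ?_, hc'h⟩
        have h5 := LinearMap.congr_fun (LinearMap.mem_ker.mp hc') ⟨b, hb⟩
        rw [pairing_apply] at h5
        simpa using h5
      · intro hc
        refine ⟨⟨c, hF hc⟩, ?_, rfl⟩
        rw [SetLike.mem_coe, LinearMap.mem_ker]
        ext b
        rw [pairing_apply]
        have hb : (b : Pol K).IsHomogeneous n := b.2
        have hmem : (b : Pol K) * c ∈ Sd K s := by
          have h6 := hb.mul (mem_Id.mp hc).2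
          rwa [hmn] at h6
        have h7 : (b : Pol K) * c ∈ Fid p := Ideal.mul_mem_left _ _ (mem_Id.mp hc).1
        simpa using (hτ _ hmem).mpr h7
    rw [← h4]
    exact (Submodule.finrank_map_subtype_eq _ _).symm
  -- the coannihilator is the orthogonal complement
  have h5 : finrank K (LinearMap.range (pairing τ n V)).dualCoannihilator
      = finrank K (perp τ n V) := by
    have h6 : ((LinearMap.range (pairing τ n V)).dualCoannihilator).map (Sd K n).subtype
        = perp τ n V := by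
      ext b
      constructor
      · rintro ⟨b', hb', rfl⟩
        refine ⟨b'.2, fun c hc => ?_⟩
        rw [SetLike.mem_coe, Submodule.mem_dualCoannihilator] at hb'
        exact hb' _ ⟨⟨c, hc⟩, rfl⟩
      · rintro ⟨hb, hb'⟩
        refine ⟨⟨b, hb⟩, ?_, rfl⟩
        rw [SetLike.mem_coe, Submodule.mem_dualCoannihilator]
        rintro _ ⟨c, rfl⟩
        exact hb' c.1 c.2
    rw [← h6]
    exact (Submodule.finrank_map_subtype_eq _ _).symm
  omega

/-- Symmetry of the Hilbert function. -/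
theorem symmetry {s : ℕ} (hs : s + 3 = d 0 + d 1 + d 2) {m n : ℕ} (hmn : n + m = s) :
    finrank K (Id (Fid p) n) + finrank K (Sd K m) = finrank K (Sd K n) + finrank K (Id (Fid p) m) := by
  obtain ⟨τ, hτ⟩ := hp.exists_tau (K := K) hs
  have h1 := hp.finrank_perp hs hτ hmn (V := Sd K m) (Id_le _ m) le_rfl
  have h2 : perp τ n (Sd K m) = Id (Fid p) n := by
    ext b
    rw [mem_perp, mem_Id]
    constructor
    · rintro ⟨hb, hb'⟩
      refine ⟨hp.nondeg hs hτ m n (by omega) b hb fun c hc => ?_, hb⟩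
      rw [mul_comm]
      exact hb' c hc
    · rintro ⟨hb, hb'⟩
      refine ⟨hb', fun c hc => ?_⟩
      refine (hτ _ ?_).mpr (Ideal.mul_mem_right _ _ hb)
      have h3 := hb'.mul hc
      rwa [hmn] at h3
  rw [h2] at h1
  omega

end IsReg3

end Vale.Agent.P200G
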