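import Vale.Agent.P200G.Reg3Dim

/-!
# Dimension counts with a nonzerodivisor modulo a homogeneous ideal
-/

namespace Vale.Agent.P200G

open MvPolynomial Module Vale.Agent.P200

variable {K : Type*} [Field K]

/-- `w` is a nonzerodivisor modulo `𝔠`. -/
def RegMod (w : Pol K) (𝔠 : Ideal (Pol K)) : Prop := ∀ a, a * w ∈ 𝔠 → a ∈ 𝔠

/-- Homogeneous ideals. -/
def HomIdeal (𝔠 : Ideal (Pol K)) : Prop := ∀ q ∈ 𝔠, ∀ n, homogeneousComponent n q ∈ 𝔠

theorem homIdeal_span {G : Set (Pol K)} (hG : ∀ g ∈ G, ∃ e, g.IsHomogeneous e) :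
    HomIdeal (Ideal.span G) := by
  have key : ∀ x ∈ Ideal.span G, ∀ (a : Pol K) (n : ℕ),
      homogeneousComponent n (a * x) ∈ Ideal.span G := by
    intro x hx
    induction hx using Submodule.span_induction with
    | mem x hx =>
      intro a n
      obtain ⟨e, he⟩ := hG x hx
      by_cases hn : n < e
      · rw [hc_mul_lt he _ hn]
        exact Ideal.zero_mem _
      · obtain ⟨m, rfl⟩ : ∃ m, n = m + e := ⟨n - e, by omega⟩
        rw [hc_mul he]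
        exact Ideal.mul_mem_left _ _ (Ideal.subset_span hx)
    | zero =>
      intro a n
      simp
    | add x y _ _ hx hy =>
      intro a n
      rw [mul_add, map_add]
      exact Ideal.add_mem _ (hx a n) (hy a n)
    | smul r x _ hx =>
      intro a n
      rw [smul_eq_mul, ← mul_assoc]
      exact hx _ n
  intro q hq n
  have := key q hq 1 n
  rwa [one_mul] at this

theorem HomIdeal.sup {𝔠 𝔡 : Ideal (Pol K)} (h𝔠 : HomIdeal 𝔠) (h𝔡 : HomIdeal 𝔡) :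
    HomIdeal (𝔠 ⊔ 𝔡) := by
  intro q hq n
  obtain ⟨a, ha, b, hb, rfl⟩ := Submodule.mem_sup.mp hq
  rw [map_add]
  exact Ideal.add_mem _ (Ideal.mem_sup_left (h𝔠 a ha n)) (Ideal.mem_sup_right (h𝔡 b hb n))

theorem homIdeal_singleton {g : Pol K} {e : ℕ} (hg : g.IsHomogeneous e) :
    HomIdeal (Ideal.span {g}) :=
  homIdeal_span (by
    rintro x rfl
    exact ⟨e, hg⟩)

theorem homIdeal_pair {g g' : Pol K} {e e' : ℕ} (hg : g.IsHomogeneous e)
    (hg' : g'.IsHomogeneous e') : HomIdeal (Ideal.span {g, g'}) :=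
  homIdeal_span (by
    rintro x (rfl | rfl)
    · exact ⟨e, hg⟩
    · exact ⟨e', hg'⟩)

theorem mul_mem_Id {𝔠 : Ideal (Pol K)} {a v : Pol K} {α t n : ℕ} (ha : a.IsHomogeneous α)
    (hn : t + α = n) (hv : v ∈ Id 𝔠 t) : a * v ∈ Id 𝔠 n := by
  rw [mem_Id] at hv ⊢
  refine ⟨Ideal.mul_mem_left _ _ hv.1, ?_⟩
  have := ha.mul hv.2
  rwa [show α + t = n by omega] at this

/-- The basic count: a nonzerodivisor preserves the dimension above the ideal. -/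
theorem regular_dim {𝔠 : Ideal (Pol K)} {m : Pol K} {δ t : ℕ} (hm : m.IsHomogeneous δ)
    (hm0 : m ≠ 0) (hreg : RegMod m 𝔠) {V : Submodule K (Pol K)} (h1 : Id 𝔠 t ≤ V)
    (h2 : V ≤ Sd K t) :
    finrank K ↥(V.map (mulBy m) ⊔ Id 𝔠 (t + δ)) + finrank K (Id 𝔠 t)
      = finrank K V + finrank K (Id 𝔠 (t + δ)) := by
  haveI := finDim h2
  have h3 := Submodule.finrank_sup_add_finrank_inf_eq (V.map (mulBy m)) (Id 𝔠 (t + δ))
  rw [finrank_map_mulBy hm0] at h3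
  have h4 : V.map (mulBy m) ⊓ Id 𝔠 (t + δ) = (Id 𝔠 t).map (mulBy m) := by
    ext x
    constructor
    · intro hx
      obtain ⟨hx1, hx2⟩ := Submodule.mem_inf.mp hx
      obtain ⟨v, hv, rfl⟩ := mem_map_mulBy.mp hx1
      rw [mem_Id] at hx2
      refine mem_map_mulBy.mpr ⟨v, ?_, rfl⟩
      rw [mem_Id]
      refine ⟨hreg v ?_, h2 hv⟩
      rw [mul_comm]
      exact hx2.1
    · intro hx
      obtain ⟨v, hv, rfl⟩ := mem_map_mulBy.mp hx
      exact ⟨mem_map_mulBy.mpr ⟨v, h1 hv, rfl⟩, mul_mem_Id hm (by omega) hv⟩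
  rw [h4, finrank_map_mulBy hm0] at h3
  omega

/-- The colon of a subspace by a form. -/
noncomputable def colon (l : Pol K) (V : Submodule K (Pol K)) : Submodule K (Pol K) :=
  V.comap (mulBy l)

theorem mem_colon {l w : Pol K} {V : Submodule K (Pol K)} : w ∈ colon l V ↔ l * w ∈ V := Iff.rfl

theorem colon_le {l : Pol K} (hl : Lin l) {V : Submodule K (Pol K)} {n : ℕ}
    (hV : V ≤ Sd K (n + 1)) : colon l V ≤ Sd K n := by
  intro w hw
  have h1 : (l * w).IsHomogeneous (n + 1) := hV (mem_colon.mp hw)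
  exact quot_hom hl.hom hl.ne (by rwa [mul_comm])

theorem Id_le_colon {𝔠 : Ideal (Pol K)} {l : Pol K} (hl : Lin l) {V : Submodule K (Pol K)} {n : ℕ}
    (hV : Id 𝔠 (n + 1) ≤ V) : Id 𝔠 n ≤ colon l V := fun _ hw =>
  mem_colon.mpr (hV (mul_mem_Id hl.hom (by omega) hw))

theorem Id_mono {𝔠 𝔡 : Ideal (Pol K)} (h : 𝔠 ≤ 𝔡) (n : ℕ) : Id 𝔠 n ≤ Id 𝔡 n := by
  intro q hq
  rw [mem_Id] at hq ⊢
  exact ⟨h hq.1, hq.2⟩

/-- The degree part of the ideal with a linear form added. -/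
theorem Id_sup_le {𝔠 : Ideal (Pol K)} (h𝔠 : HomIdeal 𝔠) {l : Pol K} (hl : l.IsHomogeneous 1)
    (n : ℕ) : Id (𝔠 ⊔ Ideal.span {l}) (n + 1) ≤ Id 𝔠 (n + 1) ⊔ (Sd K n).map (mulBy l) := by
  intro q hq
  rw [mem_Id] at hq
  obtain ⟨c, hc, b, hb, rfl⟩ := Submodule.mem_sup.mp hq.1
  obtain ⟨a, rfl⟩ := Ideal.mem_span_singleton'.mp hb
  have h1 := homogeneousComponent_eq_self hq.2
  rw [map_add, hc_mul hl] at h1
  rw [← h1]
  refine Submodule.add_mem_sup ?_ ?_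
  · rw [mem_Id]
    exact ⟨h𝔠 c hc _, homogeneousComponent_isHomogeneous _ _⟩
  · refine mem_map_mulBy.mpr ⟨_, homogeneousComponent_isHomogeneous n a, by ring⟩

theorem Id_sup_zero {𝔠 : Ideal (Pol K)} (h𝔠 : HomIdeal 𝔠) {l : Pol K} (hl : l.IsHomogeneous 1) :
    Id (𝔠 ⊔ Ideal.span {l}) 0 ≤ Id 𝔠 0 := by
  intro q hq
  rw [mem_Id] at hq ⊢
  obtain ⟨c, hc, b, hb, rfl⟩ := Submodule.mem_sup.mp hq.1
  obtain ⟨a, rfl⟩ := Ideal.mem_span_singleton'.mp hb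
  have h1 := homogeneousComponent_eq_self hq.2
  rw [map_add, hc_mul_lt hl _ (by norm_num), add_zero] at h1
  rw [← h1]
  exact ⟨h𝔠 c hc _, homogeneousComponent_isHomogeneous _ _⟩

/-- The part of `V` in the bigger ideal comes from the colon. -/
theorem inf_Id_sup {𝔠 : Ideal (Pol K)} (h𝔠 : HomIdeal 𝔠) {l : Pol K} (hl : Lin l) {n : ℕ}
    {V : Submodule K (Pol K)} (h1 : Id 𝔠 (n + 1) ≤ V) (h2 : V ≤ Sd K (n + 1)) :
    V ⊓ Id (𝔠 ⊔ Ideal.span {l}) (n + 1) = (colon l V).map (mulBy l) ⊔ Id 𝔠 (n + 1) := by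
  apply le_antisymm
  · intro v hv
    obtain ⟨hv1, hv2⟩ := Submodule.mem_inf.mp hv
    have h3 := Id_sup_le h𝔠 hl.hom n hv2
    obtain ⟨c, hc, b, hb, rfl⟩ := Submodule.mem_sup.mp h3
    obtain ⟨a, -, rfl⟩ := mem_map_mulBy.mp hb
    have h5 : l * a ∈ V := by
      have h4 : l * a = (c + l * a) - c := by ring
      rw [h4]
      exact Submodule.sub_mem _ hv1 (h1 hc)
    rw [show c + l * a = l * a + c from add_comm _ _]
    exact Submodule.add_mem_sup (mem_map_mulBy.mpr ⟨a, mem_colon.mpr h5, rfl⟩) hc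
  · refine sup_le ?_ ?_
    · intro x hx
      obtain ⟨w, hw, rfl⟩ := mem_map_mulBy.mp hx
      refine Submodule.mem_inf.mpr ⟨mem_colon.mp hw, ?_⟩
      rw [mem_Id]
      exact ⟨Ideal.mem_sup_right (Ideal.mul_mem_right _ _ (Ideal.mem_span_singleton_self l)),
        h2 (mem_colon.mp hw)⟩
    · intro x hx
      exact Submodule.mem_inf.mpr ⟨h1 hx, Id_mono le_sup_left _ hx⟩

/-- Splitting a space into the part modulo a linear form and the colon. -/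
theorem colon_split {𝔠 : Ideal (Pol K)} (h𝔠 : HomIdeal 𝔠) {l : Pol K} (hl : Lin l)
    (hreg : RegMod l 𝔠) {n : ℕ} {V : Submodule K (Pol K)} (h1 : Id 𝔠 (n + 1) ≤ V)
    (h2 : V ≤ Sd K (n + 1)) :
    finrank K V + finrank K (Id 𝔠 n) + finrank K (Id (𝔠 ⊔ Ideal.span {l}) (n + 1))
      = finrank K ↥(V ⊔ Id (𝔠 ⊔ Ideal.span {l}) (n + 1)) + finrank K (colon l V)
        + finrank K (Id 𝔠 (n + 1)) := by
  haveI := finDim h2
  have h3 := Submodule.finrank_sup_add_finrank_inf_eq V (Id (𝔠 ⊔ Ideal.span {l}) (n + 1))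
  rw [inf_Id_sup h𝔠 hl h1 h2] at h3
  have h4 := regular_dim (𝔠 := 𝔠) (V := colon l V) (t := n) hl.hom hl.ne hreg
    (Id_le_colon hl h1) (colon_le hl h2)
  omega

/-- The recursion for the growth of a subspace, in terms of a linear form `l` and a linear form `m`
which is a nonzerodivisor modulo the ideal and `l`. -/
theorem step_bound {𝔠 : Ideal (Pol K)} (h𝔠 : HomIdeal 𝔠) {l m : Pol K} (hl : Lin l)
    (hreg : RegMod l 𝔠) (hm : Lin m) (hregm : RegMod m (𝔠 ⊔ Ideal.span {l})) {n : ℕ}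
    {V : Submodule K (Pol K)} (h1 : Id 𝔠 (n + 1) ≤ V) (h2 : V ≤ Sd K (n + 1)) :
    ∃ ub : ℕ,
      finrank K V + finrank K (Id 𝔠 n) = ub + finrank K (colon l V) + finrank K (Id 𝔠 (n + 1)) ∧
      ub + finrank K V + finrank K (Id 𝔠 (n + 2)) ≤
        finrank K ↥(up V ⊔ Id 𝔠 (n + 2)) + finrank K (Id 𝔠 (n + 1)) ∧
      ub + finrank K ↥(up (colon l V) ⊔ Id 𝔠 (n + 1)) + finrank K (Id 𝔠 (n + 2)) ≤
        finrank K ↥(up V ⊔ Id 𝔠 (n + 2)) + finrank K (Id 𝔠 (n + 1)) := by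
  let 𝔡 := 𝔠 ⊔ Ideal.span {l}
  let T := up V ⊔ Id 𝔠 (n + 2)
  have hCle := colon_le hl h2
  have hTle : T ≤ Sd K (n + 2) := sup_le (up_le h2) (Id_le _ _)
  haveI := finDim h2
  haveI := finDim hTle
  have hW : V ⊔ Id 𝔡 (n + 1) ≤ Sd K (n + 1) := sup_le h2 (Id_le _ _)
  have e1 : finrank K V + finrank K (Id 𝔠 n) + finrank K (Id 𝔡 (n + 1))
      = finrank K ↥(V ⊔ Id 𝔡 (n + 1)) + finrank K (colon l V) + finrank K (Id 𝔠 (n + 1)) :=
    colon_split h𝔠 hl hreg h1 h2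
  have e2 : finrank K T + finrank K (Id 𝔠 (n + 1)) + finrank K (Id 𝔡 (n + 2))
      = finrank K ↥(T ⊔ Id 𝔡 (n + 2)) + finrank K (colon l T) + finrank K (Id 𝔠 (n + 2)) :=
    colon_split h𝔠 hl hreg (n := n + 1) (V := T) le_sup_right hTle
  -- the part modulo `l` grows
  have e3 : finrank K ↥((V ⊔ Id 𝔡 (n + 1)).map (mulBy m) ⊔ Id 𝔡 (n + 2)) + finrank K (Id 𝔡 (n + 1))
      = finrank K ↥(V ⊔ Id 𝔡 (n + 1)) + finrank K (Id 𝔡 (n + 2)) :=
    regular_dim (𝔠 := 𝔡) (t := n + 1) (V := V ⊔ Id 𝔡 (n + 1)) hm.hom hm.ne hregm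
      le_sup_right hW
  have hup : (V ⊔ Id 𝔡 (n + 1)).map (mulBy m) ⊔ Id 𝔡 (n + 2) ≤ T ⊔ Id 𝔡 (n + 2) := by
    refine sup_le ?_ le_sup_right
    intro x hx
    obtain ⟨w, hw, rfl⟩ := mem_map_mulBy.mp hx
    obtain ⟨v, hv, c, hc, rfl⟩ := Submodule.mem_sup.mp hw
    rw [mul_add]
    refine Submodule.add_mem _ (Submodule.mem_sup_left (Submodule.mem_sup_left
      (mul_mem_up hm.hom hv))) (Submodule.mem_sup_right (mul_mem_Id hm.hom (by omega) hc))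
  haveI : FiniteDimensional K ↥(T ⊔ Id 𝔡 (n + 2)) :=
    Submodule.finiteDimensional_of_le (sup_le hTle (Id_le _ _))
  have e4 := finrank_le_of_le hup
  -- the colon contains the old space and the growth of the colon
  have hD1 : V ≤ colon l T := fun v hv =>
    mem_colon.mpr (Submodule.mem_sup_left (mul_mem_up hl.hom hv))
  have hD2 : up (colon l V) ⊔ Id 𝔠 (n + 1) ≤ colon l T := by
    refine sup_le ?_ (Id_le_colon hl (n := n + 1) le_sup_right)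
    refine Submodule.mul_le.mpr fun a ha w hw => ?_
    rw [mem_colon]
    refine Submodule.mem_sup_left ?_
    rw [mul_left_comm]
    exact mul_mem_up ha (mem_colon.mp hw)
  have hDle : colon l T ≤ Sd K (n + 1) := colon_le hl hTle
  haveI := finDim hDle
  have e5 : finrank K V ≤ finrank K (colon l T) := finrank_le_of_le hD1
  have e6 : finrank K ↥(up (colon l V) ⊔ Id 𝔠 (n + 1)) ≤ finrank K (colon l T) :=
    finrank_le_of_le hD2
  have hle : Id 𝔡 (n + 1) ≤ V ⊔ Id 𝔡 (n + 1) := le_sup_right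
  haveI : FiniteDimensional K ↥(V ⊔ Id 𝔡 (n + 1)) := Submodule.finiteDimensional_of_le hW
  have e7 : finrank K (Id 𝔡 (n + 1)) ≤ finrank K ↥(V ⊔ Id 𝔡 (n + 1)) := finrank_le_of_le hle
  have e4' : finrank K ↥((V ⊔ Id 𝔡 (n + 1)).map (mulBy m) ⊔ Id 𝔡 (n + 2)) ≤
      finrank K ↥(T ⊔ Id 𝔡 (n + 2)) := e4
  change ∃ ub : ℕ,
      finrank K V + finrank K (Id 𝔠 n) = ub + finrank K (colon l V) + finrank K (Id 𝔠 (n + 1)) ∧
      ub + finrank K V + finrank K (Id 𝔠 (n + 2)) ≤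
        finrank K T + finrank K (Id 𝔠 (n + 1)) ∧
      ub + finrank K ↥(up (colon l V) ⊔ Id 𝔠 (n + 1)) + finrank K (Id 𝔠 (n + 2)) ≤
        finrank K T + finrank K (Id 𝔠 (n + 1))
  refine ⟨finrank K ↥(V ⊔ Id 𝔡 (n + 1)) - finrank K (Id 𝔡 (n + 1)), ?_, ?_, ?_⟩
  · omega
  · omega
  · omega

end Vale.Agent.P200G
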