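import Vale.Agent.P200G.ClaimB

/-!
# The growth function and the growth in low degree
-/

namespace Vale.Agent.P200G

open MvPolynomial Module Vale.Agent.P200

variable {K : Type*} [Field K]

/-- The growth of lexicographic segments outside `P = (x₀³, x₁ᵇ, x₂ᵇ)` from degree `d` to `d + 1`,
as a function of the size `u` of the segment. -/
def phi (b d u : ℕ) : ℕ :=
  if u = 0 then 0
  else if d = 0 then 3
  else if d + 2 ≤ b then (if u + 1 ≤ d then u + 1 else if u + 1 ≤ 2 * d then u + 2 else u + 3)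
  else if d + 1 = b then (if u + 2 ≤ b then u + 1 else if u + 3 < 3 * b then u + 2 else u + 1)
  else if d = b then (if u + 2 ≤ 2 * b then u + 1 else if u + 3 ≤ 3 * b then u else u - 1)
  else if d + 1 = 2 * b then 1
  else if u + d < 2 * b + 1 then u
  else if u + 2 * d < 4 * b + 1 then u - 1
  else if u + 3 * d < 6 * b then u - 2
  else u - 3

namespace IsReg3

variable {d : Fin 3 → ℕ} {p : Fin 3 → Pol K} {b : ℕ}

/-- The growth inequality in degrees below the last two forms, over an infinite field. -/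
theorem step_low [Infinite K] (hp : IsReg3 d p) (h0 : d 0 = 3) (h1 : d 1 = b) (h2 : d 2 = b)
    (hb : 3 ≤ b) {j : ℕ} (hj : j + 1 ≤ b) {Y : Submodule K (Pol K)}
    (hY1 : Id (Fid p) j ≤ Y) (hY2 : Y ≤ Sd K j) :
    finrank K (Id (Fid p) (j + 1)) + phi b j (finrank K Y - finrank K (Id (Fid p) j))
      ≤ finrank K ↥(up Y ⊔ Id (Fid p) (j + 1)) := by
  have hf : (p 0).IsHomogeneous 3 := by have := hp.hom 0; rwa [h0] at this
  haveI := finDim hY2
  have hTle : up Y ⊔ Id (Fid p) (j + 1) ≤ Sd K (j + 1) := sup_le (up_le hY2) (Id_le _ _)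
  haveI := finDim hTle
  have hFT : finrank K (Id (Fid p) (j + 1)) ≤ finrank K ↥(up Y ⊔ Id (Fid p) (j + 1)) :=
    finrank_le_of_le le_sup_right
  have hle := finrank_le_of_le hY1
  obtain ⟨u, hu⟩ : ∃ u, finrank K Y = u + finrank K (Id (Fid p) j) :=
    ⟨_, (Nat.sub_add_cancel hle).symm⟩
  have hsub : finrank K Y - finrank K (Id (Fid p) j) = u := by omega
  rw [hsub]
  by_cases hu0 : u = 0
  · simp only [phi, hu0, if_true]
    simpa using hFT
  by_cases hj0 : j = 0
  · subst hj0
    have h3 := up_ge_three hY2 (by omega)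
    have h4 := finrank_le_of_le (le_sup_left : up Y ≤ up Y ⊔ Id (Fid p) (0 + 1))
    have h5 : finrank K (Id (Fid p) (0 + 1)) = c3 1 := hp.F_below' h0 h1 h2 (by omega)
    rw [c3_one] at h5
    simp only [phi, hu0, if_false, if_true]
    omega
  by_cases hj2 : j + 2 ≤ b
  · have e1 := hp.Id_eq_below h0 h1 h2 (n := j) (by omega)
    have e2 := hp.Id_eq_below h0 h1 h2 (n := j + 1) (by omega)
    rw [← e1] at hY1 hu
    rw [← e2] at hFT ⊢
    obtain ⟨uT, huT⟩ : ∃ uT, finrank K ↥(up Y ⊔ Id (Ideal.span {p 0}) (j + 1))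
        = uT + finrank K (Id (Ideal.span {p 0}) (j + 1)) := ⟨_, (Nat.sub_add_cancel hFT).symm⟩
    obtain ⟨b1, b2, b3⟩ := boundC hf hp.p0_ne j (by omega) Y hY1 hY2 u uT hu huT
    rw [huT]
    simp only [phi, hu0, hj0, if_false, hj2, if_true]
    split_ifs with c1 c2
    · have := b1 (by omega)
      omega
    · have := b2 (by omega) (by omega)
      omega
    · have := b3 (by omega)
      omega
  -- the critical degree
  have hjb : j + 1 = b := by omega
  subst hjb
  have e1 := hp.Id_eq_below h0 h1 h2 (n := j) (by omega)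
  rw [← e1] at hY1 hu
  have hF := hp.F_at' (K := K) h0 h1 h2 (by omega)
  have hc := c3_add (n := j) (by omega)
  have hc' := c3_add (n := j + 1) (by omega)
  have hd := finrank_c3 hf hp.p0_ne j
  have hd' := finrank_c3 hf hp.p0_ne (j + 1)
  have hS := finrank_le_of_le hY2
  rw [finrank_Sd] at hS
  simp only [phi, hu0, hj0, if_false, hj2, if_true]
  rw [hF]
  split_ifs with c1 c2
  · have := hp.claim_A h0 h1 h2 (by omega) hY1 hY2 hu (by omega)
    omega
  · have := hp.claim_B h0 h1 h2 (by omega) hY1 hY2 hu (by omega) (by omega)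
    omega
  · have hY : Y = Sd K j := by
      refine Submodule.eq_of_le_of_finrank_le hY2 ?_
      rw [finrank_Sd]
      omega
    rw [hY, up_top_eq]
    have h3 : (Sd K (j + 1)) ≤ Sd K (j + 1) ⊔ Id (Fid p) (j + 1) := le_sup_left
    haveI : FiniteDimensional K ↥(Sd K (j + 1) ⊔ Id (Fid p) (j + 1)) :=
      Submodule.finiteDimensional_of_le (sup_le le_rfl (Id_le _ _))
    have h4 := finrank_le_of_le h3
    rw [finrank_Sd] at h4
    omega

end IsReg3

end Vale.Agent.P200G
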