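import Vale.Agent.P200.Growth
import Vale.Agent.P200G.Defs

/-!
# Homogeneity with integer degrees
-/

namespace Vale.Agent.P200G

open MvPolynomial Module Vale.Agent.P200

variable {K : Type*} [Field K]

/-- Homogeneous of integer degree `n`: all components of other degrees vanish. In particular the
polynomial vanishes when `n < 0`. -/
def HomZ (p : Pol K) (n : ℤ) : Prop := ∀ m : ℕ, (m : ℤ) ≠ n → homogeneousComponent m p = 0

theorem homZ_nat {p : Pol K} {k : ℕ} : HomZ p k ↔ p.IsHomogeneous k := by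
  constructor
  · intro h
    have h3 : p = homogeneousComponent k p := by
      conv_lhs => rw [← sum_homogeneousComponent p]
      by_cases hk : k ∈ Finset.range (p.totalDegree + 1)
      · rw [Finset.sum_eq_single_of_mem k hk]
        intro n _ hn
        exact h n (by exact_mod_cast hn)
      · rw [Finset.sum_eq_zero, homogeneousComponent_eq_zero]
        · simp only [Finset.mem_range] at hk
          omega
        · intro n hn
          refine h n ?_
          rintro hnk
          have : n = k := by exact_mod_cast hnk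
          subst this
          exact hk hn
    rw [h3]
    exact homogeneousComponent_isHomogeneous k p
  · intro h m hm
    rw [homogeneousComponent_of_mem h, if_neg]
    intro hk
    exact hm (by exact_mod_cast hk)

theorem HomZ.eq_zero {p : Pol K} {n : ℤ} (h : HomZ p n) (hn : n < 0) : p = 0 := by
  rw [← sum_homogeneousComponent p]
  refine Finset.sum_eq_zero fun m _ => h m ?_
  omega

theorem homZ_zero (n : ℤ) : HomZ (0 : Pol K) n := fun m _ => by simp

theorem homZ_of_neg {p : Pol K} {n : ℤ} (hn : n < 0) : HomZ p n ↔ p = 0 := by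
  constructor
  · intro h
    exact h.eq_zero hn
  · rintro rfl
    exact homZ_zero n

theorem HomZ.add {p q : Pol K} {n : ℤ} (hp : HomZ p n) (hq : HomZ q n) : HomZ (p + q) n := by
  intro m hm
  rw [map_add, hp m hm, hq m hm, add_zero]

theorem HomZ.sub {p q : Pol K} {n : ℤ} (hp : HomZ p n) (hq : HomZ q n) : HomZ (p - q) n := by
  intro m hm
  rw [map_sub, hp m hm, hq m hm, sub_zero]

theorem HomZ.neg {p : Pol K} {n : ℤ} (hp : HomZ p n) : HomZ (-p) n := by
  intro m hm
  rw [map_neg, hp m hm, neg_zero]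

theorem HomZ.smul {p : Pol K} {n : ℤ} (hp : HomZ p n) (r : K) : HomZ (r • p) n := by
  intro m hm
  rw [map_smul, hp m hm, smul_zero]

/-- An integer degree that is nonnegative is a natural number. -/
theorem HomZ.isHom {p : Pol K} {n : ℤ} (h : HomZ p n) (hn : 0 ≤ n) : p.IsHomogeneous n.toNat := by
  apply homZ_nat.mp
  rwa [Int.toNat_of_nonneg hn]

theorem HomZ.isHom_zero {p : Pol K} {n : ℤ} (h : HomZ p n) : p.IsHomogeneous n.toNat := by
  by_cases hn : 0 ≤ n
  · exact h.isHom hn
  · rw [h.eq_zero (by omega)]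
    exact isHomogeneous_zero _ _ _

theorem HomZ.mul {p q : Pol K} {m n : ℤ} (hp : HomZ p m) (hq : HomZ q n) : HomZ (p * q) (m + n) := by
  by_cases hm : 0 ≤ m
  · by_cases hn : 0 ≤ n
    · have h := (hp.isHom hm).mul (hq.isHom hn)
      have h2 : ((m.toNat + n.toNat : ℕ) : ℤ) = m + n := by
        push_cast
        rw [Int.toNat_of_nonneg hm, Int.toNat_of_nonneg hn]
      rw [← h2]
      exact homZ_nat.mpr h
    · rw [hq.eq_zero (by omega), mul_zero]
      exact homZ_zero _
  · rw [hp.eq_zero (by omega), zero_mul]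
    exact homZ_zero _

theorem HomZ.mul_nat {p q : Pol K} {m : ℤ} {e : ℕ} (hp : HomZ p m) (hq : q.IsHomogeneous e) :
    HomZ (p * q) (m + e) := hp.mul (homZ_nat.mpr hq)

/-- Divide out a nonzero homogeneous factor. -/
theorem HomZ.of_mul {a p : Pol K} {m : ℤ} {e : ℕ} (hp : p.IsHomogeneous e) (hp0 : p ≠ 0)
    (h : HomZ (a * p) (m + e)) : HomZ a m := by
  intro k hk
  have h1 := hc_mul hp a k
  rw [h (k + e) (by push_cast; omega)] at h1
  exact (mul_eq_zero.mp h1.symm).resolve_right hp0

/-- The component of integer degree `n`. -/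
noncomputable def hcZ (n : ℤ) (p : Pol K) : Pol K :=
  if 0 ≤ n then homogeneousComponent n.toNat p else 0

theorem hcZ_homZ (n : ℤ) (p : Pol K) : HomZ (hcZ n p) n := by
  unfold hcZ
  split_ifs with h
  · have := homZ_nat.mpr (homogeneousComponent_isHomogeneous n.toNat p)
    rwa [Int.toNat_of_nonneg h] at this
  · exact homZ_zero n

theorem HomZ.hcZ_eq {p : Pol K} {n : ℤ} (h : HomZ p n) : hcZ n p = p := by
  unfold hcZ
  split_ifs with hn
  · exact homogeneousComponent_eq_self (h.isHom hn)
  · exact (h.eq_zero (by omega)).symm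

theorem hcZ_add (n : ℤ) (p q : Pol K) : hcZ n (p + q) = hcZ n p + hcZ n q := by
  unfold hcZ
  split_ifs <;> simp

theorem hcZ_sub (n : ℤ) (p q : Pol K) : hcZ n (p - q) = hcZ n p - hcZ n q := by
  unfold hcZ
  split_ifs <;> simp

theorem hcZ_mul {p : Pol K} {e : ℕ} (hp : p.IsHomogeneous e) (w : Pol K) (n : ℤ) :
    hcZ (n + e) (w * p) = hcZ n w * p := by
  unfold hcZ
  by_cases hn : 0 ≤ n
  · rw [if_pos hn, if_pos (by omega)]
    have : (n + e).toNat = n.toNat + e := by omega
    rw [this, hc_mul hp]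
  · rw [if_neg hn, zero_mul]
    by_cases hn2 : 0 ≤ n + e
    · rw [if_pos hn2]
      exact hc_mul_lt hp w (by omega)
    · rw [if_neg hn2]

/-- The space of forms of integer degree `n`. -/
noncomputable def Sz (K : Type*) [Field K] (n : ℤ) : Submodule K (Pol K) where
  carrier := {p | HomZ p n}
  add_mem' := fun hp hq => HomZ.add hp hq
  zero_mem' := homZ_zero n
  smul_mem' := fun r _ hp => HomZ.smul hp r

theorem mem_Sz {n : ℤ} {p : Pol K} : p ∈ Sz K n ↔ HomZ p n := Iff.rfl

theorem Sz_nat (k : ℕ) : Sz K k = Sd K k := by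
  ext p
  rw [mem_Sz, homZ_nat]
  rfl

theorem Sz_neg {n : ℤ} (hn : n < 0) : Sz K n = ⊥ := by
  ext p
  rw [mem_Sz, homZ_of_neg hn, Submodule.mem_bot]

/-- The dimension of the forms of integer degree `m`. -/
def cc (m : ℤ) : ℕ := (m + 2).toNat.choose 2

theorem cc_neg {m : ℤ} (hm : m < 0) : cc m = 0 := by
  unfold cc
  apply Nat.choose_eq_zero_of_lt
  omega

theorem finrank_Sz (n : ℤ) : finrank K (Sz K n) = cc n := by
  by_cases hn : 0 ≤ n
  · obtain ⟨k, rfl⟩ := Int.eq_ofNat_of_zero_le hn
    rw [Sz_nat, finrank_Sd]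
    unfold cc
    congr 1
  · rw [Sz_neg (by omega), finrank_bot, cc_neg (by omega)]

instance instFiniteSz (n : ℤ) : FiniteDimensional K (Sz K n) := by
  by_cases hn : 0 ≤ n
  · obtain ⟨k, rfl⟩ := Int.eq_ofNat_of_zero_le hn
    rw [Sz_nat]
    infer_instance
  · rw [Sz_neg (by omega)]
    infer_instance

/-- The closed form of `cc` for `m ≥ -2`. -/
theorem two_mul_cc {m : ℤ} (hm : -2 ≤ m) : 2 * (cc m : ℤ) = (m + 2) * (m + 1) := by
  unfold cc
  obtain ⟨k, hk⟩ : ∃ k : ℕ, m + 2 = k := ⟨(m + 2).toNat, by omega⟩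
  have hm2 : m + 1 = (k : ℤ) - 1 := by omega
  rw [hk, hm2]
  simp only [Int.toNat_natCast]
  rw [Nat.choose_two_right]
  cases k with
  | zero => simp
  | succ n =>
    have h1 : 2 ∣ (n + 1) * n := by
      have := Nat.even_mul_succ_self n
      rw [mul_comm]
      exact this.two_dvd
    obtain ⟨c, hc⟩ := h1
    have h2 : (n + 1) * (n + 1 - 1) / 2 = c := by
      simp only [Nat.add_sub_cancel]
      omega
    rw [h2]
    push_cast
    have h3 : (((n + 1) * n : ℕ) : ℤ) = ((2 * c : ℕ) : ℤ) := by rw [hc]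
    push_cast at h3
    linarith

end Vale.Agent.P200G
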